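import Crest.Agent.R251.K.Ups

/-!
# Row 251, K₁ part: three-dimensional complex representations with `ρ` diagonal

`φ = [[1,0,0],[0,1,0],[0,0,1],[0,0,1],0,0]`, `φ' = [[1,0,0,0,0,0],[0,1,0,0,0,0],[0,0,1/2,1/2,0,0]]`, `φ' φ = 1`, against
`M(α, β²)`.  `P = 1 ⊕ sw ⊕ 1` conjugates `M(α, β)` to the swapped `M(α, β²)` with `t` (type `T`, `flip_diag`) and `u`
(type `Y`, `flip_plane` with `β = 1`) flipped on the block `n`.
-/

set_option autoImplicit false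

open Matrix

namespace Crest.Agent.R251

/-- eigenbasis form -/
structure IsEig (θ : G →* Matrix (Fin 3) (Fin 3) ℂ) (α β γ : ℂ) : Prop where
  hα : α ^ 5 = 1
  hβ : β ^ 3 = 1
  hγ : γ ^ 3 = 1
  r : θ gr = !![-(α * β), 0, 0; 0, -(α ^ 4 * β ^ 2), 0; 0, 0, 1]
  s : θ gs = !![0, 1, 0; 1, 0, 0; 0, 0, -1]
  bZ : θ gbZ = !![γ, 0, 0; 0, γ ^ 2, 0; 0, 0, 1]

variable {m : Type} [Fintype m] [DecidableEq m] {w : Matrix m m (ZG G)}
  {θ θ' : G →* Matrix (Fin 3) (Fin 3) ℂ} {α β γ : ℂ}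

theorem ala_pow (x y : ℂ) (n : ℕ) :
    (!![x, 0, 0; 0, y, 0; 0, 0, 1] : Matrix (Fin 3) (Fin 3) ℂ) ^ n = !![x ^ n, 0, 0; 0, y ^ n, 0; 0, 0, 1] := by
  induction n with
  | zero => simp only [pow_zero]; exact one_fin_three
  | succ n ih => rw [pow_succ, ih, mul_fin_three]; simp [pow_succ]

theorem IsEig.ga_eq (h : IsEig θ α β γ) : θ ga = !![α, 0, 0; 0, α ^ 4, 0; 0, 0, 1] := by
  have e1 : (-(α * β)) ^ 6 = α * α ^ 5 * (β ^ 3) ^ 2 := by ring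
  have e2 : (-(α ^ 4 * β ^ 2)) ^ 6 = α ^ 4 * (α ^ 5) ^ 4 * (β ^ 3) ^ 4 := by ring
  rw [ga, map_pow, h.r, ala_pow, e1, e2, h.hα, h.hβ]
  simp

theorem IsEig.gb_eq (h : IsEig θ α β γ) : θ gb = !![β, 0, 0; 0, β ^ 2, 0; 0, 0, 1] := by
  have e1 : (-(α * β)) ^ 10 = β * (α ^ 5) ^ 2 * (β ^ 3) ^ 3 := by ring
  have e2 : (-(α ^ 4 * β ^ 2)) ^ 10 = β ^ 2 * (α ^ 5) ^ 8 * (β ^ 3) ^ 6 := by ring
  rw [gb, map_pow, h.r, ala_pow, e1, e2, h.hα, h.hβ]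
  simp

theorem IsEig.gc_eq (h : IsEig θ α β γ) : θ gc = !![-1, 0, 0; 0, -1, 0; 0, 0, 1] := by
  have e1 : (-(α * β)) ^ 15 = -((α ^ 5) ^ 3 * (β ^ 3) ^ 5) := by ring
  have e2 : (-(α ^ 4 * β ^ 2)) ^ 15 = -((α ^ 5) ^ 12 * (β ^ 3) ^ 10) := by ring
  rw [gc, map_pow, h.r, ala_pow, e1, e2, h.hα, h.hβ]
  simp

theorem IsEig.gsp_eq (h : IsEig θ α β γ) : θ gsp = !![0, -1, 0; -1, 0, 0; 0, 0, -1] := by
  rw [gsp, map_mul, h.s, h.gc_eq, mul_fin_three]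
  simp

/-- inclusion of the plane -/
def alaP : Matrix (Fin 3) (Fin 2) ℂ := !![1, 0; 0, 1; 0, 0]

/-- projection onto the plane -/
def alaQ : Matrix (Fin 2) (Fin 3) ℂ := !![1, 0, 0; 0, 1, 0]

theorem ala_tw : tw (alaP * alaQ) (-1) = !![-1, 0, 0; 0, -1, 0; 0, 0, 1] := by
  ext i j
  fin_cases i <;> fin_cases j <;> simp [tw, alaP, alaQ]

theorem ala_summand {k : BT} {β ε : ℂ} (hb : θ (eb k) = !![β, 0, 0; 0, β ^ 2, 0; 0, 0, 1])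
    (hs : θ (es k) = !![0, ε, 0; ε, 0, 0; 0, 0, -1]) :
    Summand k θ alaP alaQ !![β, 0; 0, β ^ 2] !![0, ε; ε, 0] := by
  refine ⟨?_, ?_, ?_, ?_, ?_⟩ <;> (try simp only [hb, hs]) <;> ext i j <;> fin_cases i <;> fin_cases j <;>
    simp [alaP, alaQ, Matrix.mul_apply, Fin.sum_univ_succ]

theorem IsEig.flipT (hw : IsUnit w) (h : IsEig θ α β γ) (hb : Bent .T θ θ' (θ gc)) : DD θ' w = DD θ w := by
  refine flip_plane hw (k := .T) (.inl rfl) h.hβ (.inl rfl) (ala_summand h.gb_eq h.s) ?_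
  rwa [ala_tw, ← h.gc_eq]

theorem IsEig.flipZ (hw : IsUnit w) (h : IsEig θ α β γ) (hb : Bent .Z θ θ' (θ gc)) : DD θ' w = DD θ w := by
  refine flip_plane hw (k := .Z) (.inr (.inl rfl)) h.hγ (.inr rfl) (ala_summand h.bZ h.gsp_eq) ?_
  rwa [ala_tw, ← h.gc_eq]

/-- the projection onto the common summand inside the monomial representation -/
noncomputable def eM : Matrix (Fin 6) (Fin 6) ℂ :=
  !![1, 0, 0, 0, 0, 0; 0, 1, 0, 0, 0, 0; 0, 0, 1 / 2, 1 / 2, 0, 0; 0, 0, 1 / 2, 1 / 2, 0, 0;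
    0, 0, 0, 0, 0, 0; 0, 0, 0, 0, 0, 0]

/-- the swap on the block `n` -/
def albP : Matrix (Fin 6) (Fin 6) ℂ :=
  !![1, 0, 0, 0, 0, 0; 0, 1, 0, 0, 0, 0; 0, 0, 0, 1, 0, 0; 0, 0, 1, 0, 0, 0;
    0, 0, 0, 0, 1, 0; 0, 0, 0, 0, 0, 1]

/-- the sign on the block `n` -/
def albF : Matrix (Fin 6) (Fin 6) ℂ :=
  !![1, 0, 0, 0, 0, 0; 0, 1, 0, 0, 0, 0; 0, 0, -1, 0, 0, 0; 0, 0, 0, -1, 0, 0;
    0, 0, 0, 0, 1, 0; 0, 0, 0, 0, 0, 1]

/-- inclusion of the block `n` -/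
def albI : Matrix (Fin 6) (Fin 2) ℂ := !![0, 0; 0, 0; 1, 0; 0, 1; 0, 0; 0, 0]

/-- projection onto the block `n` -/
def albJ : Matrix (Fin 2) (Fin 6) ℂ := !![0, 0, 1, 0, 0, 0; 0, 0, 0, 1, 0, 0]

theorem alb_PP : albP * albP = 1 := by
  ext i j
  fin_cases i <;> fin_cases j <;> simp [albP, mul_apply, Fin.sum_univ_succ]

theorem alb_F : tw (albI * albJ) (-1) = albF := by
  ext i j
  fin_cases i <;> fin_cases j <;> simp [tw, albF, albI, albJ]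

theorem alb_JI : albJ * albI = 1 := by
  ext i j
  fin_cases i <;> fin_cases j <;> simp [albI, albJ, mul_apply, Fin.sum_univ_succ]

theorem alb_sp : MS ℂ * MC ℂ = MSp ℂ := by
  simp [MS, MC, MSp]

theorem alb_d (x y : ℂ) : diagonal ![x, y, 1, 1, 1, 1] * albI = albI ∧
    albJ * diagonal ![x, y, 1, 1, 1, 1] = albJ := by
  constructor <;> ext i j <;> fin_cases i <;> fin_cases j <;> simp [albI, albJ]

theorem alb_s : MS ℂ * albI = albI * !![(-1 : ℂ), 0; 0, -1] ∧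
    albJ * MS ℂ = !![(-1 : ℂ), 0; 0, -1] * albJ := by
  simp [MS, albI, albJ]

theorem alb_s' : MSp ℂ * albI = albI * !![(0 : ℂ), -1; -1, 0] ∧
    albJ * MSp ℂ = !![(0 : ℂ), -1; -1, 0] * albJ := by
  simp [MSp, albI, albJ]

theorem alb_Ps : albP * MS ℂ * albP = MS ℂ := by
  simp [MS, albP]

theorem alb_Pr (α β : ℂ) : albP * MR α β * albP = MR α β := by
  simp [MR, albP]

theorem alb_Es : 1 - eM + MS ℂ * eM =
    !![0, 1, 0, 0, 0, 0; 1, 0, 0, 0, 0, 0; 0, 0, 0, -1, 0, 0; 0, 0, -1, 0, 0, 0;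
      0, 0, 0, 0, 1, 0; 0, 0, 0, 0, 0, 1] := by
  ext i j
  fin_cases i <;> fin_cases j <;> simp [eM, MS] <;> norm_num

theorem alb_Es' : 1 - eM + MSp ℂ * eM =
    !![0, -1, 0, 0, 0, 0; -1, 0, 0, 0, 0, 0; 0, 0, 0, -1, 0, 0; 0, 0, -1, 0, 0, 0;
      0, 0, 0, 0, 1, 0; 0, 0, 0, 0, 0, 1] := by
  ext i j
  fin_cases i <;> fin_cases j <;> simp [eM, MSp] <;> norm_num

theorem alb_Pt : albP * MT ℂ * albP * albF = MT ℂ * (1 - eM + MS ℂ * eM) := by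
  rw [alb_Es]
  simp [MT, albP, albF]

theorem alb_Pu : albP * MU ℂ false * albP * albF = MU ℂ false := by
  simp [MU, albP, albF]

theorem alb_Pu' : albP * MU ℂ true * albP * albF = MU ℂ true * (1 - eM + MSp ℂ * eM) := by
  rw [alb_Es']
  simp [MU, albP, albF]

theorem alb_r (α β β' : ℂ) : MR α β' * (1 - eM) + MR α β * eM = MR α β := by
  have : (MR α β' - MR α β) * (1 - eM) = 0 := by
    have e : 1 - eM = !![0, 0, 0, 0, 0, 0; 0, 0, 0, 0, 0, 0; 0, 0, 1 / 2, -1 / 2, 0, 0;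
        0, 0, -1 / 2, 1 / 2, 0, 0; 0, 0, 0, 0, 1, 0; 0, 0, 0, 0, 0, 1] := by
      ext i j
      fin_cases i <;> fin_cases j <;> simp [eM] <;> norm_num
    rw [e]
    ext i j
    fin_cases i <;> fin_cases j <;> simp [MR]
  rw [sub_mul, sub_eq_zero] at this
  rw [this, ← mul_add, sub_add_cancel, mul_one]

theorem alb_gsp {ξ : G →* Matrix (Fin 6) (Fin 6) ℂ} (hα : α ^ 5 = 1) (hβ : β ^ 3 = 1)
    (hs : ξ gs = MS ℂ) (hr : ξ gr = MR α β) : ξ gsp = MSp ℂ := by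
  rw [gsp, gc, map_mul, map_pow, hs, hr, MR_pow_fifteen hα hβ, alb_sp]

theorem alb_star {X : Bool} {η : G →* Matrix (Fin 6) (Fin 6) ℂ} (h : IsM X η α β) :
    ∃ ξ : G →* Matrix (Fin 6) (Fin 6) ℂ, ξ gt = MT ℂ * (1 - eM + MS ℂ * eM) ∧
      ξ gu = albP * MU ℂ X * albP * albF ∧ ξ gs = MS ℂ ∧ ξ gr = MR α β ∧
      (IsUnit w → DD ξ w = DD η w) := by
  have hu : IsUnit (tw (albI * albJ) (-1)) := by
    refine isUnit_tw ?_ (-1)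
    rw [Matrix.mul_assoc, ← Matrix.mul_assoc albJ, alb_JI, Matrix.one_mul]
  obtain ⟨ζ, hζ⟩ : ∃ ζ, ζ = (conjHom albP albP alb_PP).comp η := ⟨_, rfl⟩
  have e : ∀ g, ζ g = albP * η g * albP := fun g => by rw [hζ]; rfl
  have s0 : ζ gs = MS ℂ := by rw [e, h.s, alb_Ps]
  have r0 : ζ gr = MR α β := by rw [e, h.r, alb_Pr]
  have b0 : ζ gb = diagonal ![β, β ^ 2, 1, 1, 1, 1] := by
    rw [gb, map_pow, r0, MR_pow_ten h.hα h.hβ]
  have S1 : Summand .T ζ albI albJ 1 !![-1, 0; 0, -1] :=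
    ⟨alb_JI, by rw [eb, b0, (alb_d _ _).1, Matrix.mul_one],
      by rw [eb, b0, (alb_d _ _).2, Matrix.one_mul], by rw [es, s0, alb_s.1], by rw [es, s0, alb_s.2]⟩
  obtain ⟨ζ₁, h₁⟩ := exists_bent .T ζ hu ((S1.intw (by decide)).to_tw _)
  have s1 := h₁.2.2.1.trans s0
  have r1 := h₁.2.2.2.trans r0
  have a1 : ζ₁ ga = diagonal ![α, α ^ 4, 1, 1, 1, 1] := by
    rw [ga, map_pow, r1, MR_pow_six h.hα h.hβ]
  have p1 := alb_gsp h.hα h.hβ s1 r1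
  have e1 : (!![1, 0; 0, 1 ^ 2] : Matrix (Fin 2) (Fin 2) ℂ) = 1 := by rw [one_pow, one_fin_two]
  have S2 : Summand .Y ζ₁ albI albJ !![1, 0; 0, 1 ^ 2] !![0, -1; -1, 0] :=
    ⟨alb_JI, by rw [eb, a1, e1, (alb_d _ _).1, Matrix.mul_one],
      by rw [eb, a1, e1, (alb_d _ _).2, Matrix.one_mul], by rw [es, p1, alb_s'.1],
      by rw [es, p1, alb_s'.2]⟩
  obtain ⟨ζ₂, h₂⟩ := exists_bent .Y ζ₁ hu ((S2.intw (by decide)).to_tw _)
  refine ⟨ζ₂, ?_, ?_, h₂.2.2.1.trans s1, h₂.2.2.2.trans r1, fun hw => ?_⟩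
  · rw [h₂.1, h₁.1, e, h.t, alb_F, alb_Pt]
  · rw [h₂.2.1, h₁.2.1, e, h.u, alb_F]
  · rw [flip_plane hw (.inr (.inr ⟨rfl, rfl⟩)) (one_pow 3) (.inr rfl) S2 h₂,
      flip_diag hw (by decide) (.inr rfl) (.inr rfl) S1 h₁, hζ, DD_conjHom]

theorem alb_sw {X : Bool} {η' η₁ : G →* Matrix (Fin 6) (Fin 6) ℂ} (hβ : β ^ 3 = 1)
    (h' : IsM X η' α (β ^ 2)) (h₁ : SwA η' η₁ eM) : η₁ gt = MT ℂ * (1 - eM + MS ℂ * eM) ∧
      η₁ gu = MU ℂ X ∧ η₁ gs = MS ℂ ∧ η₁ gr = MR α β := by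
  refine ⟨by rw [h₁.t, h'.t, h'.s], h₁.u.trans h'.u, h₁.s.trans h'.s, ?_⟩
  rw [h₁.r, h'.r, MR_pow_eleven h'.hα h'.hβ,
    show (β ^ 2) ^ 2 = β by linear_combination β * hβ, alb_r]

/-- the swapped monomial representation of type `A` -/
theorem DD_swappedA (hw : IsUnit w) {η η' η₁ : G →* Matrix (Fin 6) (Fin 6) ℂ} (h : IsM false η α β)
    (h' : IsM false η' α (β ^ 2)) (h₁ : SwA η' η₁ eM) : DD η₁ w = DD η w := by
  obtain ⟨ξ, a1, a2, a3, a4, a5⟩ := alb_star (w := w) h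
  obtain ⟨b1, b2, b3, b4⟩ := alb_sw h.hβ h' h₁
  rw [hom_ext (b1.trans a1.symm) (by rw [b2, a2, alb_Pu]) (b3.trans a3.symm) (b4.trans a4.symm),
    a5 hw]

/-- the twice swapped monomial representation of type `AZ` -/
theorem DD_swappedAZ (hw : IsUnit w) {η η' η₁ η₂ : G →* Matrix (Fin 6) (Fin 6) ℂ} (h : IsM true η α β)
    (h' : IsM true η' α (β ^ 2)) (h₁ : SwA η' η₁ eM) (h₂ : Bent .Z η₁ η₂ (1 - eM + η₁ gsp * eM)) :
    DD η₂ w = DD η w := by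
  obtain ⟨ξ, a1, a2, a3, a4, a5⟩ := alb_star (w := w) h
  obtain ⟨b1, b2, b3, b4⟩ := alb_sw h.hβ h' h₁
  obtain ⟨c1, c2, c3, c4⟩ := h₂
  rw [hom_ext (θ := η₂) (θ' := ξ) (by rw [c1, b1, a1])
    (by rw [c2, b2, a2, alb_Pu', alb_gsp h.hα h.hβ b3 b4]) (by rw [c3, b3, a3])
    (by rw [c4, b4, a4]), a5 hw]

/-- the twice swapped representation exists (it is a twice flipped conjugate of `M(α, β)`) -/
theorem exists_swappedAZ {η' η₁ : G →* Matrix (Fin 6) (Fin 6) ℂ} (hβ : β ^ 3 = 1)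
    (h' : IsM true η' α (β ^ 2)) (h₁ : SwA η' η₁ eM) : ∃ η₂, Bent .Z η₁ η₂ (1 - eM + η₁ gsp * eM) := by
  obtain ⟨η, h⟩ := exists_isM true h'.hα hβ
  obtain ⟨ξ, a1, a2, a3, a4, -⟩ := alb_star (m := Unit) (w := 1) h
  obtain ⟨b1, b2, b3, b4⟩ := alb_sw hβ h' h₁
  exact ⟨ξ, a1.trans b1.symm, by rw [b2, a2, alb_Pu', alb_gsp h.hα h.hβ b3 b4], a3.trans b3.symm,
    a4.trans b4.symm⟩

/-- inclusion into the monomial representation -/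
def alaF : Matrix (Fin 6) (Fin 3) ℂ := !![1, 0, 0; 0, 1, 0; 0, 0, 1; 0, 0, 1; 0, 0, 0; 0, 0, 0]

/-- projection from the monomial representation -/
noncomputable def alaG : Matrix (Fin 3) (Fin 6) ℂ :=
  !![1, 0, 0, 0, 0, 0; 0, 1, 0, 0, 0, 0; 0, 0, 1 / 2, 1 / 2, 0, 0]

theorem ala_GF : alaG * alaF = 1 := by
  ext i j
  fin_cases i <;> fin_cases j <;> simp [alaF, alaG, Matrix.mul_apply, Fin.sum_univ_succ]
  norm_num

theorem ala_FG : alaF * alaG = eM := by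
  ext i j
  fin_cases i <;> fin_cases j <;> simp [alaF, alaG, eM, Matrix.mul_apply, Fin.sum_univ_succ]

theorem ala_FGF : alaF * alaG * alaF = alaF := by rw [Matrix.mul_assoc, ala_GF, Matrix.mul_one]

theorem ala_GFG : alaG * alaF * alaG = alaG := by rw [ala_GF, Matrix.one_mul]

theorem ala_ee : eM * eM = eM := by rw [← ala_FG, ← Matrix.mul_assoc, ala_FGF]

theorem ala_F_d (x y : ℂ) : alaF * !![x, 0, 0; 0, y, 0; 0, 0, 1] = diagonal ![x, y, 1, 1, 1, 1] * alaF := by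
  ext i j
  rw [diagonal_mul]
  fin_cases i <;> fin_cases j <;> simp [alaF, Matrix.mul_apply, Fin.sum_univ_succ]

theorem ala_G_d (x y : ℂ) : alaG * diagonal ![x, y, 1, 1, 1, 1] = !![x, 0, 0; 0, y, 0; 0, 0, 1] * alaG := by
  ext i j
  rw [mul_diagonal]
  fin_cases i <;> fin_cases j <;> simp [alaG, Matrix.mul_apply, Fin.sum_univ_succ]

theorem ala_F_s : alaF * !![0, 1, 0; 1, 0, 0; 0, 0, (-1 : ℂ)] = MS ℂ * alaF := by
  ext i j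
  fin_cases i <;> fin_cases j <;> simp [alaF, MS, Matrix.mul_apply, Fin.sum_univ_succ]

theorem ala_G_s : alaG * MS ℂ = !![0, 1, 0; 1, 0, 0; 0, 0, (-1 : ℂ)] * alaG := by
  ext i j
  fin_cases i <;> fin_cases j <;> simp [alaG, MS, Matrix.mul_apply, Fin.sum_univ_succ]

theorem ala_F_r (a b : ℂ) :
    alaF * !![-(a * b), 0, 0; 0, -(a ^ 4 * b ^ 2), 0; 0, 0, 1] = MR a b * alaF := by
  ext i j
  fin_cases i <;> fin_cases j <;> simp [alaF, MR, Matrix.mul_apply, Fin.sum_univ_succ]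

theorem ala_G_r (a b : ℂ) :
    alaG * MR a b = !![-(a * b), 0, 0; 0, -(a ^ 4 * b ^ 2), 0; 0, 0, 1] * alaG := by
  ext i j
  fin_cases i <;> fin_cases j <;> simp [alaG, MR, Matrix.mul_apply, Fin.sum_univ_succ]

theorem ala_F_c : alaF * !![-1, 0, 0; 0, -1, 0; 0, 0, (1 : ℂ)] = MC ℂ * alaF := by
  ext i j
  fin_cases i <;> fin_cases j <;> simp [alaF, MC, Matrix.mul_apply, Fin.sum_univ_succ]

theorem ala_G_c : alaG * MC ℂ = !![-1, 0, 0; 0, -1, 0; 0, 0, (1 : ℂ)] * alaG := by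
  ext i j
  fin_cases i <;> fin_cases j <;> simp [alaG, MC, Matrix.mul_apply, Fin.sum_univ_succ]

theorem ala_comm {A : Matrix (Fin 3) (Fin 3) ℂ} {B : Matrix (Fin 6) (Fin 6) ℂ} (h1 : alaF * A = B * alaF)
    (h2 : alaG * B = A * alaG) : eM * B = B * eM := by
  rw [← ala_FG, Matrix.mul_assoc, h2, ← Matrix.mul_assoc, h1, Matrix.mul_assoc]

theorem ala_b (hβ : β ^ 3 = 1) : (!![β ^ 2, 0, 0; 0, (β ^ 2) ^ 2, 0; 0, 0, 1] : Matrix (Fin 3) (Fin 3) ℂ) *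
    !![β, 0, 0; 0, β ^ 2, 0; 0, 0, 1] = 1 := by
  have e1 : β ^ 2 * β = 1 := by rw [← hβ]; ring
  have e2 : (β ^ 2) ^ 2 * β ^ 2 = 1 := by rw [← one_pow 2, ← hβ]; ring
  rw [mul_fin_three, e1, e2, one_fin_three]
  simp

theorem ala_hb (hβ : β ^ 3 = 1) :
    diagonal ![β ^ 2, (β ^ 2) ^ 2, 1, 1, 1, 1] * alaF * !![β, 0, 0; 0, β ^ 2, 0; 0, 0, 1] = alaF := by
  rw [← ala_F_d, Matrix.mul_assoc, ala_b hβ, Matrix.mul_one]

theorem ala_hb' (hβ : β ^ 3 = 1) :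
    !![β, 0, 0; 0, β ^ 2, 0; 0, 0, 1] * alaG * diagonal ![β ^ 2, (β ^ 2) ^ 2, 1, 1, 1, 1] = alaG := by
  rw [Matrix.mul_assoc, ala_G_d, ← Matrix.mul_assoc, mul_eq_one_comm.1 (ala_b hβ), Matrix.one_mul]

theorem ala_swapA (hw : IsUnit w) (h : IsEig θ α β γ) (h₁ : SwA θ θ' 1) {X : Bool}
    {η' η₁ : G →* Matrix (Fin 6) (Fin 6) ℂ} (hη' : IsM X η' α (β ^ 2)) (h₂ : SwA η' η₁ eM) :
    DD θ' w * DD η₁ w = DD θ w * DD η' w := by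
  refine swapA hw ala_FGF ala_GFG (intw_A ?_ ?_ ?_) (intw_A ?_ ?_ ?_) ?_ ?_ (ala_GF ▸ h₁) (ala_FG ▸ h₂)
  · rw [h.ga_eq, hη'.ga_eq, ala_F_d]
  · rw [h.s, hη'.s, ala_F_s]
  · rw [h.gc_eq, hη'.gc_eq, ala_F_c]
  · rw [h.ga_eq, hη'.ga_eq, ala_G_d]
  · rw [h.s, hη'.s, ala_G_s]
  · rw [h.gc_eq, hη'.gc_eq, ala_G_c]
  · rw [h.gb_eq, hη'.gb_eq, ala_hb h.hβ]
  · rw [h.gb_eq, hη'.gb_eq, ala_hb' h.hβ]

theorem ala_es {X : Bool} {η : G →* Matrix (Fin 6) (Fin 6) ℂ} (h : IsM X η α β) : eM * η gs = η gs * eM := by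
  rw [h.s]; exact ala_comm ala_F_s ala_G_s

theorem ala_er {X : Bool} {η : G →* Matrix (Fin 6) (Fin 6) ℂ} (h : IsM X η α β) : eM * η gr = η gr * eM := by
  rw [h.r]; exact ala_comm (ala_F_r _ _) (ala_G_r _ _)

theorem ala_pos {d d' r s : ℝ} (hd : (d : ℂ) ≠ 0) (h : (d' : ℂ) * r = d * s) (hrs : 0 < r * s) : 0 < d * d' := by
  have h1 : d' * r = d * s := by exact_mod_cast h
  have h2 : d ≠ 0 := by exact_mod_cast hd
  have h3 : d * d' * r ^ 2 = d ^ 2 * (r * s) := by linear_combination d * r * h1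
  have h4 : 0 < d ^ 2 * (r * s) := by positivity
  rw [← h3] at h4
  exact (pos_iff_pos_of_mul_pos h4).2 (lt_of_le_of_ne (sq_nonneg r) fun e => by simp [← e] at h4)

theorem IsEig.alphaA (hw : IsUnit w) (h : IsEig θ α β γ) (ht : θ' gt = θ gt * θ gs) (hu : θ' gu = θ gu)
    (hs : θ' gs = θ gs) (hr : θ' gr = θ gr ^ 11) {η η' : G →* Matrix (Fin 6) (Fin 6) ℂ} (hη : IsM false η α β)
    (hη' : IsM false η' α (β ^ 2)) : DD θ' w * DD η w = DD θ w * DD η' w := by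
  obtain ⟨η₁, h₁⟩ := exists_swA η' ala_ee (ala_es hη') (ala_er hη')
  rw [← DD_swappedA hw hη hη' h₁]
  exact ala_swapA hw h ⟨by simpa using ht, hu, hs, by simpa using hr⟩ hη' h₁

theorem IsEig.alphaAZ (hw : IsUnit w) (h : IsEig θ α β β) (ht : θ' gt = θ gt * θ gs) (hu : θ' gu = θ gu * θ gsp)
    (hs : θ' gs = θ gs) (hr : θ' gr = θ gr ^ 11) {η η' : G →* Matrix (Fin 6) (Fin 6) ℂ} (hη : IsM true η α β)
    (hη' : IsM true η' α (β ^ 2)) : DD θ' w * DD η w = DD θ w * DD η' w := by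
  obtain ⟨η₁, h₁⟩ := exists_swA η' ala_ee (ala_es hη') (ala_er hη')
  obtain ⟨θ₁, h₂⟩ := exists_swA θ (e := 1) (mul_one _) (by simp) (by simp)
  obtain ⟨η₂, h₃⟩ := exists_swappedAZ h.hβ hη' h₁
  have a1 : θ₁ ga = θ ga := h₂.ga_eq (mul_one _) (by simp)
  have a2 : θ₁ gc = θ gc := h₂.gc_eq (mul_one _) (by simp)
  have a3 : θ₁ gbZ = θ gbZ := h₂.gbZ_eq (mul_one _) (by simp) (by simp)
  have b1 : η₁ ga = η' ga := h₁.ga_eq ala_ee (ala_er hη')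
  have b2 : η₁ gc = η' gc := h₁.gc_eq ala_ee (ala_er hη')
  have b3 : η₁ gbZ = η' gbZ := h₁.gbZ_eq ala_ee (ala_es hη') (ala_er hη')
  rw [← DD_swappedAZ hw hη hη' h₁ h₃, ← ala_swapA hw h h₂ hη' h₁]
  refine swapZ hw ala_FGF ala_GFG (intw_of (by decide) ?_ ?_) (intw_of (by decide) ?_ ?_) ?_ ?_ ?_
    (ala_FG ▸ h₃)
  · rw [eb, a1, b1, h.ga_eq, hη'.ga_eq, ala_F_d]
  · rw [es, gsp, map_mul, map_mul, h₂.s, h₁.s, a2, b2, h.s, hη'.s, h.gc_eq, hη'.gc_eq,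
      ← Matrix.mul_assoc, ala_F_s, Matrix.mul_assoc, ala_F_c, Matrix.mul_assoc]
  · rw [eb, a1, b1, h.ga_eq, hη'.ga_eq, ala_G_d]
  · rw [es, gsp, map_mul, map_mul, h₂.s, h₁.s, a2, b2, h.s, hη'.s, h.gc_eq, hη'.gc_eq,
      ← Matrix.mul_assoc, ala_G_s, Matrix.mul_assoc, ala_G_c, Matrix.mul_assoc]
  · rw [a3, b3, h.bZ, hη'.gbZ_eq, MZ, ala_hb h.hβ]
  · rw [a3, b3, h.bZ, hη'.gbZ_eq, MZ, ala_hb' h.hβ]
  · have a4 : θ₁ gsp = θ gsp := by rw [gsp, map_mul, map_mul, h₂.s, a2]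
    rw [ala_GF, a4]
    exact ⟨by simpa [h₂.t] using ht, by simpa [h₂.u] using hu, hs.trans h₂.s.symm,
      by simpa [h₂.r] using hr⟩

theorem IsEig.alphaA_pos (hw : IsUnit w) (h : IsEig θ α β γ) (hα : α ≠ 1) (hβ : β ≠ 1) (ht : θ' gt = θ gt * θ gs)
    (hu : θ' gu = θ gu) (hs : θ' gs = θ gs) (hr : θ' gr = θ gr ^ 11) {d d' : ℝ} (hd : DD θ w = d)
    (hd' : DD θ' w = d') : 0 < d * d' := by
  obtain ⟨η, hη⟩ := exists_isM false h.hα h.hβ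
  obtain ⟨η', hη'⟩ := exists_isM false h.hα (β := β ^ 2) (by rw [← pow_mul, mul_comm, pow_mul, h.hβ, one_pow])
  obtain ⟨r, s, h1, h2, h3⟩ := ups_pos hw hα hβ hη hη'
  have := h.alphaA hw ht hu hs hr hη hη'
  rw [hd, hd', h1, h2] at this
  exact ala_pos (hd ▸ (isUnit_DD θ hw).ne_zero) this h3

theorem IsEig.alphaAZ_pos (hw : IsUnit w) (h : IsEig θ α β β) (hα : α ≠ 1) (hβ : β ≠ 1) (ht : θ' gt = θ gt * θ gs)
    (hu : θ' gu = θ gu * θ gsp) (hs : θ' gs = θ gs) (hr : θ' gr = θ gr ^ 11) {d d' : ℝ} (hd : DD θ w = d)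
    (hd' : DD θ' w = d') : 0 < d * d' := by
  obtain ⟨η, hη⟩ := exists_isM true h.hα h.hβ
  obtain ⟨η', hη'⟩ := exists_isM true h.hα (β := β ^ 2) (by rw [← pow_mul, mul_comm, pow_mul, h.hβ, one_pow])
  obtain ⟨r, s, h1, h2, h3⟩ := ups_pos hw hα hβ hη hη'
  have := h.alphaAZ hw ht hu hs hr hη hη'
  rw [hd, hd', h1, h2] at this
  exact ala_pos (hd ▸ (isUnit_DD θ hw).ne_zero) this h3

end Crest.Agent.R251
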