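import Crest.Agent.R251.Blow

/-!
# Row 251, K₁ part: base change, block sums and conjugates of matrix representations
-/

set_option autoImplicit false

open Matrix

namespace Crest.Agent.R251

variable {Γ R R' n n₁ n₂ m : Type} [Group Γ] [CommRing R] [CommRing R'] [Fintype n] [DecidableEq n]
  [Fintype n₁] [DecidableEq n₁] [Fintype n₂] [DecidableEq n₂] [Fintype m] [DecidableEq m]

/-- base change of a representation -/
def mapRep (f : R →+* R') (θ : Γ →* Matrix n n R) : Γ →* Matrix n n R' :=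
  (f.mapMatrix : Matrix n n R →+* Matrix n n R').toMonoidHom.comp θ

theorem mapRep_apply (f : R →+* R') (θ : Γ →* Matrix n n R) (g : Γ) : mapRep f θ g = (θ g).map f := rfl

theorem mapRep_id (θ : Γ →* Matrix n n R) : mapRep (RingHom.id R) θ = θ := rfl

theorem mapRep_comp {R'' : Type} [CommRing R''] (f : R →+* R') (f' : R' →+* R'') (θ : Γ →* Matrix n n R) :
    mapRep f' (mapRep f θ) = mapRep (f'.comp f) θ := rfl

/-- block sum of two representations -/
def sumRep (θ₁ : Γ →* Matrix n₁ n₁ R) (θ₂ : Γ →* Matrix n₂ n₂ R) : Γ →* Matrix (n₁ ⊕ n₂) (n₁ ⊕ n₂) R where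
  toFun g := fromBlocks (θ₁ g) 0 0 (θ₂ g)
  map_one' := by simp
  map_mul' g h := by simp [fromBlocks_multiply]

theorem sumRep_apply (θ₁ : Γ →* Matrix n₁ n₁ R) (θ₂ : Γ →* Matrix n₂ n₂ R) (g : Γ) :
    sumRep θ₁ θ₂ g = fromBlocks (θ₁ g) 0 0 (θ₂ g) := rfl

/-- conjugation as a monoid homomorphism -/
def conjHom (P Q : Matrix n n R) (hPQ : P * Q = 1) : Matrix n n R →* Matrix n n R where
  toFun A := P * A * Q
  map_one' := by simp [hPQ]
  map_mul' A B := by
    have h : Q * P = 1 := mul_eq_one_comm.1 hPQ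
    calc P * (A * B) * Q = P * A * (Q * P) * B * Q := by rw [h]; simp only [mul_assoc, mul_one]
      _ = P * A * Q * (P * B * Q) := by simp only [mul_assoc]

theorem conjHom_apply (P Q : Matrix n n R) (hPQ : P * Q = 1) (A : Matrix n n R) :
    conjHom P Q hPQ A = P * A * Q := rfl

theorem DD_conjHom (P Q : Matrix n n R) (hPQ : P * Q = 1) (θ : Γ →* Matrix n n R) (w : Matrix m m (ZG Γ)) :
    DD ((conjHom P Q hPQ).comp θ) w = DD θ w :=
  DD_conj θ _ P Q hPQ (fun _ => rfl) w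

theorem DD_map (f : R →+* R') (θ : Γ →* Matrix n n R) (w : Matrix m m (ZG Γ)) :
    DD (mapRep f θ) w = f (DD θ w) := by
  have h1 : ∀ x, rz (mapRep f θ) x = (rz θ x).map f := rz_ext_k θ (mapRep f θ)
    (f.mapMatrix : Matrix n n R →+* Matrix n n R').toAddMonoidHom (fun _ => rfl)
  have h2 : blow (mapRep f θ) w = f.mapMatrix (blow θ w) := by
    ext p q
    simp [blow_apply, h1]
  rw [DD, DD, h2, RingHom.map_det]

theorem DD_sum (θ₁ : Γ →* Matrix n₁ n₁ R) (θ₂ : Γ →* Matrix n₂ n₂ R) (w : Matrix m m (ZG Γ)) :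
    DD (sumRep θ₁ θ₂) w = DD θ₁ w * DD θ₂ w := by
  have h1 : ∀ x, rz (sumRep θ₁ θ₂) x = fromBlocks (rz θ₁ x) 0 0 (rz θ₂ x) := fun x => by
    induction x using MonoidAlgebra.induction_on with
    | of g => rw [rz_og, rz_og, rz_og, sumRep_apply]
    | add x y hx hy => rw [map_add, map_add, map_add, hx, hy, fromBlocks_add, add_zero, add_zero]
    | smul r x hx => rw [map_zsmul, map_zsmul, map_zsmul, hx, fromBlocks_smul, smul_zero, smul_zero]
  have h2 : reindex (Equiv.prodSumDistrib m n₁ n₂) (Equiv.prodSumDistrib m n₁ n₂) (blow (sumRep θ₁ θ₂) w) =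
      fromBlocks (blow θ₁ w) 0 0 (blow θ₂ w) := by
    ext (⟨a, i⟩ | ⟨a, i⟩) (⟨b, j⟩ | ⟨b, j⟩) <;> simp [blow_apply, h1]
  rw [DD, DD, DD, ← det_reindex_self (Equiv.prodSumDistrib m n₁ n₂), h2, det_fromBlocks_zero₂₁]

end Crest.Agent.R251
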