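import Crest.Agent.R251.K.Basic

/-!
# Row 251, K₁ part: bending a representation of `G` along an edge group

`T`: `t ↦ t g`, `g` commuting with `b, σ`.  `Z`: `u ↦ u g`, `g` commuting with `bZ, σ'`.  `Y`: `u ↦ u g`, `g` commuting
with `a, σ'`.  `A`: `t ↦ t g`, `ρ ↦ g⁻¹ ρ g`, `g` commuting with `a, σ, c`.
A bend by a product of unipotent elements `1 + N`, `N² = 0`, does not change the determinant of a unit (over a domain).
-/

set_option autoImplicit false

open Matrix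

namespace Crest.Agent.R251

/-- the types of bends -/
inductive BT | T | Z | Y | A
  deriving DecidableEq

/-- the rotation in the edge group -/
def eb : BT → G
  | .T => gb | .Z => gbZ | .Y => ga | .A => ga

/-- the reflection in the edge group -/
def es : BT → G
  | .T => gs | .Z => gsp | .Y => gsp | .A => gs

/-- the central element in the edge group -/
def ec : BT → G
  | .T => 1 | .Z => 1 | .Y => 1 | .A => gc

/-- generators of the edge group -/
def edge (k : BT) : Set G := {eb k, es k, ec k}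

variable {R R' n n₁ n₂ m : Type} [CommRing R] [CommRing R'] [Fintype n] [DecidableEq n]
  [Fintype n₁] [DecidableEq n₁] [Fintype n₂] [DecidableEq n₂] [Fintype m] [DecidableEq m]

/-- `φ` intertwines the edge group -/
def Intw (k : BT) (θ₁ : G →* Matrix n₁ n₁ R) (θ₂ : G →* Matrix n₂ n₂ R) (φ : Matrix n₂ n₁ R) : Prop :=
  ∀ x ∈ edge k, φ * θ₁ x = θ₂ x * φ

theorem intw_of {k : BT} (hk : k ≠ .A) {θ₁ : G →* Matrix n₁ n₁ R} {θ₂ : G →* Matrix n₂ n₂ R}
    {φ : Matrix n₂ n₁ R} (hb : φ * θ₁ (eb k) = θ₂ (eb k) * φ) (hs : φ * θ₁ (es k) = θ₂ (es k) * φ) :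
    Intw k θ₁ θ₂ φ := by
  rintro x (rfl | rfl | rfl)
  · exact hb
  · exact hs
  · cases k <;> simp_all [ec]

theorem intw_A {θ₁ : G →* Matrix n₁ n₁ R} {θ₂ : G →* Matrix n₂ n₂ R} {φ : Matrix n₂ n₁ R}
    (ha : φ * θ₁ ga = θ₂ ga * φ) (hs : φ * θ₁ gs = θ₂ gs * φ) (hc : φ * θ₁ gc = θ₂ gc * φ) :
    Intw .A θ₁ θ₂ φ := by
  rintro x (rfl | rfl | rfl)
  exacts [ha, hs, hc]

theorem Intw.eb_eq {k : BT} {θ₁ : G →* Matrix n₁ n₁ R} {θ₂ : G →* Matrix n₂ n₂ R} {φ : Matrix n₂ n₁ R}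
    (h : Intw k θ₁ θ₂ φ) : φ * θ₁ (eb k) = θ₂ (eb k) * φ := h _ (.inl rfl)

theorem Intw.es_eq {k : BT} {θ₁ : G →* Matrix n₁ n₁ R} {θ₂ : G →* Matrix n₂ n₂ R} {φ : Matrix n₂ n₁ R}
    (h : Intw k θ₁ θ₂ φ) : φ * θ₁ (es k) = θ₂ (es k) * φ := h _ (.inr (.inl rfl))

theorem Intw.ec_eq {k : BT} {θ₁ : G →* Matrix n₁ n₁ R} {θ₂ : G →* Matrix n₂ n₂ R} {φ : Matrix n₂ n₁ R}
    (h : Intw k θ₁ θ₂ φ) : φ * θ₁ (ec k) = θ₂ (ec k) * φ := h _ (.inr (.inr rfl))

theorem Intw.mul {n₃ : Type} [Fintype n₃] [DecidableEq n₃] {k : BT} {θ₁ : G →* Matrix n₁ n₁ R}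
    {θ₂ : G →* Matrix n₂ n₂ R} {θ₃ : G →* Matrix n₃ n₃ R} {φ : Matrix n₂ n₁ R} {ψ : Matrix n₃ n₂ R}
    (h' : Intw k θ₂ θ₃ ψ) (h : Intw k θ₁ θ₂ φ) : Intw k θ₁ θ₃ (ψ * φ) := fun x hx => by
  rw [Matrix.mul_assoc, h x hx, ← Matrix.mul_assoc, h' x hx, Matrix.mul_assoc]

theorem Intw.map (f : R →+* R') {k : BT} {θ₁ : G →* Matrix n₁ n₁ R} {θ₂ : G →* Matrix n₂ n₂ R}
    {φ : Matrix n₂ n₁ R} (h : Intw k θ₁ θ₂ φ) : Intw k (mapRep f θ₁) (mapRep f θ₂) (φ.map f) := fun x hx => by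
  rw [mapRep_apply, mapRep_apply, ← Matrix.map_mul, h x hx, Matrix.map_mul]

/-- `θ'` is `θ` bent by `g` -/
def Bent {M : Type} [Monoid M] : BT → (G →* M) → (G →* M) → M → Prop
  | .T, θ, θ', g => θ' gt = θ gt * g ∧ θ' gu = θ gu ∧ θ' gs = θ gs ∧ θ' gr = θ gr
  | .Z, θ, θ', g => θ' gt = θ gt ∧ θ' gu = θ gu * g ∧ θ' gs = θ gs ∧ θ' gr = θ gr
  | .Y, θ, θ', g => θ' gt = θ gt ∧ θ' gu = θ gu * g ∧ θ' gs = θ gs ∧ θ' gr = θ gr
  | .A, θ, θ', g => θ' gt = θ gt * g ∧ θ' gu = θ gu ∧ θ' gs = θ gs ∧ g * θ' gr = θ gr * g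

section
variable {M M' : Type} [Monoid M] [Monoid M'] {k : BT} {θ θ' θ'' : G →* M} {g g' : M}

theorem Bent.refl (k : BT) (θ : G →* M) : Bent k θ θ 1 := by
  cases k <;> simp [Bent]

theorem benda_eq {x : G} (h : θ' x = θ x * g) : θ x⁻¹ * θ' x = g := by
  rw [h, ← mul_assoc, ← map_mul, inv_mul_cancel, map_one, one_mul]

theorem benda_unit {x : G} (h : θ' x = θ x * g) : IsUnit g :=
  benda_eq h ▸ ((Group.isUnit x⁻¹).map θ).mul ((Group.isUnit x).map θ')

theorem benda_inv {x : G} (h : θ' x = θ x * g) : g * θ' x⁻¹ = θ x⁻¹ := by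
  rw [← benda_eq h, mul_assoc, ← map_mul, mul_inv_cancel, map_one, mul_one]

theorem benda_inv' {x : G} (h : θ' x = θ x) : θ' x⁻¹ = θ x⁻¹ := by
  rw [← benda_inv (h.trans (mul_one _).symm), one_mul]

theorem benda_conj {x y : G} (h : θ' x = θ x * g) (hy : g * θ' y = θ y * g) :
    θ' (x * y * x⁻¹) = θ (x * y * x⁻¹) := by
  rw [map_mul, map_mul, map_mul, map_mul, h, mul_assoc (θ x), hy, ← benda_inv h]
  simp only [mul_assoc]

theorem benda_pow {x : G} (h : g * θ' x = θ x * g) (j : ℕ) : g * θ' (x ^ j) = θ (x ^ j) * g := by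
  rw [map_pow, map_pow]
  exact SemiconjBy.pow_right h j

theorem benda_gbZ (hu : θ' gu = θ gu) (hB : θ' gbB = θ gbB) : θ' gbZ = θ gbZ := by
  rw [gbZ, map_mul, map_mul, map_mul, map_mul, benda_inv' hu, hu, hB]

theorem benda_ci {g gi x : M} (h1 : g * gi = 1) (h2 : gi * g = 1) (h : g * x = x * g) :
    gi * x * g = x ∧ g * x * gi = x := by
  constructor
  · rw [mul_assoc, ← h, ← mul_assoc, h2, one_mul]
  · rw [h, mul_assoc, h1, mul_one]

theorem benda_ti {t ti g gi : M} (a1 : t * ti = 1) (a2 : ti * t = 1) (h1 : g * gi = 1)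
    (h2 : gi * g = 1) : t * g * (gi * ti) = 1 ∧ gi * ti * (t * g) = 1 := by
  constructor
  · rw [mul_assoc, ← mul_assoc g, h1, one_mul, a1]
  · rw [mul_assoc, ← mul_assoc ti, a2, one_mul, h2]

theorem benda_rdT {N : Type} [Monoid N] {t ti u ui s r g gi : N} (h : RD t ti u ui s r)
    (h1 : g * gi = 1) (h2 : gi * g = 1) (hb : g * r ^ 10 = r ^ 10 * g) (hs : g * s = s * g) :
    RD (t * g) (gi * ti) u ui s r := by
  have e : t * g * r ^ 10 * (gi * ti) = t * r ^ 10 * ti := by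
    conv_rhs => rw [← (benda_ci h1 h2 hb).2]
    simp only [mul_assoc]
  refine ⟨(benda_ti h.t_ti h.ti_t h1 h2).1, (benda_ti h.t_ti h.ti_t h1 h2).2, h.u_ui, h.ui_u,
    h.r_pow, h.s_sq, h.s_r, ?_, h.u_sp, e ▸ h.s_bB, e ▸ h.a_bZ⟩
  rw [mul_assoc, hs, ← mul_assoc, h.t_s, mul_assoc]

theorem benda_rdU {N : Type} [Monoid N] {t ti u ui s r g gi : N} (h : RD t ti u ui s r)
    (h1 : g * gi = 1) (h2 : gi * g = 1) (hs : g * (s * r ^ 15) = s * r ^ 15 * g)
    (hb : Commute (r ^ 6) (gi * (ui * (t * r ^ 10 * ti) * u) * g)) :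
    RD t ti (u * g) (gi * ui) s r := by
  refine ⟨h.t_ti, h.ti_t, (benda_ti h.u_ui h.ui_u h1 h2).1, (benda_ti h.u_ui h.ui_u h1 h2).2,
    h.r_pow, h.s_sq, h.s_r, h.t_s, ?_, h.s_bB, ?_⟩
  · rw [mul_assoc, hs, ← mul_assoc, h.u_sp, mul_assoc]
  · simpa only [mul_assoc] using hb.eq

theorem benda_rdA {N : Type} [Monoid N] {t ti u ui s r g gi : N} (h : RD t ti u ui s r)
    (h1 : g * gi = 1) (h2 : gi * g = 1) (ha : g * r ^ 6 = r ^ 6 * g) (hs : g * s = s * g)
    (hc : g * r ^ 15 = r ^ 15 * g) : RD (t * g) (gi * ti) u ui s (gi * r * g) := by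
  have p : ∀ j : ℕ, (gi * r * g) ^ j = gi * r ^ j * g := fun j => by
    induction j with
    | zero => rw [pow_zero, pow_zero, mul_one, h2]
    | succ j ih =>
      rw [pow_succ, ih, pow_succ, mul_assoc, ← mul_assoc g, ← mul_assoc g, h1, one_mul]
      simp only [mul_assoc]
  have e : t * g * (gi * r * g) ^ 10 * (gi * ti) = t * r ^ 10 * ti := by
    rw [p, mul_assoc t, ← mul_assoc g, ← mul_assoc g, h1, one_mul, mul_assoc t, mul_assoc,
      ← mul_assoc g, h1, one_mul, mul_assoc]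
  have e6 := (p 6).trans (benda_ci h1 h2 ha).1
  have e15 := (p 15).trans (benda_ci h1 h2 hc).1
  refine ⟨(benda_ti h.t_ti h.ti_t h1 h2).1, (benda_ti h.t_ti h.ti_t h1 h2).2, h.u_ui, h.ui_u,
    ?_, h.s_sq, ?_, ?_, ?_, ?_, ?_⟩
  · rw [p, h.r_pow, mul_one, h2]
  · have e1 : s * (gi * r * g) = gi * (s * r) * g := by
      conv_rhs => rw [← (benda_ci h1 h2 hs).2]
      simp only [← mul_assoc, h2, one_mul]
    have e2 := h.s_r
    rw [mul_assoc (s * r)] at e2
    rw [mul_assoc (s * _), e1, mul_assoc, ← mul_assoc g, ← mul_assoc g, h1, one_mul, ← mul_assoc,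
      mul_assoc gi, e2, mul_one, h2]
  · rw [e15, mul_assoc, hs, ← mul_assoc, h.t_s, mul_assoc]
  · rw [e15]
    exact h.u_sp
  · rw [e]
    exact h.s_bB
  · rw [e, e6]
    exact h.a_bZ

theorem Bent.isUnit (h : Bent k θ θ' g) : IsUnit g := by
  cases k
  exacts [benda_unit h.1, benda_unit h.2.1, benda_unit h.2.1, benda_unit h.1]

theorem Bent.unique (h : Bent k θ θ' g) (h' : Bent k θ θ'' g) : θ' = θ'' := by
  have hg := h.isUnit
  cases k <;> refine hom_ext (h.1.trans h'.1.symm) (h.2.1.trans h'.2.1.symm)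
    (h.2.2.1.trans h'.2.2.1.symm) ?_
  exacts [h.2.2.2.trans h'.2.2.2.symm, h.2.2.2.trans h'.2.2.2.symm, h.2.2.2.trans h'.2.2.2.symm,
    hg.mul_left_cancel (h.2.2.2.trans h'.2.2.2.symm)]

theorem Bent.trans (h : Bent k θ θ' g) (h' : Bent k θ' θ'' g') : Bent k θ θ'' (g * g') := by
  cases k <;> obtain ⟨a1, a2, a3, a4⟩ := h <;> obtain ⟨b1, b2, b3, b4⟩ := h'
  · exact ⟨by rw [b1, a1, mul_assoc], b2.trans a2, b3.trans a3, b4.trans a4⟩
  · exact ⟨b1.trans a1, by rw [b2, a2, mul_assoc], b3.trans a3, b4.trans a4⟩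
  · exact ⟨b1.trans a1, by rw [b2, a2, mul_assoc], b3.trans a3, b4.trans a4⟩
  · exact ⟨by rw [b1, a1, mul_assoc], b2.trans a2, b3.trans a3,
      by rw [mul_assoc, b4, ← mul_assoc, a4, mul_assoc]⟩

theorem Bent.comp (F : M →* M') (h : Bent k θ θ' g) : Bent k (F.comp θ) (F.comp θ') (F g) := by
  cases k <;> obtain ⟨a1, a2, a3, a4⟩ := h <;>
    simp only [Bent, MonoidHom.comp_apply, ← map_mul, a1, a2, a3, a4, and_self]

theorem Bent.gs_eq (h : Bent k θ θ' g) : θ' gs = θ gs := by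
  cases k <;> exact h.2.2.1

theorem Bent.gr_eq (hk : k ≠ .A) (h : Bent k θ θ' g) : θ' gr = θ gr := by
  cases k
  exacts [h.2.2.2, h.2.2.2, h.2.2.2, absurd rfl hk]

theorem Bent.ga_eq (hk : k ≠ .A) (h : Bent k θ θ' g) : θ' ga = θ ga := by
  rw [ga, map_pow, map_pow, h.gr_eq hk]

theorem Bent.gb_eq (hk : k ≠ .A) (h : Bent k θ θ' g) : θ' gb = θ gb := by
  rw [gb, map_pow, map_pow, h.gr_eq hk]

theorem Bent.gc_eq (hk : k ≠ .A) (h : Bent k θ θ' g) : θ' gc = θ gc := by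
  rw [gc, map_pow, map_pow, h.gr_eq hk]

theorem Bent.gsp_eq (hk : k ≠ .A) (h : Bent k θ θ' g) : θ' gsp = θ gsp := by
  rw [gsp, map_mul, map_mul, h.gs_eq, h.gc_eq hk]

/-- a `T`-bend by an element commuting with `b` does not change `bZ` -/
theorem Bent.T_gbZ (h : Bent .T θ θ' g) (hc : g * θ gb = θ gb * g) : θ' gbZ = θ gbZ := by
  exact benda_gbZ h.2.1 (benda_conj h.1 (by rw [h.gb_eq (by decide), hc]))

/-- an `A`-bend conjugates `b` -/
theorem Bent.A_gb (h : Bent .A θ θ' g) : g * θ' gb = θ gb * g := by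
  exact benda_pow h.2.2.2 10

/-- an `A`-bend does not change `bZ` -/
theorem Bent.A_gbZ (h : Bent .A θ θ' g) : θ' gbZ = θ gbZ := by
  exact benda_gbZ h.2.1 (benda_conj h.1 h.A_gb)

/-- a `u`-bend conjugates `bZ` -/
theorem Bent.Y_gbZ (h : Bent .Y θ θ' g) : g * θ' gbZ = θ gbZ * g := by
  have hB : θ' gbB = θ gbB :=
    benda_conj (h.1.trans (mul_one _).symm) (by rw [h.gb_eq (by decide), one_mul, mul_one])
  rw [gbZ, map_mul, map_mul, map_mul, map_mul, hB, h.2.1, ← benda_inv h.2.1]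
  simp only [mul_assoc]

end

variable {k : BT}

theorem Bent.map (f : R →+* R') {θ θ' : G →* Matrix n n R} {g : Matrix n n R} (h : Bent k θ θ' g) :
    Bent k (mapRep f θ) (mapRep f θ') (g.map f) :=
  h.comp _

theorem Bent.sum {θ₁ θ₁' : G →* Matrix n₁ n₁ R} {θ₂ θ₂' : G →* Matrix n₂ n₂ R} {g₁ : Matrix n₁ n₁ R}
    {g₂ : Matrix n₂ n₂ R} (h₁ : Bent k θ₁ θ₁' g₁) (h₂ : Bent k θ₂ θ₂' g₂) :
    Bent k (sumRep θ₁ θ₂) (sumRep θ₁' θ₂') (fromBlocks g₁ 0 0 g₂) := by
  cases k <;> obtain ⟨a1, a2, a3, a4⟩ := h₁ <;> obtain ⟨b1, b2, b3, b4⟩ := h₂ <;>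
    simp only [Bent, sumRep_apply, fromBlocks_multiply, Matrix.mul_zero, Matrix.zero_mul, add_zero,
      zero_add, a1, a2, a3, a4, b1, b2, b3, b4, and_self]

theorem exists_bent (k : BT) (θ : G →* Matrix n n R) {g : Matrix n n R} (hg : IsUnit g) (hc : Intw k θ θ g) :
    ∃ θ', Bent k θ θ' g := by
  obtain ⟨v, rfl⟩ := hg
  have h := rd_of_hom θ
  have h1 := hc.eb_eq
  have h2 := hc.es_eq
  have h3 := hc.ec_eq
  cases k <;> simp only [eb, es, ec, gbZ, gbB, gsp, ga, gb, gc, map_mul, map_pow] at h1 h2 h3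
  · exact (benda_rdT h v.mul_inv v.inv_mul h1 h2).exists_hom
  · refine (benda_rdU h v.mul_inv v.inv_mul h2 ?_).exists_hom
    rw [(benda_ci v.mul_inv v.inv_mul h1).1]
    exact h.a_bZ
  · have h4 : Commute (θ gr ^ 6) (v : Matrix n n R) := h1.symm
    exact (benda_rdU h v.mul_inv v.inv_mul h2
      ((h4.units_inv_right.mul_right h.a_bZ).mul_right h4)).exists_hom
  · obtain ⟨θ', a1, a2, a3, a4⟩ := (benda_rdA h v.mul_inv v.inv_mul h1 h2 h3).exists_hom
    refine ⟨θ', a1, a2, a3, ?_⟩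
    rw [a4, ← mul_assoc, ← mul_assoc, v.mul_inv, one_mul]

/-- a bend does not change the edge group -/
theorem Bent.edge_eq {θ θ' : G →* Matrix n n R} {g : Matrix n n R} (h : Bent k θ θ' g) (hc : Intw k θ θ g) :
    ∀ x ∈ edge k, θ' x = θ x := by
  have hg := h.isUnit
  have h1 := hc.eb_eq
  have h3 := hc.ec_eq
  cases k <;> rintro x (rfl | rfl | rfl)
  · exact h.gb_eq (by decide)
  · exact h.gs_eq
  · exact θ'.map_one.trans θ.map_one.symm
  · exact hg.mul_left_cancel ((Bent.Y_gbZ h).trans h1.symm)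
  · exact h.gsp_eq (by decide)
  · exact θ'.map_one.trans θ.map_one.symm
  · exact h.ga_eq (by decide)
  · exact h.gsp_eq (by decide)
  · exact θ'.map_one.trans θ.map_one.symm
  · exact hg.mul_left_cancel ((benda_pow h.2.2.2 6).trans h1.symm)
  · exact h.gs_eq
  · exact hg.mul_left_cancel ((benda_pow h.2.2.2 15).trans h3.symm)

/-- products of unipotent elements commuting with the edge group -/
def El (k : BT) (θ : G →* Matrix n n R) : Submonoid (Matrix n n R) :=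
  Submonoid.closure {g | ∃ N, N * N = 0 ∧ Intw k θ θ N ∧ g = 1 + N}

theorem one_add_mem_El {θ : G →* Matrix n n R} {N : Matrix n n R} (h : N * N = 0) (hc : Intw k θ θ N) :
    1 + N ∈ El k θ :=
  Submonoid.subset_closure ⟨N, h, hc, rfl⟩

theorem bendb_unit {N : Matrix n n R} (h : N * N = 0) : IsUnit (1 + N) :=
  ⟨⟨1 + N, 1 - N, by rw [add_mul, mul_sub, mul_sub, h]; simp,
    by rw [sub_mul, mul_add, mul_add, h]; simp⟩, rfl⟩

theorem bendb_intw {θ : G →* Matrix n n R} {N : Matrix n n R} (hc : Intw k θ θ N) :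
    Intw k θ θ (1 + N) := fun x hx => by
  rw [add_mul, mul_add, hc x hx, one_mul, mul_one]

theorem bendb_congr {θ θ' : G →* Matrix n n R} {N : Matrix n n R} (hc : Intw k θ θ N)
    (h : ∀ x ∈ edge k, θ' x = θ x) : Intw k θ' θ' N := fun x hx => by
  rw [h x hx, hc x hx]

theorem isUnit_of_mem_El {θ : G →* Matrix n n R} {g : Matrix n n R} (h : g ∈ El k θ) : IsUnit g := by
  induction h using Submonoid.closure_induction with
  | mem g hg =>
    obtain ⟨N, hN, -, rfl⟩ := hg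
    exact bendb_unit hN
  | one => exact isUnit_one
  | mul g g' _ _ h h' => exact h.mul h'

theorem intw_of_mem_El {θ : G →* Matrix n n R} {g : Matrix n n R} (h : g ∈ El k θ) : Intw k θ θ g := by
  induction h using Submonoid.closure_induction with
  | mem g hg =>
    obtain ⟨N, -, hc, rfl⟩ := hg
    exact bendb_intw hc
  | one => exact fun x _ => by rw [one_mul, mul_one]
  | mul g g' _ _ h h' => exact h.mul h'

/-- one unipotent bend: the family `1 + X N` over `R[X]` has a unit, hence constant, determinant -/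
theorem DD_bent_one [IsDomain R] {w : Matrix m m (ZG G)} (hw : IsUnit w) {θ θ' : G →* Matrix n n R}
    {N : Matrix n n R} (hN : N * N = 0) (hc : Intw k θ θ N) (h : Bent k θ θ' (1 + N)) : DD θ' w = DD θ w := by
  have hN' : ((Polynomial.X : Polynomial R) • N.map Polynomial.C) *
      ((Polynomial.X : Polynomial R) • N.map Polynomial.C) = 0 := by
    rw [smul_mul_smul_comm, ← Matrix.map_mul, hN, Matrix.map_zero _ (map_zero _), smul_zero]
  have hc' : Intw k (mapRep Polynomial.C θ) (mapRep Polynomial.C θ)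
      ((Polynomial.X : Polynomial R) • N.map Polynomial.C) := fun x hx => by
    rw [smul_mul_assoc, mul_smul_comm, hc.map Polynomial.C x hx]
  obtain ⟨Θ, hΘ⟩ := exists_bent k _ (bendb_unit hN') (bendb_intw hc')
  obtain ⟨r, -, hr⟩ := Polynomial.isUnit_iff.1 (isUnit_DD Θ hw)
  have key : ∀ a : R, Bent k θ (mapRep (Polynomial.evalRingHom a) Θ) (1 + a • N) := fun a => by
    have h1 := hΘ.map (Polynomial.evalRingHom a)
    have h2 : (Polynomial.evalRingHom a).comp Polynomial.C = RingHom.id R := by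
      ext x; simp
    have h3 : (1 + (Polynomial.X : Polynomial R) • N.map Polynomial.C).map
        (Polynomial.evalRingHom a) = 1 + a • N := by
      rw [Matrix.map_add _ (map_add _), Matrix.map_one _ (map_zero _) (map_one _)]
      congr 1
      ext i j
      simp only [Matrix.map_apply, Matrix.smul_apply, smul_eq_mul, Polynomial.eval_mul,
        Polynomial.coe_evalRingHom, Polynomial.eval_X, Polynomial.eval_C]
    rwa [mapRep_comp, h2, mapRep_id, h3] at h1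
  have h0 := key 0
  have h1 := key 1
  rw [zero_smul, add_zero] at h0
  rw [one_smul] at h1
  rw [h.unique h1, (Bent.refl k θ).unique h0, DD_map, DD_map, ← hr]
  simp

theorem DD_bent [IsDomain R] {w : Matrix m m (ZG G)} (hw : IsUnit w) {θ θ' : G →* Matrix n n R}
    {g : Matrix n n R} (hg : g ∈ El k θ) (h : Bent k θ θ' g) : DD θ' w = DD θ w := by
  have key : ∀ θ₁ θ₂ : G →* Matrix n n R, (∀ x ∈ edge k, θ₁ x = θ x) → Bent k θ₁ θ₂ g →
      DD θ₂ w = DD θ₁ w := by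
    clear h
    induction hg using Submonoid.closure_induction with
    | mem g hg =>
      obtain ⟨N, hN, hc, rfl⟩ := hg
      exact fun θ₁ θ₂ he hb => DD_bent_one hw hN (bendb_congr hc he) hb
    | one => exact fun θ₁ θ₂ _ hb => by rw [hb.unique (Bent.refl k θ₁)]
    | mul g g' hg hg' ih ih' =>
      intro θ₁ θ₂ he hb
      have hc := bendb_congr (intw_of_mem_El hg) he
      obtain ⟨θ₃, h₃⟩ := exists_bent k θ₁ (isUnit_of_mem_El hg) hc
      have he₃ : ∀ x ∈ edge k, θ₃ x = θ x := fun x hx => (h₃.edge_eq hc x hx).trans (he x hx)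
      obtain ⟨θ₄, h₄⟩ := exists_bent k θ₃ (isUnit_of_mem_El hg')
        (bendb_congr (intw_of_mem_El hg') he₃)
      rw [hb.unique (h₃.trans h₄), ih' θ₃ θ₄ he₃ h₄, ih θ₁ θ₃ he h₃]
  exact key θ θ' (fun _ _ => rfl) h

end Crest.Agent.R251
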