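import Crest.Agent.R251.K.Swap

/-!
# Row 251, K₁ part: the exponent of a summand of an edge group

Bending by the scalar `x` on a summand `e` multiplies the determinant by `x ^ j`: over a domain `R` the determinant of the
universal bend over `R[T;T⁻¹]` is a unit, so it is a monomial.
-/

set_option autoImplicit false

open Matrix LaurentPolynomial

namespace Crest.Agent.R251

variable {R R' n n₁ n₂ m : Type} [CommRing R] [CommRing R'] [Fintype n] [DecidableEq n]
  [Fintype n₁] [DecidableEq n₁] [Fintype n₂] [DecidableEq n₂] [Fintype m] [DecidableEq m]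

/-- units of a Laurent polynomial ring over a domain are monomials -/
theorem laurent_unit [IsDomain R] {f : R[T;T⁻¹]} (hf : IsUnit f) :
    ∃ (c : R) (j : ℤ), f = LaurentPolynomial.C c * LaurentPolynomial.T j := by
  obtain ⟨g, hg⟩ := hf.exists_right_inv
  obtain ⟨a, f', hf'⟩ := exists_T_pow f
  obtain ⟨b, g', hg'⟩ := exists_T_pow g
  have h1 : f' * g' = Polynomial.X ^ (a + b) := by
    apply Polynomial.toLaurent_injective
    rw [map_mul, hf', hg', Polynomial.toLaurent_X_pow, mul_mul_mul_comm, hg, one_mul, ← T_add]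
    push_cast
    rfl
  obtain ⟨i, -, u, hu⟩ := (dvd_prime_pow Polynomial.prime_X (a + b)).1 ⟨g', h1.symm⟩
  obtain ⟨c, -, hc⟩ := Polynomial.isUnit_iff.1 (u⁻¹).isUnit
  have h2 : f' = Polynomial.C c * Polynomial.X ^ i := by
    rw [hc, ← hu, mul_comm, Units.mul_inv_cancel_right]
  refine ⟨c, i - a, ?_⟩
  rw [h2, Polynomial.toLaurent_C_mul_X_pow] at hf'
  rw [T_sub, ← mul_assoc, hf', mul_T_assoc, add_neg_cancel, T_zero, mul_one]

theorem laurent_T_inj [Nontrivial R] {i j : ℤ} (h : (LaurentPolynomial.T i : R[T;T⁻¹]) = LaurentPolynomial.T j) :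
    i = j := by
  have h1 := degree_T (R := R) i
  rw [h, degree_T] at h1
  exact (WithBot.coe_injective h1).symm

theorem laurent_isDomain [IsDomain R] : IsDomain R[T;T⁻¹] := by
  infer_instance

/-- the variable as a unit -/
noncomputable def expoX (R : Type) [CommRing R] : (R[T;T⁻¹])ˣ where
  val := LaurentPolynomial.T 1
  inv := LaurentPolynomial.T (-1)
  val_inv := by rw [← T_add, add_neg_cancel, T_zero]
  inv_val := by rw [← T_add, neg_add_cancel, T_zero]

theorem expoX_zpow (j : ℤ) : ((expoX R ^ j : (R[T;T⁻¹])ˣ) : R[T;T⁻¹]) = LaurentPolynomial.T j := by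
  rcases Int.eq_nat_or_neg j with ⟨a, rfl | rfl⟩
  · rw [zpow_natCast, Units.val_pow_eq_pow_val]
    change (LaurentPolynomial.T 1 : R[T;T⁻¹]) ^ a = _
    rw [T_pow, mul_one]
  · rw [_root_.zpow_neg, zpow_natCast, ← inv_pow, Units.val_pow_eq_pow_val]
    change (LaurentPolynomial.T (-1) : R[T;T⁻¹]) ^ a = _
    rw [T_pow, mul_neg, mul_one]

theorem expo_eval_comp (f : R →+* R') (x : R'ˣ) :
    (LaurentPolynomial.eval₂ f x).comp LaurentPolynomial.C = f :=
  RingHom.ext fun r => eval₂_C f x r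

theorem expo_idem (f : R →+* R') {e : Matrix n n R} (he : e * e = e) :
    e.map f * e.map f = e.map f := by
  rw [← Matrix.map_mul, he]

theorem expo_exists {k : BT} (f : R →+* R') (x : R'ˣ) {θ : G →* Matrix n n R} {e : Matrix n n R}
    (he : e * e = e) (hc : Intw k θ θ e) :
    ∃ θ', Bent k (mapRep f θ) θ' (tw (e.map f) (x : R')) :=
  exists_bent k _ (isUnit_tw (expo_idem f he) x) ((hc.map f).to_tw _)

theorem expo_spec {k : BT} {θ : G →* Matrix n n R} {e : Matrix n n R}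
    {Θ : G →* Matrix n n R[T;T⁻¹]}
    (hΘ : Bent k (mapRep LaurentPolynomial.C θ) Θ
      (tw (e.map LaurentPolynomial.C) (expoX R : R[T;T⁻¹]))) (f : R →+* R') (x : R'ˣ) :
    Bent k (mapRep f θ) (mapRep (LaurentPolynomial.eval₂ f x) Θ) (tw (e.map f) (x : R')) := by
  have h := hΘ.map (LaurentPolynomial.eval₂ f x)
  have e1 : LaurentPolynomial.eval₂ f x (expoX R : R[T;T⁻¹]) = x := by
    change LaurentPolynomial.eval₂ f x (LaurentPolynomial.T 1) = x
    rw [eval₂_T, zpow_one]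
  have e2 : (e.map LaurentPolynomial.C).map (LaurentPolynomial.eval₂ f x) = e.map f := by
    ext a b
    simp only [Matrix.map_apply, eval₂_C]
  rwa [mapRep_comp, expo_eval_comp, tw_map, e1, e2] at h

/-- the scalar `x` on the summand `e` multiplies the determinant of `w` by `x ^ j`, after any base change -/
def HasExp (w : Matrix m m (ZG G)) (k : BT) (θ : G →* Matrix n n R) (e : Matrix n n R) (j : ℤ) : Prop :=
  ∀ (R' : Type) [CommRing R'] (f : R →+* R') (x : R'ˣ) (θ' : G →* Matrix n n R'),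
    Bent k (mapRep f θ) θ' (tw (e.map f) (x : R')) → DD θ' w = ((x ^ j : R'ˣ) : R') * f (DD θ w)

variable {w : Matrix m m (ZG G)} {k : BT}

theorem expo_crit {θ : G →* Matrix n n R} {e : Matrix n n R} {Θ : G →* Matrix n n R[T;T⁻¹]} {j : ℤ}
    (hΘ : Bent k (mapRep LaurentPolynomial.C θ) Θ
      (tw (e.map LaurentPolynomial.C) (expoX R : R[T;T⁻¹])))
    (hD : DD Θ w = LaurentPolynomial.T j * LaurentPolynomial.C (DD θ w)) : HasExp w k θ e j := by
  intro R' _ f x θ' hb
  rw [hb.unique (expo_spec hΘ f x), DD_map, hD, map_mul, eval₂_T, eval₂_C]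

theorem exists_hasExp [IsDomain R] (hw : IsUnit w) {θ : G →* Matrix n n R} {e : Matrix n n R} (he : e * e = e)
    (hc : Intw k θ θ e) : ∃ j, HasExp w k θ e j := by
  obtain ⟨Θ, hΘ⟩ := expo_exists LaurentPolynomial.C (expoX R) he hc
  obtain ⟨c, j, hD⟩ := laurent_unit (isUnit_DD Θ hw)
  refine ⟨j, expo_crit hΘ ?_⟩
  have h1 := expo_spec hΘ (RingHom.id R) 1
  rw [Units.val_one, tw_one, mapRep_id] at h1
  have h2 : DD θ w = c := by
    rw [(Bent.refl k θ).unique h1, DD_map, hD, eval₂_C_mul_T]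
    simp
  rw [hD, h2, mul_comm]

theorem HasExp.unique [Nontrivial R] (hw : IsUnit w) {θ : G →* Matrix n n R} {e : Matrix n n R} (he : e * e = e)
    (hc : Intw k θ θ e) {i j : ℤ} (h : HasExp w k θ e i) (h' : HasExp w k θ e j) : i = j := by
  obtain ⟨Θ, hΘ⟩ := expo_exists LaurentPolynomial.C (expoX R) he hc
  have h1 := (h _ _ _ _ hΘ).symm.trans (h' _ _ _ _ hΘ)
  rw [expoX_zpow, expoX_zpow] at h1
  exact laurent_T_inj (((isUnit_DD θ hw).map LaurentPolynomial.C).mul_right_cancel h1)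

theorem HasExp.map (f : R →+* R') {θ : G →* Matrix n n R} {e : Matrix n n R} {j : ℤ} (h : HasExp w k θ e j) :
    HasExp w k (mapRep f θ) (e.map f) j := by
  intro R'' _ f' x θ' hb
  rw [DD_map]
  exact h R'' (f'.comp f) x θ' hb

theorem HasExp.of_map [IsDomain R] [Nontrivial R'] (hw : IsUnit w) (f : R →+* R') {θ : G →* Matrix n n R}
    {e : Matrix n n R} (he : e * e = e) (hc : Intw k θ θ e) {j : ℤ}
    (h : HasExp w k (mapRep f θ) (e.map f) j) : HasExp w k θ e j := by
  obtain ⟨i, hi⟩ := exists_hasExp hw he hc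
  rwa [← (hi.map f).unique hw (expo_idem f he) (hc.map f) h]

/-- the exponent depends only on the summand as a module over the edge group -/
theorem HasExp.univ [IsDomain R] (hw : IsUnit w) {θ₁ : G →* Matrix n₁ n₁ R} {θ₂ : G →* Matrix n₂ n₂ R}
    {φ : Matrix n₂ n₁ R} {φ' : Matrix n₁ n₂ R} (h1 : φ * φ' * φ = φ) (h2 : φ' * φ * φ' = φ')
    (hφ : Intw k θ₁ θ₂ φ) (hφ' : Intw k θ₂ θ₁ φ') {j : ℤ} (h : HasExp w k θ₁ (φ' * φ) j) :
    HasExp w k θ₂ (φ * φ') j := by
  have := laurent_isDomain (R := R)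
  have he₁ : φ' * φ * (φ' * φ) = φ' * φ := by rw [← Matrix.mul_assoc, h2]
  have he₂ : φ * φ' * (φ * φ') = φ * φ' := by rw [← Matrix.mul_assoc, h1]
  obtain ⟨i, hi⟩ := exists_hasExp hw he₂ (hφ.mul hφ')
  obtain ⟨Θ₁, b₁⟩ := expo_exists LaurentPolynomial.C (expoX R) he₁ (hφ'.mul hφ)
  obtain ⟨Θ₂, b₂⟩ := expo_exists LaurentPolynomial.C (expoX R)⁻¹ he₂ (hφ.mul hφ')
  have d₁ := h _ _ _ _ b₁
  have d₂ := hi _ _ _ _ b₂
  rw [Matrix.map_mul] at b₁ b₂
  have key := univ_tw hw (φ := φ.map LaurentPolynomial.C) (φ' := φ'.map LaurentPolynomial.C)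
    (by rw [← Matrix.map_mul, ← Matrix.map_mul, h1]) (by rw [← Matrix.map_mul, ← Matrix.map_mul, h2])
    (hφ.map _) (hφ'.map _) (Units.mul_inv (expoX R)) b₁ b₂
  rw [d₁, d₂, DD_map, DD_map, _root_.inv_zpow', expoX_zpow, expoX_zpow, mul_mul_mul_comm, ← T_add] at key
  have hu := ((isUnit_DD θ₁ hw).map (LaurentPolynomial.C (R := R))).mul
    ((isUnit_DD θ₂ hw).map (LaurentPolynomial.C (R := R)))
  have h3 : (LaurentPolynomial.T (j + -i) : R[T;T⁻¹]) = LaurentPolynomial.T 0 :=
    hu.mul_right_cancel (by rw [key, T_zero, one_mul])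
  have h4 := laurent_T_inj h3
  rwa [show j = i by omega]

theorem HasExp.add [IsDomain R] (hw : IsUnit w) {θ : G →* Matrix n n R} {e e' : Matrix n n R}
    (he : e * e = e) (he' : e' * e' = e') (h0 : e * e' = 0) (h0' : e' * e = 0)
    (hc : Intw k θ θ e) (hc' : Intw k θ θ e') {i j : ℤ} (h : HasExp w k θ e i) (h' : HasExp w k θ e' j) :
    HasExp w k θ (e + e') (i + j) := by
  have := laurent_isDomain (R := R)
  obtain ⟨Θ₁, b₁⟩ := expo_exists LaurentPolynomial.C (expoX R) he hc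
  have d₁ := h _ _ _ _ b₁
  have hed := b₁.edge_eq ((hc.map _).to_tw _)
  have hE := expo_idem (LaurentPolynomial.C (R := R)) he'
  have hI := hc'.map (LaurentPolynomial.C (R := R))
  have i₁ : Intw k (mapRep LaurentPolynomial.C θ) Θ₁ (e'.map LaurentPolynomial.C) := fun x hx => by
    rw [hed x hx]; exact hI x hx
  have i₂ : Intw k Θ₁ (mapRep LaurentPolynomial.C θ) (e'.map LaurentPolynomial.C) := fun x hx => by
    rw [hed x hx]; exact hI x hx
  have i₃ : Intw k Θ₁ Θ₁ (e'.map LaurentPolynomial.C) := fun x hx => by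
    rw [hed x hx]; exact hI x hx
  have h₁ : HasExp w k Θ₁ (e'.map LaurentPolynomial.C) j := by
    have := HasExp.univ hw (by rw [hE, hE]) (by rw [hE, hE]) i₁ i₂ (j := j) (by rw [hE]; exact h'.map _)
    rwa [hE] at this
  obtain ⟨Θ₂, b₂⟩ := exists_bent k Θ₁ (isUnit_tw hE (expoX R)) (i₃.to_tw _)
  have d₂ := h₁ _ (RingHom.id _) (expoX R) Θ₂ b₂
  have b₃ := b₁.trans b₂
  rw [tw_add (by rw [← Matrix.map_mul, h0]; simp), ← Matrix.map_add _ (map_add _)] at b₃
  refine expo_crit b₃ ?_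
  rw [d₂, RingHom.id_apply, d₁, expoX_zpow, expoX_zpow, ← mul_assoc, ← T_add, add_comm j i]

/-- flipping a summand of even exponent does not change the determinant -/
theorem HasExp.flip {θ θ' : G →* Matrix n n R} {e : Matrix n n R} {j : ℤ} (h : HasExp w k θ e (2 * j))
    (hb : Bent k θ θ' (tw e (-1))) : DD θ' w = DD θ w := by
  have h1 := h R (RingHom.id R) (-1) θ' hb
  rwa [Even.neg_one_zpow (even_two_mul j), Units.val_one, one_mul] at h1

end Crest.Agent.R251
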