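import Crest.Agent.R251.K.Line
import Crest.Agent.R251.K.Mono

/-!
# Row 251, K₁ part: flipping a plane does not change the determinant

The two-dimensional irreducible summand is defined over `O = ℤ[X]/(X² + X + 1)`, a domain, in the monomial model of type `A`
with `α = 1` (block `f` for `k = T`, block `n` for `k = Z`); modulo `1 - ω` (in `ZMod 3`) it is a sum of two lines.
-/

set_option autoImplicit false

open Matrix

namespace Crest.Agent.R251

/-- the Eisenstein integers, by their universal property -/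
theorem exists_eisenstein : ∃ (O : Type) (_ : CommRing O) (_ : IsDomain O) (ω : O), ω ^ 2 + ω + 1 = 0 ∧
    ∀ (R : Type) [CommRing R] (β : R), β ^ 2 + β + 1 = 0 → ∃ f : O →+* R, f ω = β := by
  have hp : Prime (Polynomial.cyclotomic 3 ℤ) := (Polynomial.cyclotomic.irreducible (by norm_num)).prime
  refine ⟨AdjoinRoot (Polynomial.cyclotomic 3 ℤ), inferInstance, AdjoinRoot.isDomain_of_prime hp,
    AdjoinRoot.root _, ?_, fun R _ β hβ => ?_⟩
  · have h := AdjoinRoot.eval₂_root (Polynomial.cyclotomic 3 ℤ)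
    generalize AdjoinRoot.root (Polynomial.cyclotomic 3 ℤ) = ω at h ⊢
    generalize AdjoinRoot.of (Polynomial.cyclotomic 3 ℤ) = φ at h
    have e : Polynomial.eval₂ φ ω (Polynomial.X ^ 2 + Polynomial.X + 1) = 0 := by
      rw [← Polynomial.cyclotomic_three]; exact h
    simpa using e
  · refine ⟨AdjoinRoot.lift (Int.castRingHom R) β ?_, AdjoinRoot.lift_root _⟩
    rw [Polynomial.cyclotomic_three]
    simpa using hβ

variable {R n m : Type} [CommRing R] [Fintype n] [DecidableEq n] [Fintype m] [DecidableEq m]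
  {w : Matrix m m (ZG G)} {k : BT}

theorem Flip_sign {θ : G →* Matrix n n R} {φ : Matrix n (Fin 2) R} {φ' : Matrix (Fin 2) n R} {x y ε : R}
    (hε : ε = 1 ∨ ε = -1) (h : Summand k θ φ φ' !![x, 0; 0, y] !![0, ε; ε, 0]) :
    ∃ (ψ : Matrix n (Fin 2) R) (ψ' : Matrix (Fin 2) n R), ψ * ψ' = φ * φ' ∧
      Summand k θ ψ ψ' !![x, 0; 0, y] !![0, 1; 1, 0] := by
  rcases hε with rfl | rfl
  · exact ⟨φ, φ', rfl, h⟩
  · have hH : (!![1, 0; 0, -1] : Matrix (Fin 2) (Fin 2) R) * !![1, 0; 0, -1] = 1 := by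
      ext i j; fin_cases i <;> fin_cases j <;> simp
    have h' := h.conj hH
    have e1 : (!![1, 0; 0, -1] : Matrix (Fin 2) (Fin 2) R) * !![x, 0; 0, y] * !![1, 0; 0, -1] =
        !![x, 0; 0, y] := by
      ext i j; fin_cases i <;> fin_cases j <;> simp
    have e2 : (!![1, 0; 0, -1] : Matrix (Fin 2) (Fin 2) R) * !![0, -1; -1, 0] * !![1, 0; 0, -1] =
        !![0, 1; 1, 0] := by
      ext i j; fin_cases i <;> fin_cases j <;> simp
    rw [e1, e2] at h'
    refine ⟨_, _, ?_, h'⟩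
    rw [Matrix.mul_assoc, ← Matrix.mul_assoc _ _ φ', hH, Matrix.one_mul]

theorem Flip_model (hk : k = .T ∨ k = .Z) {ω : R} (hω : ω ^ 3 = 1) :
    ∃ (θ : G →* Matrix (Fin 6) (Fin 6) R) (φ : Matrix (Fin 6) (Fin 2) R) (φ' : Matrix (Fin 2) (Fin 6) R),
      Summand k θ φ φ' !![ω, 0; 0, ω ^ 2] !![0, 1; 1, 0] := by
  obtain ⟨θ, hθ⟩ := exists_isM false (α := (1 : R)) (one_pow 5) hω
  rcases hk with rfl | rfl
  · refine ⟨θ, blk R 0, (blk R 0)ᵀ, ?_, ?_, ?_, ?_, ?_⟩ <;>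
      simp only [eb, es, hθ.gb_eq, hθ.s, blk_zero, MS] <;>
      ext i j <;> fin_cases i <;> fin_cases j <;>
      simp [Matrix.mul_apply, Fin.sum_univ_succ, Matrix.diagonal_apply]
  · have h : Summand .Z θ (blk R 1) (blk R 1)ᵀ !![ω, 0; 0, ω ^ 2] !![0, -1; -1, 0] := by
      refine ⟨?_, ?_, ?_, ?_, ?_⟩ <;>
        simp only [eb, es, hθ.gbZ_eq, hθ.gsp_eq, blk_one, MSp, MZ] <;>
        ext i j <;> fin_cases i <;> fin_cases j <;>
        simp [Matrix.mul_apply, Fin.sum_univ_succ, Matrix.diagonal_apply]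
    obtain ⟨ψ, ψ', -, h'⟩ := Flip_sign (Or.inr rfl) h
    exact ⟨θ, ψ, ψ', h'⟩

theorem Flip_map {R' : Type} [CommRing R'] (f : R →+* R') (a b c d : R) :
    (!![a, b; c, d] : Matrix (Fin 2) (Fin 2) R).map f = !![f a, f b; f c, f d] := by
  ext i j; fin_cases i <;> fin_cases j <;> simp

/-- the irreducible plane of the edge group `D₃` -/
theorem LineExp.prim [IsDomain R] (hw : IsUnit w) (hk : k = .T ∨ k = .Z) {j : ℤ} (hj : LineExp w k j)
    {θ : G →* Matrix n n R} {φ : Matrix n (Fin 2) R} {φ' : Matrix (Fin 2) n R} {β ε : R}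
    (hβ : β ^ 2 + β + 1 = 0) (hε : ε = 1 ∨ ε = -1) (h : Summand k θ φ φ' !![β, 0; 0, β ^ 2] !![0, ε; ε, 0]) :
    HasExp w k θ (φ * φ') (2 * j) := by
  have hkA : k ≠ .A := by rcases hk with rfl | rfl <;> simp
  obtain ⟨O, _, _, ω, hω, huniv⟩ := exists_eisenstein
  have hω3 : ω ^ 3 = 1 := by linear_combination (ω - 1) * hω
  obtain ⟨θ₀, φ₀, φ₀', S₀⟩ := Flip_model hk hω3
  obtain ⟨f₃, hf₃⟩ := huniv (ZMod 3) 1 (by decide)
  obtain ⟨f, hf⟩ := huniv R β hβ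
  have S₃ := S₀.map f₃
  rw [Flip_map, Flip_map, map_pow, hf₃, map_zero, map_one, one_pow, ← Matrix.one_fin_two] at S₃
  have H₃ := hj.swap (R := ZMod 3) (isUnit_iff_ne_zero.2 (by decide)) hw hkA (Or.inl rfl) S₃
  rw [← Matrix.map_mul] at H₃
  have he : φ₀ * φ₀' * (φ₀ * φ₀') = φ₀ * φ₀' := by
    rw [Matrix.mul_assoc, ← Matrix.mul_assoc φ₀', S₀.split, Matrix.one_mul]
  have H := (HasExp.of_map hw f₃ he (S₀.intw hkA) H₃).map f
  rw [Matrix.map_mul] at H
  have S := S₀.map f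
  rw [Flip_map, Flip_map, map_pow, hf, map_zero, map_one] at S
  obtain ⟨ψ, ψ', e, h'⟩ := Flip_sign hε h
  rw [← e]
  exact Summand.hasExp hw hkA S h' H

theorem flip_plane (hw : IsUnit w) {θ θ' : G →* Matrix n n ℂ} {φ : Matrix n (Fin 2) ℂ} {φ' : Matrix (Fin 2) n ℂ}
    {β ε : ℂ} (hk : k = .T ∨ k = .Z ∨ (k = .Y ∧ β = 1)) (hβ : β ^ 3 = 1) (hε : ε = 1 ∨ ε = -1)
    (h : Summand k θ φ φ' !![β, 0; 0, β ^ 2] !![0, ε; ε, 0]) (hb : Bent k θ θ' (tw (φ * φ') (-1))) :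
    DD θ' w = DD θ w := by
  have hkA : k ≠ .A := by rcases hk with rfl | rfl | ⟨rfl, -⟩ <;> simp
  obtain ⟨j, hj⟩ := exists_lineExp hw hkA
  by_cases h1 : β = 1
  · subst h1
    rw [one_pow, ← Matrix.one_fin_two] at h
    exact (hj.swap (isUnit_iff_ne_zero.2 two_ne_zero) hw hkA hε h).flip hb
  · have hβ' : β ^ 2 + β + 1 = 0 := by
      apply mul_left_cancel₀ (sub_ne_zero.2 h1)
      linear_combination hβ
    have hk' : k = .T ∨ k = .Z := by
      rcases hk with h' | h' | ⟨-, h'⟩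
      exacts [Or.inl h', Or.inr h', absurd h' h1]
    exact (hj.prim hw hk' hβ' hε h).flip hb

theorem flip_diag (hw : IsUnit w) (hk : k ≠ .A) {θ θ' : G →* Matrix n n ℂ} {φ : Matrix n (Fin 2) ℂ}
    {φ' : Matrix (Fin 2) n ℂ} {ε ε' : ℂ} (hε : ε = 1 ∨ ε = -1) (hε' : ε' = 1 ∨ ε' = -1)
    (h : Summand k θ φ φ' 1 !![ε, 0; 0, ε']) (hb : Bent k θ θ' (tw (φ * φ') (-1))) :
    DD θ' w = DD θ w := by
  obtain ⟨j, hj⟩ := exists_lineExp hw hk
  exact (hj.diag hw hk hε hε' h).flip hb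

end Crest.Agent.R251
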