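import Crest.Agent.R251.K.Expo

/-!
# Row 251, K₁ part: all lines have the same exponent

Model over `ℤ`: `σ = diag(1,-1,-1)`, `ρ = diag(-1,-1,1)`, `t = stdT 1 1`, `u = stdU 1 1`; here `a = b = bZ = 1`,
`σ' = diag(-1,1,-1)`.  The lines `E₀₀`, `E₁₁` carry the two signs, and they are isomorphic modulo `2`.
-/

set_option autoImplicit false

open Matrix

namespace Crest.Agent.R251

theorem lna_rd : RD (M := Matrix (Fin 3) (Fin 3) ℤ) !![0, 0, 1; 0, -1, 0; 1, 0, 0]
    !![0, 0, 1; 0, -1, 0; 1, 0, 0] !![0, 0, 1; 1, 0, 0; 0, 1, 0] !![0, 1, 0; 0, 0, 1; 1, 0, 0]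
    !![1, 0, 0; 0, -1, 0; 0, 0, -1] !![-1, 0, 0; 0, -1, 0; 0, 0, 1] := by
  have h2 : (!![-1, 0, 0; 0, -1, 0; 0, 0, 1] : Matrix (Fin 3) (Fin 3) ℤ) ^ 2 = 1 := by
    rw [pow_two]; decide
  have he : ∀ k : ℕ, (!![-1, 0, 0; 0, -1, 0; 0, 0, 1] : Matrix (Fin 3) (Fin 3) ℤ) ^ (2 * k) = 1 :=
    fun k => by rw [pow_mul, h2, one_pow]
  have h15 : (!![-1, 0, 0; 0, -1, 0; 0, 0, 1] : Matrix (Fin 3) (Fin 3) ℤ) ^ 15 =
      !![-1, 0, 0; 0, -1, 0; 0, 0, 1] := by
    rw [pow_succ, he 7, one_mul]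
  refine ⟨by decide, by decide, by decide, by decide, he 15, by decide, by decide, ?_, ?_, ?_, ?_⟩
  · rw [h15]; decide
  · rw [h15]; decide
  · rw [he 5]; decide
  · rw [he 3, one_mul, mul_one]

theorem exists_th3 : ∃ θ : G →* Matrix (Fin 3) (Fin 3) ℤ, θ ga = 1 ∧ θ gb = 1 ∧ θ gbZ = 1 ∧
    θ gs = !![1, 0, 0; 0, -1, 0; 0, 0, -1] ∧ θ gsp = !![-1, 0, 0; 0, 1, 0; 0, 0, -1] := by
  obtain ⟨θ, -, -, hs, hr⟩ := lna_rd.exists_hom
  have h2 : θ (gr ^ 2) = 1 := by
    rw [map_pow, hr, pow_two]; decide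
  have hb : θ gb = 1 := by rw [gb, show 10 = 2 * 5 from rfl, pow_mul, map_pow, h2, one_pow]
  refine ⟨θ, ?_, hb, ?_, hs, ?_⟩
  · rw [ga, show 6 = 2 * 3 from rfl, pow_mul, map_pow, h2, one_pow]
  · have h3 : θ gbB = 1 := by
      rw [gbB, map_mul, map_mul, hb, mul_one, ← map_mul, mul_inv_cancel, map_one]
    rw [gbZ, map_mul, map_mul, h3, mul_one, ← map_mul, inv_mul_cancel, map_one]
  · rw [gsp, gc, map_mul, pow_succ, show 14 = 2 * 7 from rfl, pow_mul, map_mul, map_pow, h2,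
      one_pow, one_mul, hs, hr]
    decide

variable {R n m : Type} [CommRing R] [Fintype n] [DecidableEq n] [Fintype m] [DecidableEq m]

/-- `φ : R^p → V`, `φ' : V → R^p` split off a summand on which the edge group acts by `B` and `S` -/
structure Summand {p : Type} [Fintype p] [DecidableEq p] (k : BT) (θ : G →* Matrix n n R)
    (φ : Matrix n p R) (φ' : Matrix p n R) (B S : Matrix p p R) : Prop where
  split : φ' * φ = 1
  b : θ (eb k) * φ = φ * B
  b' : φ' * θ (eb k) = B * φ'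
  s : θ (es k) * φ = φ * S
  s' : φ' * θ (es k) = S * φ'

/-- every line on which the rotation acts trivially and the reflection by a sign has exponent `j` -/
def LineExp (w : Matrix m m (ZG G)) (k : BT) (j : ℤ) : Prop :=
  ∀ (R n : Type) [CommRing R] [IsDomain R] [Fintype n] [DecidableEq n] (θ : G →* Matrix n n R)
    (φ : Matrix n Unit R) (φ' : Matrix Unit n R) (ε : R), (ε = 1 ∨ ε = -1) →
    Summand k θ φ φ' 1 (ε • 1) → HasExp w k θ (φ * φ') j

variable {w : Matrix m m (ZG G)} {k : BT}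

theorem lna_intw {p n₁ n₂ : Type} [Fintype p] [DecidableEq p] [Fintype n₁] [DecidableEq n₁]
    [Fintype n₂] [DecidableEq n₂] (hk : k ≠ .A) {θ₁ : G →* Matrix n₁ n₁ R} {θ₂ : G →* Matrix n₂ n₂ R}
    {φ₁ : Matrix n₁ p R} {φ₁' : Matrix p n₁ R} {φ₂ : Matrix n₂ p R} {φ₂' : Matrix p n₂ R}
    {B S : Matrix p p R} (h₁ : Summand k θ₁ φ₁ φ₁' B S) (h₂ : Summand k θ₂ φ₂ φ₂' B S) :
    Intw k θ₁ θ₂ (φ₂ * φ₁') := by
  refine intw_of hk ?_ ?_
  · rw [Matrix.mul_assoc, h₁.b', ← Matrix.mul_assoc, ← h₂.b, Matrix.mul_assoc]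
  · rw [Matrix.mul_assoc, h₁.s', ← Matrix.mul_assoc, ← h₂.s, Matrix.mul_assoc]

theorem lna_idem {p : Type} [Fintype p] [DecidableEq p] {φ : Matrix n p R} {φ' : Matrix p n R}
    (h : φ' * φ = 1) : φ * φ' * (φ * φ') = φ * φ' := by
  rw [Matrix.mul_assoc, ← Matrix.mul_assoc φ', h, Matrix.one_mul]

/-- a summand of a summand -/
theorem lna_sub {p q : Type} [Fintype p] [DecidableEq p] [Fintype q] [DecidableEq q]
    {θ : G →* Matrix n n R} {φ : Matrix n p R} {φ' : Matrix p n R} {B S : Matrix p p R}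
    (h : Summand k θ φ φ' B S) {ψ : Matrix p q R} {ψ' : Matrix q p R} {B' S' : Matrix q q R}
    (h1 : ψ' * ψ = 1) (h2 : B * ψ = ψ * B') (h3 : ψ' * B = B' * ψ') (h4 : S * ψ = ψ * S')
    (h5 : ψ' * S = S' * ψ') : Summand k θ (φ * ψ) (ψ' * φ') B' S' := by
  refine ⟨?_, ?_, ?_, ?_, ?_⟩
  · rw [Matrix.mul_assoc, ← Matrix.mul_assoc φ', h.split, Matrix.one_mul, h1]
  · rw [← Matrix.mul_assoc, h.b, Matrix.mul_assoc, h2, Matrix.mul_assoc]
  · rw [Matrix.mul_assoc, h.b', ← Matrix.mul_assoc, h3, Matrix.mul_assoc]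
  · rw [← Matrix.mul_assoc, h.s, Matrix.mul_assoc, h4, Matrix.mul_assoc]
  · rw [Matrix.mul_assoc, h.s', ← Matrix.mul_assoc, h5, Matrix.mul_assoc]

theorem Summand.intw {p : Type} [Fintype p] [DecidableEq p] (hk : k ≠ .A) {θ : G →* Matrix n n R}
    {φ : Matrix n p R} {φ' : Matrix p n R} {B S : Matrix p p R} (h : Summand k θ φ φ' B S) :
    Intw k θ θ (φ * φ') := by
  exact lna_intw hk h h

/-- summands with the same action of the edge group have the same exponent -/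
theorem Summand.hasExp [IsDomain R] (hw : IsUnit w) (hk : k ≠ .A) {p n₁ n₂ : Type} [Fintype p] [DecidableEq p]
    [Fintype n₁] [DecidableEq n₁] [Fintype n₂] [DecidableEq n₂]
    {θ₁ : G →* Matrix n₁ n₁ R} {θ₂ : G →* Matrix n₂ n₂ R} {φ₁ : Matrix n₁ p R} {φ₁' : Matrix p n₁ R}
    {φ₂ : Matrix n₂ p R} {φ₂' : Matrix p n₂ R} {B S : Matrix p p R}
    (h₁ : Summand k θ₁ φ₁ φ₁' B S) (h₂ : Summand k θ₂ φ₂ φ₂' B S) {j : ℤ} (h : HasExp w k θ₁ (φ₁ * φ₁') j) :
    HasExp w k θ₂ (φ₂ * φ₂') j := by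
  have e1 : φ₁ * φ₂' * (φ₂ * φ₁') = φ₁ * φ₁' := by
    rw [Matrix.mul_assoc, ← Matrix.mul_assoc φ₂', h₂.split, Matrix.one_mul]
  have e2 : φ₂ * φ₁' * (φ₁ * φ₂') = φ₂ * φ₂' := by
    rw [Matrix.mul_assoc, ← Matrix.mul_assoc φ₁', h₁.split, Matrix.one_mul]
  rw [← e2]
  refine HasExp.univ hw ?_ ?_ (lna_intw hk h₁ h₂) (lna_intw hk h₂ h₁) (e1.symm ▸ h)
  · rw [e2, Matrix.mul_assoc, ← Matrix.mul_assoc φ₂', h₂.split, Matrix.one_mul]
  · rw [e1, Matrix.mul_assoc, ← Matrix.mul_assoc φ₁', h₁.split, Matrix.one_mul]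

/-- change of basis in a summand -/
theorem Summand.conj {p : Type} [Fintype p] [DecidableEq p] {θ : G →* Matrix n n R}
    {φ : Matrix n p R} {φ' : Matrix p n R} {B S : Matrix p p R} (h : Summand k θ φ φ' B S)
    {H H' : Matrix p p R} (hH : H * H' = 1) : Summand k θ (φ * H) (H' * φ') (H' * B * H) (H' * S * H) := by
  refine lna_sub h (mul_eq_one_comm.1 hH) ?_ ?_ ?_ ?_
  · rw [← mul_assoc, ← mul_assoc, hH, one_mul]
  · rw [mul_assoc, hH, mul_one]
  · rw [← mul_assoc, ← mul_assoc, hH, one_mul]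
  · rw [mul_assoc, hH, mul_one]

theorem Summand.map {R' : Type} [CommRing R'] (f : R →+* R') {p : Type} [Fintype p] [DecidableEq p]
    {θ : G →* Matrix n n R} {φ : Matrix n p R} {φ' : Matrix p n R} {B S : Matrix p p R}
    (h : Summand k θ φ φ' B S) : Summand k (mapRep f θ) (φ.map f) (φ'.map f) (B.map f) (S.map f) := by
  refine ⟨?_, ?_, ?_, ?_, ?_⟩
  · rw [← Matrix.map_mul, h.split, Matrix.map_one _ (map_zero f) (map_one f)]
  · rw [mapRep_apply, ← Matrix.map_mul, h.b, Matrix.map_mul]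
  · rw [mapRep_apply, ← Matrix.map_mul, h.b', Matrix.map_mul]
  · rw [mapRep_apply, ← Matrix.map_mul, h.s, Matrix.map_mul]
  · rw [mapRep_apply, ← Matrix.map_mul, h.s', Matrix.map_mul]

/-- a coordinate line -/
theorem lna_line {p : Type} [Fintype p] [DecidableEq p] {θ : G →* Matrix n n R} {φ : Matrix n p R}
    {φ' : Matrix p n R} {d : p → R} (h : Summand k θ φ φ' 1 (diagonal d)) (i : p) :
    Summand k θ (φ * single i () (1 : R)) (single () i (1 : R) * φ') 1 (d i • 1) := by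
  refine lna_sub h ?_ ?_ ?_ ?_ ?_
  · rw [single_mul_single_same, mul_one]
    ext
    simp
  · rw [Matrix.one_mul, Matrix.mul_one]
  · rw [Matrix.one_mul, Matrix.mul_one]
  · ext a b
    rw [diagonal_mul]
    by_cases h : i = a <;> simp [h]
  · ext _ a
    by_cases h : i = a <;> simp [h, mul_diagonal]

theorem lna_lines (hk : k ≠ .A) : ∃ (θ : G →* Matrix (Fin 3) (Fin 3) ℤ)
    (φ ψ : Matrix (Fin 3) Unit ℤ) (φ' ψ' : Matrix Unit (Fin 3) ℤ),
    Summand k θ φ φ' 1 1 ∧ Summand k θ ψ ψ' 1 (-1) := by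
  obtain ⟨θ, ha, hb, hz, hs, hp⟩ := exists_th3
  have h1 : θ (eb k) = 1 := by cases k <;> assumption
  have h2 : ∀ d : Fin 3 → ℤ, θ (es k) = diagonal d → Summand k θ 1 1 1 (diagonal d) := fun d hd =>
    ⟨by simp, by simp [h1], by simp [h1], by simp [hd], by simp [hd]⟩
  have h3 : θ (es k) = diagonal ![1, -1, -1] ∨ θ (es k) = diagonal ![-1, 1, -1] := by
    cases k
    · exact Or.inl (hs.trans (by decide))
    · exact Or.inr (hp.trans (by decide))
    · exact Or.inr (hp.trans (by decide))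
    · exact absurd rfl hk
  rcases h3 with h3 | h3
  · exact ⟨θ, _, _, _, _, by simpa using lna_line (h2 _ h3) 0, by simpa using lna_line (h2 _ h3) 1⟩
  · exact ⟨θ, _, _, _, _, by simpa using lna_line (h2 _ h3) 1, by simpa using lna_line (h2 _ h3) 0⟩

theorem lna_map_one {R' p : Type} [CommRing R'] [DecidableEq p] (f : R →+* R') :
    (1 : Matrix p p R).map f = 1 := Matrix.map_one _ (map_zero f) (map_one f)

theorem lna_map_neg_one {R' p : Type} [CommRing R'] [DecidableEq p] (f : R →+* R') :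
    (-1 : Matrix p p R).map f = -1 := by
  rw [Matrix.map_neg _ (map_neg f), lna_map_one]

theorem exists_lineExp (hw : IsUnit w) (hk : k ≠ .A) : ∃ j, LineExp w k j := by
  obtain ⟨θ, φ, ψ, φ', ψ', h1, h2⟩ := lna_lines hk
  obtain ⟨j, hj⟩ := exists_hasExp hw (lna_idem h1.split) (lna_intw hk h1 h1)
  have hj' : HasExp w k θ (ψ * ψ') j := by
    have h1' := h1.map (Int.castRingHom (ZMod 2))
    have h2' := h2.map (Int.castRingHom (ZMod 2))
    rw [lna_map_neg_one, lna_map_one, show (-1 : Matrix Unit Unit (ZMod 2)) = 1 by decide] at h2'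
    rw [lna_map_one] at h1'
    refine HasExp.of_map hw (Int.castRingHom (ZMod 2)) (lna_idem h2.split) (lna_intw hk h2 h2) ?_
    rw [Matrix.map_mul]
    refine Summand.hasExp hw hk h1' h2' ?_
    rw [← Matrix.map_mul]
    exact hj.map _
  refine ⟨j, fun R n _ _ _ _ θ' χ χ' ε hε h => ?_⟩
  rcases hε with rfl | rfl
  · have h1' := h1.map (Int.castRingHom R)
    rw [lna_map_one] at h1'
    rw [one_smul] at h
    refine Summand.hasExp hw hk h1' h ?_
    rw [← Matrix.map_mul]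
    exact hj.map _
  · have h2' := h2.map (Int.castRingHom R)
    rw [lna_map_neg_one, lna_map_one] at h2'
    rw [neg_smul, one_smul] at h
    refine Summand.hasExp hw hk h2' h ?_
    rw [← Matrix.map_mul]
    exact hj'.map _

/-- two lines -/
theorem LineExp.diag [IsDomain R] (hw : IsUnit w) (hk : k ≠ .A) {j : ℤ} (hj : LineExp w k j)
    {θ : G →* Matrix n n R} {φ : Matrix n (Fin 2) R} {φ' : Matrix (Fin 2) n R} {ε ε' : R}
    (hε : ε = 1 ∨ ε = -1) (hε' : ε' = 1 ∨ ε' = -1) (h : Summand k θ φ φ' 1 !![ε, 0; 0, ε']) :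
    HasExp w k θ (φ * φ') (2 * j) := by
  have hd : !![ε, 0; 0, ε'] = diagonal ![ε, ε'] := by
    ext a b
    fin_cases a <;> fin_cases b <;> simp
  rw [hd] at h
  have h0 := lna_line h 0
  have h1 := lna_line h 1
  have o : ∀ a b : Fin 2, a ≠ b → φ * single a () (1 : R) * (single () a (1 : R) * φ') *
      (φ * single b () (1 : R) * (single () b (1 : R) * φ')) = 0 := fun a b hab => by
    have e : single () a (1 : R) * φ' * (φ * single b () (1 : R)) = (0 : Matrix Unit Unit R) := by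
      rw [Matrix.mul_assoc, ← Matrix.mul_assoc φ', h.split, Matrix.one_mul,
        single_mul_single_of_ne _ _ _ _ hab]
    rw [Matrix.mul_assoc, ← Matrix.mul_assoc (single () a (1 : R) * φ'), e, Matrix.zero_mul,
      Matrix.mul_zero]
  have e := HasExp.add hw (lna_idem h0.split) (lna_idem h1.split) (o 0 1 (by decide))
    (o 1 0 (by decide)) (lna_intw hk h0 h0) (lna_intw hk h1 h1) (hj R n θ _ _ ε hε h0)
    (hj R n θ _ _ ε' hε' h1)
  have e1 : (single 0 () (1 : R) * single () 0 (1 : R) + single 1 () (1 : R) * single () 1 (1 : R) :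
      Matrix (Fin 2) (Fin 2) R) = 1 := by
    rw [single_mul_single_same, single_mul_single_same]
    ext a b
    fin_cases a <;> fin_cases b <;> simp
  rw [Matrix.mul_assoc, Matrix.mul_assoc, ← Matrix.mul_add, ← Matrix.mul_assoc, ← Matrix.mul_assoc,
    ← Matrix.add_mul, e1, Matrix.one_mul, ← two_mul] at e
  exact e

/-- two lines exchanged by the reflection, when `2` is invertible -/
theorem LineExp.swap [IsDomain R] (h2 : IsUnit (2 : R)) (hw : IsUnit w) (hk : k ≠ .A) {j : ℤ} (hj : LineExp w k j)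
    {θ : G →* Matrix n n R} {φ : Matrix n (Fin 2) R} {φ' : Matrix (Fin 2) n R} {ε : R}
    (hε : ε = 1 ∨ ε = -1) (h : Summand k θ φ φ' 1 !![0, ε; ε, 0]) :
    HasExp w k θ (φ * φ') (2 * j) := by
  obtain ⟨c, hc⟩ := h2.exists_right_inv
  have hH : (!![1, 1; 1, -1] : Matrix (Fin 2) (Fin 2) R) * !![c, c; c, -c] = 1 := by
    ext a b
    fin_cases a <;> fin_cases b <;> simp [Matrix.mul_apply, Fin.sum_univ_two] <;>
      linear_combination hc
  have h' := h.conj hH
  have e1 : (!![c, c; c, -c] : Matrix (Fin 2) (Fin 2) R) * !![0, ε; ε, 0] * !![1, 1; 1, -1] =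
      !![ε, 0; 0, -ε] := by
    ext a b
    fin_cases a <;> fin_cases b <;> simp [Matrix.mul_apply, Fin.sum_univ_two]
    · linear_combination ε * hc
    · linear_combination -ε * hc
  rw [e1, mul_one, mul_eq_one_comm.1 hH] at h'
  have e := LineExp.diag hw hk hj hε (by rcases hε with rfl | rfl <;> simp) h'
  rwa [Matrix.mul_assoc, ← Matrix.mul_assoc _ _ φ', hH, Matrix.one_mul] at e

end Crest.Agent.R251
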