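import Mathlib

/-!
# Row 251, K₁ part: symmetric units of `ℤ[C₅ × C₃]`

`τ = α + α⁴` satisfies `τ² + τ - 1 = 0`.  The units of `ℤ[τ]` are `± τ^n`; `τ ≡ 2` modulo `√5`, `τ⁴ ≡ -1` modulo `3`.
-/

set_option autoImplicit false

open Polynomial

namespace Crest.Agent.R251

/-- the pairs `(a, b)` with `a + b τ = ± τ ^ n` -/
inductive GoldU : ℤ → ℤ → Prop
  | one : GoldU 1 0
  | neg {a b : ℤ} : GoldU a b → GoldU (-a) (-b)
  | mul {a b : ℤ} : GoldU a b → GoldU b (a - b)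
  | div {a b : ℤ} : GoldU a b → GoldU (a + b) a

theorem goldU_aux (n : ℕ) : ∀ a b : ℤ, a.natAbs + b.natAbs = n →
    (a ^ 2 - a * b - b ^ 2 = 1 ∨ a ^ 2 - a * b - b ^ 2 = -1) → GoldU a b := by
  induction n using Nat.strong_induction_on with
  | _ n ih =>
    have key : ∀ a b : ℤ, a.natAbs + b.natAbs = n → 0 < a →
        (a ^ 2 - a * b - b ^ 2 = 1 ∨ a ^ 2 - a * b - b ^ 2 = -1) → GoldU a b := by
      intro a b hn ha h
      rcases lt_trichotomy b 0 with hb | rfl | hb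
      · have h1 : a < -2 * b := by
          by_contra h2
          rcases h with h | h <;> nlinarith
        have h2 := (ih _ (by omega) (a + b) a rfl (by
          rcases h with h | h
          · right; linear_combination -h
          · left; linear_combination -h)).mul
        rwa [add_sub_cancel_left] at h2
      · obtain rfl : a = 1 := by rcases h with h | h <;> nlinarith
        exact GoldU.one
      · have h1 : b < 2 * a := by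
          by_contra h2
          rcases h with h | h <;> nlinarith
        have h2 := (ih _ (by omega) b (a - b) rfl (by
          rcases h with h | h
          · right; linear_combination -h
          · left; linear_combination -h)).div
        rwa [add_sub_cancel] at h2
    intro a b hn h
    rcases lt_trichotomy a 0 with ha | rfl | ha
    · have h2 := (key (-a) (-b) (by omega) (by omega) (by
        rcases h with h | h
        · left; linear_combination h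
        · right; linear_combination h)).neg
      rwa [neg_neg, neg_neg] at h2
    · have h1 : (b - 1) * (b + 1) = 0 := by rcases h with h | h <;> nlinarith [sq_nonneg b]
      rcases mul_eq_zero.1 h1 with h2 | h2
      · obtain rfl : b = 1 := by omega
        simpa using GoldU.one.mul
      · obtain rfl : b = -1 := by omega
        simpa using GoldU.one.mul.neg
    · exact key a b hn ha h

theorem goldU_of_norm {a b : ℤ} (h : a ^ 2 - a * b - b ^ 2 = 1 ∨ a ^ 2 - a * b - b ^ 2 = -1) : GoldU a b := by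
  exact goldU_aux _ a b rfl h

/-- residues modulo `3`, `√5` and signs of the units -/
def GoldInv (τ : ℝ) (a b : ℤ) (x : ℝ) : Prop :=
  (b % 3 = 0 ∧ (((a + 2 * b) % 5 = 1 ∧ 0 < x) ∨ ((a + 2 * b) % 5 = 4 ∧ x < 0))) ∨
  (a % 3 = 0 ∧ (((a + 2 * b) % 5 = 2 ∧ 0 < τ * x) ∨ ((a + 2 * b) % 5 = 3 ∧ τ * x < 0))) ∨
  ((a + b) % 3 = 0 ∧ (((a + 2 * b) % 5 = 4 ∧ 0 < x) ∨ ((a + 2 * b) % 5 = 1 ∧ x < 0))) ∨
  ((a - b) % 3 = 0 ∧ (((a + 2 * b) % 5 = 3 ∧ 0 < τ * x) ∨ ((a + 2 * b) % 5 = 2 ∧ τ * x < 0)))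

theorem goldInv_of {a b : ℤ} {τ : ℝ} (hτ : τ ^ 2 + τ - 1 = 0) (h : GoldU a b) :
    GoldInv τ a b (a + b * τ) := by
  have h0 : τ ≠ 0 := by
    rintro rfl
    norm_num at hτ
  have h2 : 0 < τ * τ := mul_self_pos.2 h0
  have hp : ∀ x, 0 < τ * (τ * x) ↔ 0 < x := fun x => by
    rw [← mul_assoc]; exact mul_pos_iff_of_pos_left h2
  have hn : ∀ x, τ * (τ * x) < 0 ↔ x < 0 := fun x => by
    rw [← neg_pos, ← mul_neg, ← mul_neg, hp, neg_pos]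
  induction h with
  | one => left; simp
  | @neg a b _ ih =>
    have e : ((-a : ℤ) : ℝ) + (-b : ℤ) * τ = -(a + b * τ) := by push_cast; ring
    rw [e]
    generalize (a : ℝ) + b * τ = x at ih ⊢
    simp only [GoldInv, mul_neg, neg_pos, neg_lt_zero] at ih ⊢
    rcases ih with ⟨h, ⟨h', hx⟩ | ⟨h', hx⟩⟩ | ⟨h, ⟨h', hx⟩ | ⟨h', hx⟩⟩ | ⟨h, ⟨h', hx⟩ | ⟨h', hx⟩⟩ |
      ⟨h, ⟨h', hx⟩ | ⟨h', hx⟩⟩
    · exact .inl ⟨by omega, .inr ⟨by omega, hx⟩⟩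
    · exact .inl ⟨by omega, .inl ⟨by omega, hx⟩⟩
    · exact .inr (.inl ⟨by omega, .inr ⟨by omega, hx⟩⟩)
    · exact .inr (.inl ⟨by omega, .inl ⟨by omega, hx⟩⟩)
    · exact .inr (.inr (.inl ⟨by omega, .inr ⟨by omega, hx⟩⟩))
    · exact .inr (.inr (.inl ⟨by omega, .inl ⟨by omega, hx⟩⟩))
    · exact .inr (.inr (.inr ⟨by omega, .inr ⟨by omega, hx⟩⟩))
    · exact .inr (.inr (.inr ⟨by omega, .inl ⟨by omega, hx⟩⟩))
  | @mul a b _ ih =>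
    have e : (b : ℝ) + (a - b : ℤ) * τ = τ * (a + b * τ) := by
      push_cast; linear_combination (-b : ℝ) * hτ
    rw [e]
    generalize (a : ℝ) + b * τ = x at ih ⊢
    simp only [GoldInv, hp, hn] at ih ⊢
    rcases ih with ⟨h, ⟨h', hx⟩ | ⟨h', hx⟩⟩ | ⟨h, ⟨h', hx⟩ | ⟨h', hx⟩⟩ | ⟨h, ⟨h', hx⟩ | ⟨h', hx⟩⟩ |
      ⟨h, ⟨h', hx⟩ | ⟨h', hx⟩⟩
    · exact .inr (.inl ⟨by omega, .inl ⟨by omega, hx⟩⟩)
    · exact .inr (.inl ⟨by omega, .inr ⟨by omega, hx⟩⟩)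
    · exact .inr (.inr (.inl ⟨by omega, .inl ⟨by omega, hx⟩⟩))
    · exact .inr (.inr (.inl ⟨by omega, .inr ⟨by omega, hx⟩⟩))
    · exact .inr (.inr (.inr ⟨by omega, .inl ⟨by omega, hx⟩⟩))
    · exact .inr (.inr (.inr ⟨by omega, .inr ⟨by omega, hx⟩⟩))
    · exact .inl ⟨by omega, .inl ⟨by omega, hx⟩⟩
    · exact .inl ⟨by omega, .inr ⟨by omega, hx⟩⟩
  | @div a b _ ih =>
    have e : (a : ℝ) + b * τ = τ * ((a + b : ℤ) + a * τ) := by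
      push_cast; linear_combination (-a : ℝ) * hτ
    rw [e] at ih
    generalize ((a + b : ℤ) : ℝ) + a * τ = x at ih ⊢
    simp only [GoldInv, hp, hn] at ih ⊢
    rcases ih with ⟨h, ⟨h', hx⟩ | ⟨h', hx⟩⟩ | ⟨h, ⟨h', hx⟩ | ⟨h', hx⟩⟩ | ⟨h, ⟨h', hx⟩ | ⟨h', hx⟩⟩ |
      ⟨h, ⟨h', hx⟩ | ⟨h', hx⟩⟩
    · exact .inr (.inr (.inr ⟨by omega, .inl ⟨by omega, hx⟩⟩))
    · exact .inr (.inr (.inr ⟨by omega, .inr ⟨by omega, hx⟩⟩))
    · exact .inl ⟨by omega, .inl ⟨by omega, hx⟩⟩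
    · exact .inl ⟨by omega, .inr ⟨by omega, hx⟩⟩
    · exact .inr (.inl ⟨by omega, .inl ⟨by omega, hx⟩⟩)
    · exact .inr (.inl ⟨by omega, .inr ⟨by omega, hx⟩⟩)
    · exact .inr (.inr (.inl ⟨by omega, .inl ⟨by omega, hx⟩⟩))
    · exact .inr (.inr (.inl ⟨by omega, .inr ⟨by omega, hx⟩⟩))

/-- the arithmetic core: `A = a + b τ`, `N = p + q τ` units, `A ≡ ± 1`, `N ≡ 1` modulo `√5`, `N ≡ A²` modulo `3` -/
theorem gold_pos {a b p q a' b' : ℤ} {τ : ℝ} (hτ : τ ^ 2 + τ - 1 = 0)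
    (hA : a ^ 2 - a * b - b ^ 2 = 1 ∨ a ^ 2 - a * b - b ^ 2 = -1)
    (hN : p ^ 2 - p * q - q ^ 2 = 1 ∨ p ^ 2 - p * q - q ^ 2 = -1)
    (hA5 : (a + 2 * b) % 5 = 1 ∨ (a + 2 * b) % 5 = 4) (hN5 : (p + 2 * q) % 5 = 1)
    (hp : p = a ^ 2 + b ^ 2 - 3 * a') (hq : q = 2 * a * b - b ^ 2 - 3 * b') : 0 < (p : ℝ) + q * τ := by
  have h1 := goldInv_of hτ (goldU_of_norm hA)
  have h2 := goldInv_of hτ (goldU_of_norm hN)
  have hq3 : (3 : ℤ) ∣ q := by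
    have h3 : b % 3 = 0 ∨ (a + b) % 3 = 0 := by
      unfold GoldInv at h1
      omega
    rcases h3 with h3 | h3
    · obtain ⟨c, hc⟩ := Int.dvd_of_emod_eq_zero h3
      exact ⟨(2 * a - b) * c - b', by rw [hq]; linear_combination (2 * a - b) * hc⟩
    · obtain ⟨c, hc⟩ := Int.dvd_of_emod_eq_zero h3
      exact ⟨a * b - b * c - b', by rw [hq]; linear_combination (-b) * hc⟩
  have hp3 : ¬ (3 : ℤ) ∣ p := by
    rintro ⟨c, rfl⟩
    obtain ⟨d, rfl⟩ := hq3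
    have e : (3 * c) ^ 2 - 3 * c * (3 * d) - (3 * d) ^ 2 = 9 * (c ^ 2 - c * d - d ^ 2) := by ring
    rw [e] at hN
    omega
  rcases h2 with ⟨h, ⟨h', hx⟩ | ⟨h', hx⟩⟩ | ⟨h, -⟩ | ⟨h, -⟩ | ⟨h, -⟩
  · exact hx
  all_goals omega

theorem ntb_ind {τ : ℂ} (hτ : τ ^ 2 + τ - 1 = 0) {x y : ℤ} (h : (x : ℂ) + y * τ = 0) :
    x = 0 ∧ y = 0 := by
  have h1 : (2 * x - y) * (2 * x - y) - 5 * y * y = 0 := by
    have h2 : ((2 * x - y) * (2 * x - y) - 5 * y * y : ℂ) = 0 := by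
      linear_combination 4 * (x - y * τ - y) * h + 4 * (y : ℂ) ^ 2 * hτ
    exact_mod_cast h2
  have h3 := (Zsqrtd.norm_eq_zero (d := 5) (fun n hn => by
    have h4 : n % 3 = 0 ∨ n % 3 = 1 ∨ n % 3 = 2 := by omega
    have h5 := congrArg (· % 3) hn
    simp only [Int.mul_emod n n] at h5
    rcases h4 with h4 | h4 | h4 <;> simp [h4] at h5) ⟨2 * x - y, y⟩).1 h1
  have h4 : 2 * x - y = 0 := congrArg Zsqrtd.re h3
  have h5 : y = 0 := congrArg Zsqrtd.im h3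
  omega

theorem ntb_tau {α : ℂ} (hα : α ^ 5 = 1) (hα1 : α ≠ 1) :
    (α + α ^ 4) ^ 2 + (α + α ^ 4) - 1 = 0 := by
  refine mul_left_cancel₀ (sub_ne_zero.2 hα1) ?_
  linear_combination (α ^ 4 - α ^ 3 + 2 * α - 1) * hα

theorem ntb_red (p : ℤ[X]) : ∃ n₀ n₁ n₂ n₃ n₄ : ℤ, p.eval 1 = n₀ + n₁ + n₂ + n₃ + n₄ ∧
    ∀ x : ℂ, x ^ 5 = 1 → aeval x p = n₀ + n₁ * x + n₂ * x ^ 2 + n₃ * x ^ 3 + n₄ * x ^ 4 := by
  induction p using Polynomial.induction_on with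
  | C a => exact ⟨a, 0, 0, 0, 0, by simp, fun x _ => by simp⟩
  | add p q hp hq =>
    obtain ⟨a₀, a₁, a₂, a₃, a₄, ha, ha'⟩ := hp
    obtain ⟨b₀, b₁, b₂, b₃, b₄, hb, hb'⟩ := hq
    refine ⟨a₀ + b₀, a₁ + b₁, a₂ + b₂, a₃ + b₃, a₄ + b₄, by rw [eval_add, ha, hb]; ring,
      fun x hx => ?_⟩
    rw [map_add, ha' x hx, hb' x hx]
    push_cast
    ring
  | monomial n a h =>
    obtain ⟨a₀, a₁, a₂, a₃, a₄, ha, ha'⟩ := h
    refine ⟨a₄, a₀, a₁, a₂, a₃, ?_, fun x hx => ?_⟩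
    · rw [pow_succ, ← mul_assoc, eval_mul, ha, eval_X]
      ring
    · rw [pow_succ, ← mul_assoc, map_mul, ha' x hx, aeval_X]
      linear_combination (a₄ : ℂ) * hx

/-- an integral polynomial in `α` that is invariant under `α ↦ α⁻¹` lies in `ℤ[τ]` -/
theorem real5 {α : ℂ} (hα : α ^ 5 = 1) (hα1 : α ≠ 1) (p : ℤ[X]) (h : aeval (α ^ 4) p = aeval α p) :
    ∃ a b : ℤ, aeval α p = (a : ℂ) + b * (α + α ^ 4) ∧ (a + 2 * b) % 5 = p.eval 1 % 5 := by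
  obtain ⟨n₀, n₁, n₂, n₃, n₄, h1, h2⟩ := ntb_red p
  have hτ := ntb_tau hα hα1
  have h4 : (α ^ 4) ^ 5 = 1 := by rw [← pow_mul, mul_comm, pow_mul, hα, one_pow]
  have hne : α - α ^ 4 ≠ 0 := fun h0 => hα1 (by
    linear_combination (α ^ 6 + α ^ 3 + 1) * h0 + (α ^ 5 + 1) * hα)
  rw [h2 _ h4, h2 _ hα] at h
  have h5 : ((n₁ - n₄ : ℤ) : ℂ) + (n₂ - n₃ : ℤ) * (α + α ^ 4) = 0 := by
    refine mul_left_cancel₀ hne ?_
    push_cast
    linear_combination (-1 : ℂ) * h + (n₃ * α ^ 3 + n₃ * (α ^ 7 + α ^ 2) +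
      n₄ * (α ^ 11 + α ^ 6 + α)) * hα
  obtain ⟨h6, h7⟩ := ntb_ind hτ h5
  obtain rfl : n₁ = n₄ := by omega
  obtain rfl : n₂ = n₃ := by omega
  refine ⟨n₀ - n₂, n₁ - n₂, ?_, by omega⟩
  rw [h2 _ hα]
  push_cast
  linear_combination (n₂ : ℂ) * hτ - n₂ * (α ^ 3 + 2) * hα

theorem ntb_conj {x : ℂ} {n : ℕ} (h : x ^ (n + 1) = 1) : (starRingEnd ℂ) x = x ^ n := by
  have h1 : (starRingEnd ℂ) x * x = 1 := by
    rw [Complex.conj_mul', Complex.norm_eq_one_of_pow_eq_one h n.succ_ne_zero]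
    simp
  linear_combination x ^ n * h1 - (starRingEnd ℂ) x * h

theorem ntb_one (p : ℤ[X]) : aeval (1 : ℂ) p = (p.eval 1 : ℤ) := by
  obtain ⟨n₀, n₁, n₂, n₃, n₄, h1, h2⟩ := ntb_red p
  rw [h1, h2 1 (one_pow 5)]
  simp

theorem ntb_norm {τ : ℂ} (hτ : τ ^ 2 + τ - 1 = 0) {a b c d : ℤ}
    (h : ((a : ℂ) + b * τ) * (c + d * τ) = 1) :
    a ^ 2 - a * b - b ^ 2 = 1 ∨ a ^ 2 - a * b - b ^ 2 = -1 := by
  obtain ⟨h1, h2⟩ := ntb_ind hτ (x := a * c + b * d - 1) (y := a * d + b * c - b * d) (by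
    push_cast
    linear_combination h - (b * d : ℂ) * hτ)
  refine Int.eq_one_or_neg_one_of_mul_eq_one (v := c ^ 2 - c * d - d ^ 2) ?_
  linear_combination (a * c + b * d + 1 - (a * d + b * c - b * d)) * h1 -
    (a * d + b * c - b * d + 1) * h2

/-- a function on `μ₅ × μ₃` given by an element of `ℤ[C₅ × C₃]` -/
def IsInt (F : ℂ → ℂ → ℂ) : Prop :=
  ∃ c₀ c₁ c₂ : ℤ[X], ∀ α β : ℂ, α ^ 5 = 1 → β ^ 3 = 1 →
    F α β = aeval α c₀ + aeval α c₁ * β + aeval α c₂ * β ^ 2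

/-- the data attached to a symmetric function -/
theorem ntb_data {F : ℂ → ℂ → ℂ} (hF : IsInt F)
    (hs : ∀ α β : ℂ, α ^ 5 = 1 → β ^ 3 = 1 → F (α ^ 4) (β ^ 2) = F α β)
    {α β : ℂ} (hα : α ^ 5 = 1) (hβ : β ^ 3 = 1) (hα1 : α ≠ 1) (hβ1 : β ≠ 1) :
    ∃ a b p q a' b' m n : ℤ, F α 1 = a + b * (α + α ^ 4) ∧
      F α β * F α (β ^ 2) = p + q * (α + α ^ 4) ∧ F 1 1 = m ∧ F 1 β * F 1 (β ^ 2) = n ∧ 0 ≤ n ∧
      (a + 2 * b) % 5 = m % 5 ∧ (p + 2 * q) % 5 = n % 5 ∧ p = a ^ 2 + b ^ 2 - 3 * a' ∧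
      q = 2 * a * b - b ^ 2 - 3 * b' := by
  obtain ⟨c₀, c₁, c₂, hc⟩ := hF
  have hτ := ntb_tau hα hα1
  have h4 : (α ^ 4) ^ 5 = 1 := by rw [← pow_mul, mul_comm, pow_mul, hα, one_pow]
  have hβ2 : (β ^ 2) ^ 3 = 1 := by rw [← pow_mul, mul_comm, pow_mul, hβ, one_pow]
  have hβ4 : (β ^ 2) ^ 2 = β := by linear_combination β * hβ
  have hβ0 : β ^ 2 + β + 1 = 0 :=
    mul_left_cancel₀ (sub_ne_zero.2 hβ1) (by linear_combination hβ)
  have e1 : ∀ x : ℂ, x ^ 5 = 1 → aeval x (c₀ + c₁ + c₂) = F x 1 := fun x hx => by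
    rw [hc x 1 hx (one_pow 3)]
    simp
  have e2 : ∀ x : ℂ, x ^ 5 = 1 →
      aeval x ((c₀ + c₁ + c₂) ^ 2 - 3 * (c₀ * c₁ + c₀ * c₂ + c₁ * c₂)) = F x β * F x (β ^ 2) :=
    fun x hx => by
      rw [hc x β hx hβ, hc x _ hx hβ2, hβ4]
      simp only [map_sub, map_pow, map_add, map_mul, map_ofNat]
      linear_combination -(aeval x c₀ * aeval x c₁ + aeval x c₀ * aeval x c₂ +
        aeval x c₁ * aeval x c₂) * hβ0 -
        (aeval x c₁ ^ 2 + aeval x c₂ ^ 2 + aeval x c₁ * aeval x c₂ * β) * hβ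
  have s1 : aeval (α ^ 4) (c₀ + c₁ + c₂) = aeval α (c₀ + c₁ + c₂) := by
    rw [e1 _ h4, e1 _ hα, ← hs α 1 hα (one_pow 3), one_pow]
  have s2 : aeval (α ^ 4) ((c₀ + c₁ + c₂) ^ 2 - 3 * (c₀ * c₁ + c₀ * c₂ + c₁ * c₂)) =
      aeval α ((c₀ + c₁ + c₂) ^ 2 - 3 * (c₀ * c₁ + c₀ * c₂ + c₁ * c₂)) := by
    rw [e2 _ h4, e2 _ hα, hs α β hα hβ, ← hs α _ hα hβ2, hβ4, mul_comm]
  have s3 : aeval (α ^ 4) (c₀ * c₁ + c₀ * c₂ + c₁ * c₂) =
      aeval α (c₀ * c₁ + c₀ * c₂ + c₁ * c₂) := by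
    rw [map_sub, map_sub, map_pow, map_pow, s1, map_mul, map_mul, map_ofNat, map_ofNat] at s2
    linear_combination (-1 / 3 : ℂ) * s2
  obtain ⟨a, b, ha, hab⟩ := real5 hα hα1 _ s1
  obtain ⟨p, q, hp, hpq⟩ := real5 hα hα1 _ s2
  obtain ⟨a', b', ha', -⟩ := real5 hα hα1 _ s3
  obtain ⟨h5, h6⟩ := ntb_ind hτ (x := p - (a ^ 2 + b ^ 2 - 3 * a'))
    (y := q - (2 * a * b - b ^ 2 - 3 * b')) (by
      rw [map_sub, map_pow, map_mul, map_ofNat, ha, ha'] at hp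
      push_cast
      linear_combination (b : ℂ) ^ 2 * hτ - hp)
  refine ⟨a, b, p, q, a', b', _, _, (e1 α hα).symm.trans ha, (e2 α hα).symm.trans hp,
    (e1 1 (one_pow 5)).symm.trans (ntb_one _), (e2 1 (one_pow 5)).symm.trans (ntb_one _), ?_,
    hab, hpq, by omega, by omega⟩
  simp only [eval_sub, eval_pow, eval_add, eval_mul, eval_ofNat]
  nlinarith [sq_nonneg (c₀.eval 1 - c₁.eval 1), sq_nonneg (c₀.eval 1 - c₂.eval 1),
    sq_nonneg (c₁.eval 1 - c₂.eval 1)]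

theorem ntb_real {F : ℂ → ℂ → ℂ} (hF : IsInt F)
    (hs : ∀ α β : ℂ, α ^ 5 = 1 → β ^ 3 = 1 → F (α ^ 4) (β ^ 2) = F α β)
    {α β : ℂ} (hα : α ^ 5 = 1) (hβ : β ^ 3 = 1) : ((F α β).re : ℂ) = F α β := by
  obtain ⟨c₀, c₁, c₂, hc⟩ := hF
  have h4 : (α ^ 4) ^ 5 = 1 := by rw [← pow_mul, mul_comm, pow_mul, hα, one_pow]
  have hβ2 : (β ^ 2) ^ 3 = 1 := by rw [← pow_mul, mul_comm, pow_mul, hβ, one_pow]
  have h1 : ∀ c : ℤ[X], (starRingEnd ℂ) (aeval α c) = aeval (α ^ 4) c := fun c => by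
    rw [← ntb_conj (n := 4) hα]
    exact (aeval_algHom_apply (starRingEnd ℂ).toIntAlgHom α c).symm
  refine Complex.conj_eq_iff_re.1 ?_
  conv_rhs => rw [← hs α β hα hβ]
  rw [hc _ _ hα hβ, hc _ _ h4 hβ2]
  simp only [map_add, map_mul, map_pow, h1, ntb_conj (n := 2) hβ]

theorem nt_pos {F F' : ℂ → ℂ → ℂ} (hF : IsInt F) (hF' : IsInt F')
    (hu : ∀ α β : ℂ, α ^ 5 = 1 → β ^ 3 = 1 → F α β * F' α β = 1)
    (hs : ∀ α β : ℂ, α ^ 5 = 1 → β ^ 3 = 1 → F (α ^ 4) (β ^ 2) = F α β)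
    {α β : ℂ} (hα : α ^ 5 = 1) (hβ : β ^ 3 = 1) (hα1 : α ≠ 1) (hβ1 : β ≠ 1) :
    ∃ r s : ℝ, F α β = r ∧ F α (β ^ 2) = s ∧ 0 < r * s := by
  have hβ2 : (β ^ 2) ^ 3 = 1 := by rw [← pow_mul, mul_comm, pow_mul, hβ, one_pow]
  have hs' : ∀ α β : ℂ, α ^ 5 = 1 → β ^ 3 = 1 → F' (α ^ 4) (β ^ 2) = F' α β := by
    intro x y hx hy
    have h1 := hu (x ^ 4) (y ^ 2) (by rw [← pow_mul, mul_comm, pow_mul, hx, one_pow])
      (by rw [← pow_mul, mul_comm, pow_mul, hy, one_pow])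
    rw [hs x y hx hy] at h1
    linear_combination F' x y * h1 - F' (x ^ 4) (y ^ 2) * hu x y hx hy
  have hτ := ntb_tau hα hα1
  obtain ⟨a, b, p, q, a', b', m, n, h1, h2, h3, h4, h5, h6, h7, h8, h9⟩ :=
    ntb_data hF hs hα hβ hα1 hβ1
  obtain ⟨a₂, b₂, p₂, q₂, -, -, m₂, n₂, k1, k2, k3, k4, -⟩ := ntb_data hF' hs' hα hβ hα1 hβ1
  have hA := ntb_norm hτ (a := a) (b := b) (c := a₂) (d := b₂) (by
    rw [← h1, ← k1, hu α 1 hα (one_pow 3)])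
  have hN := ntb_norm hτ (a := p) (b := q) (c := p₂) (d := q₂) (by
    rw [← h2, ← k2, mul_mul_mul_comm, hu α β hα hβ, hu α _ hα hβ2, one_mul])
  have hm : m * m₂ = 1 := by
    have h := hu 1 1 (one_pow 5) (one_pow 3)
    rw [h3, k3] at h
    exact_mod_cast h
  have hn : n * n₂ = 1 := by
    have h : (n : ℂ) * n₂ = 1 := by
      rw [← h4, ← k4, mul_mul_mul_comm, hu 1 β (one_pow 5) hβ, hu 1 _ (one_pow 5) hβ2, one_mul]
    exact_mod_cast h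
  have hm' := Int.eq_one_or_neg_one_of_mul_eq_one hm
  have hn' := Int.eq_one_or_neg_one_of_mul_eq_one hn
  have ht : (((α + α ^ 4).re : ℝ) : ℂ) = α + α ^ 4 := by
    refine Complex.conj_eq_iff_re.1 ?_
    rw [map_add, map_pow, ntb_conj (n := 4) hα]
    linear_combination (α ^ 11 + α ^ 6 + α) * hα
  have hpos := gold_pos (τ := (α + α ^ 4).re) (by
    rw [← ht] at hτ
    exact_mod_cast hτ) hA hN (by omega) (by omega) h8 h9
  refine ⟨_, _, (ntb_real hF hs hα hβ).symm, (ntb_real hF hs hα hβ2).symm, ?_⟩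
  rw [← ntb_real hF hs hα hβ, ← ntb_real hF hs hα hβ2, ← ht] at h2
  have h10 : (F α β).re * (F α (β ^ 2)).re = p + q * (α + α ^ 4).re := by exact_mod_cast h2
  rwa [h10]

end Crest.Agent.R251
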