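import Crest.Agent.R251.K.Alpha

/-!
# Row 251, K₁ part: elementary moves between the standard representations
-/

set_option autoImplicit false

open Matrix Complex

namespace Crest.Agent.R251

/-- columns `e₊ = (1, -i, 0)`, `e₋ = (1, i, 0)`, `e₃` -/
noncomputable def QE : Matrix (Fin 3) (Fin 3) ℂ := !![1, 1, 0; -I, I, 0; 0, 0, 1]

noncomputable def QE' : Matrix (Fin 3) (Fin 3) ℂ := !![1 / 2, I / 2, 0; 1 / 2, -I / 2, 0; 0, 0, 1]

theorem QE'_mul : QE' * QE = 1 := by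
  ext i j
  fin_cases i <;> fin_cases j <;>
    simp [QE, QE', Matrix.mul_apply, Fin.sum_univ_succ] <;>
    first
      | linear_combination (-1 / 2 : ℂ) * I_mul_I
      | linear_combination (1 / 2 : ℂ) * I_mul_I

/-- complexification followed by passage to the eigenbasis of the rotations about the third axis -/
noncomputable def toEig : Matrix (Fin 3) (Fin 3) ℝ →* Matrix (Fin 3) (Fin 3) ℂ :=
  (conjHom QE' QE QE'_mul).comp
    (ofRealHom.mapMatrix : Matrix (Fin 3) (Fin 3) ℝ →+* Matrix (Fin 3) (Fin 3) ℂ).toMonoidHom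

theorem toEig_apply (A : Matrix (Fin 3) (Fin 3) ℝ) : toEig A = QE' * A.map ofReal * QE := rfl

theorem toEig_rotz (x : ℝ) : toEig (rotz x) = !![exp (x * I), 0, 0; 0, exp (-(x * I)), 0; 0, 0, 1] := by
  have h1 : exp (-(x * I)) = cos x - sin x * I := by
    rw [← neg_mul, exp_mul_I, cos_neg, sin_neg]; ring
  rw [toEig_apply, h1, exp_mul_I]
  ext i j
  fin_cases i <;> fin_cases j <;>
    simp [QE, QE', rotz, Matrix.mul_apply, Fin.sum_univ_succ, Matrix.vecMul, dotProduct] <;>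
    first
      | linear_combination (-(cos (x : ℂ)) / 2) * I_mul_I
      | linear_combination ((cos (x : ℂ)) / 2) * I_mul_I

theorem toEig_stdS : toEig stdS = !![0, 1, 0; 1, 0, 0; 0, 0, -1] := by
  rw [toEig_apply]
  ext i j
  fin_cases i <;> fin_cases j <;>
    simp [QE, QE', stdS, Matrix.mul_apply, Fin.sum_univ_succ, Matrix.vecMul, dotProduct] <;>
    first
      | linear_combination (-1 / 2 : ℂ) * I_mul_I
      | linear_combination (1 / 2 : ℂ) * I_mul_I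

variable {m : Type} [Fintype m] [DecidableEq m] {w : Matrix m m (ZG G)}
  {θ θ' : G →* Matrix (Fin 3) (Fin 3) ℝ} {j j' : ℤ} {s₁ s₂ s₃ s₄ : ℝ}

theorem DD_toEig (θ : G →* Matrix (Fin 3) (Fin 3) ℝ) (w : Matrix m m (ZG G)) :
    DD (toEig.comp θ) w = ((DD θ w : ℝ) : ℂ) := by
  have h : toEig.comp θ = (conjHom QE' QE QE'_mul).comp (mapRep ofRealHom θ) := rfl
  rw [h, DD_conjHom, DD_map]
  rfl

theorem IsStd.gc_eq (h : IsStd θ j s₁ s₂ s₃ s₄) : θ gc = !![-1, 0, 0; 0, -1, 0; 0, 0, 1] := by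
  rw [gc, map_pow, h.r, rotz_pow_fifteen h.hj]

theorem IsStd.gsp_eq (h : IsStd θ j s₁ s₂ s₃ s₄) : θ gsp = !![-1, 0, 0; 0, 1, 0; 0, 0, -1] := by
  rw [gsp, map_mul, h.s, h.gc_eq]
  ext i j
  fin_cases i <;> fin_cases j <;> simp [stdS, Matrix.mul_apply, Fin.sum_univ_succ]

theorem sa_inv {g : G} {A B : Matrix (Fin 3) (Fin 3) ℝ} (h : θ g = A) (hAB : A * B = 1) : θ g⁻¹ = B := by
  calc θ g⁻¹ = θ g⁻¹ * (θ g * B) := by rw [h, hAB, mul_one]
    _ = B := by rw [← mul_assoc, ← map_mul, inv_mul_cancel, map_one, one_mul]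

theorem IsStd.gbZ_eq (h : IsStd θ j s₁ s₂ s₃ s₄) : θ gbZ = rotz (s₂ * s₄ * (2 * Real.pi * j / 3)) := by
  have ht : θ gt⁻¹ = (stdT s₁ s₂)ᵀ := sa_inv h.t (stdT_mul_transpose h.h₁ h.h₂)
  have hu : θ gu⁻¹ = (stdU s₃ s₄)ᵀ := sa_inv h.u (stdU_mul_transpose h.h₃ h.h₄)
  have hb : θ gb = rotz (2 * Real.pi * j / 3) := by
    rw [gb, map_pow, h.r, rotz_pow]
    congr 1
    push_cast
    ring
  rw [gbZ, gbB, map_mul, map_mul, map_mul, map_mul, ht, hu, hb, h.t, h.u,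
    stdU_stdT_rotz h.h₁ h.h₂ h.h₃ h.h₄]

/-- `α = ζ^6`, `β = ζ^10`, `ζ = exp (2 π i j / 30) = -α β` -/
theorem IsStd.isEig (h : IsStd θ j s₁ s₂ s₃ s₄) : ∃ α β γ : ℂ, α ≠ 1 ∧ β ≠ 1 ∧ (s₂ * s₄ = 1 → γ = β) ∧
    IsEig (toEig.comp θ) α β γ := by
  obtain ⟨ζ, hζ⟩ : ∃ ζ : ℂ, ζ = exp (((2 * Real.pi * j / 30 : ℝ) : ℂ) * I) := ⟨_, rfl⟩
  have hpow : ∀ n : ℕ, ζ ^ n = exp ((n * j / 30 : ℂ) * (2 * Real.pi * I)) := fun n => by
    rw [hζ, ← exp_nat_mul]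
    congr 1
    push_cast
    ring
  have h15 : ζ ^ 15 = -1 := by
    obtain ⟨k, hk⟩ := odd_of_isCoprime_thirty h.hj
    rw [hpow, hk]
    have e : ((15 : ℕ) * ((2 * k + 1 : ℤ) : ℂ) / 30) * (2 * Real.pi * I) =
        k * (2 * Real.pi * I) + Real.pi * I := by
      push_cast
      ring
    rw [e, exp_add, exp_int_mul_two_pi_mul_I, exp_pi_mul_I, one_mul]
  have h30 : ζ ^ 30 = 1 := by
    rw [show (30 : ℕ) = 15 * 2 from rfl, pow_mul, h15]
    norm_num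
  have hne : ∀ n p : ℕ, n * p = 30 → p.Prime → ζ ^ n ≠ 1 := fun n p hnp hp h1 => by
    rw [hpow, exp_eq_one_iff] at h1
    obtain ⟨k, hk⟩ := h1
    have hk' : (n * j / 30 : ℂ) = k := mul_right_cancel₀ two_pi_I_ne_zero hk
    have hnp' : (n : ℂ) * p = 30 := by exact_mod_cast hnp
    have hj : (j : ℂ) = p * k := by
      rw [← hk']
      linear_combination (-(j : ℂ) / 30) * hnp'
    have hj' : j = p * k := by exact_mod_cast hj
    have hd : (p : ℤ) ∣ 30 := ⟨n, by rw [mul_comm]; exact_mod_cast hnp.symm⟩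
    have hu : IsUnit (p : ℤ) := h.hj.isUnit_of_dvd' ⟨k, hj'⟩ hd
    exact (Nat.prime_iff_prime_int.1 hp).not_isUnit hu
  have hinv : ∀ (n : ℕ) (y : ℂ), ζ ^ n = exp y → n ≤ 30 → exp (-y) = ζ ^ (30 - n) := fun n y hy hn => by
    rw [Complex.exp_neg, ← hy]
    apply inv_eq_of_mul_eq_one_right
    rw [← pow_add, Nat.add_sub_cancel' hn, h30]
  have hb : ζ ^ 10 = exp (((2 * Real.pi * j / 3 : ℝ) : ℂ) * I) := by
    rw [hpow]
    congr 1
    push_cast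
    ring
  have hr : (toEig.comp θ) gr = !![-(ζ ^ 6 * ζ ^ 10), 0, 0; 0, -((ζ ^ 6) ^ 4 * (ζ ^ 10) ^ 2), 0; 0, 0, 1] := by
    have e1 : -(ζ ^ 6 * ζ ^ 10) = ζ := by linear_combination (-ζ) * h15
    have e2 : -((ζ ^ 6) ^ 4 * (ζ ^ 10) ^ 2) = ζ ^ (30 - 1) := by
      norm_num
      linear_combination (-ζ ^ 29) * h15
    rw [MonoidHom.comp_apply, h.r, toEig_rotz, hinv 1 _ (by rw [pow_one, hζ]) (by norm_num), ← hζ, e1, e2]
  have hs : (toEig.comp θ) gs = !![0, 1, 0; 1, 0, 0; 0, 0, -1] := by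
    rw [MonoidHom.comp_apply, h.s, toEig_stdS]
  have hα : (ζ ^ 6) ^ 5 = 1 := by rw [← pow_mul]; exact h30
  have hβ : (ζ ^ 10) ^ 3 = 1 := by rw [← pow_mul]; exact h30
  have h20 : exp (-(((2 * Real.pi * j / 3 : ℝ) : ℂ) * I)) = (ζ ^ 10) ^ 2 := by
    rw [hinv 10 _ hb (by norm_num), ← pow_mul]
  have hs24 : s₂ * s₄ = 1 ∨ s₂ * s₄ = -1 := by
    rcases h.h₂ with h2 | h2 <;> rcases h.h₄ with h4 | h4 <;> simp [h2, h4]
  rcases hs24 with hs24 | hs24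
  · refine ⟨ζ ^ 6, ζ ^ 10, ζ ^ 10, hne 6 5 rfl (by norm_num), hne 10 3 rfl (by norm_num), fun _ => rfl,
      hα, hβ, hβ, hr, hs, ?_⟩
    rw [MonoidHom.comp_apply, h.gbZ_eq, hs24, one_mul, toEig_rotz, h20, ← hb]
  · refine ⟨ζ ^ 6, ζ ^ 10, (ζ ^ 10) ^ 2, hne 6 5 rfl (by norm_num), hne 10 3 rfl (by norm_num),
      fun h1 => absurd (h1.symm.trans hs24) (by norm_num), hα, hβ, ?_, hr, hs, ?_⟩
    · rw [← pow_mul, mul_comm, pow_mul, hβ, one_pow]
    · have e : ((ζ ^ 10) ^ 2) ^ 2 = ζ ^ 10 := by linear_combination (ζ ^ 10) * hβ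
      rw [MonoidHom.comp_apply, h.gbZ_eq, hs24, toEig_rotz, e, neg_one_mul, ofReal_neg, neg_mul, neg_neg, h20,
        ← hb]

theorem IsStd.eq_of_mod (h : IsStd θ j s₁ s₂ s₃ s₄) (h' : IsStd θ' j' s₁ s₂ s₃ s₄) (hj : j % 30 = j' % 30) :
    θ = θ' := by
  refine hom_ext (h.t.trans h'.t.symm) (h.u.trans h'.u.symm) (h.s.trans h'.s.symm) ?_
  obtain ⟨k, hk⟩ : ∃ k : ℤ, j' = j + 30 * k := ⟨(j' - j) / 30, by omega⟩
  rw [h.r, h'.r, ← rotz_add_int _ k, hk]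
  congr 1
  push_cast
  ring

theorem stdb_rotz_mul (x y : ℝ) : rotz x * rotz y = rotz (x + y) := by
  ext a b
  fin_cases a <;> fin_cases b <;>
    simp [rotz, Matrix.mul_apply, Fin.sum_univ_three, Real.cos_add, Real.sin_add] <;> ring

theorem stdb_rotz_pow (x : ℝ) (n : ℕ) : rotz x ^ n = rotz (n * x) := by
  induction n with
  | zero =>
    ext a b
    fin_cases a <;> fin_cases b <;> simp [rotz]
  | succ n ih => rw [pow_succ, ih, stdb_rotz_mul]; congr 1; push_cast; ring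

theorem stdb_S_sq : stdS * stdS = 1 := by
  ext a b
  fin_cases a <;> fin_cases b <;> simp [stdS, Matrix.mul_apply, Fin.sum_univ_three]

theorem stdb_C_sq : (!![-1, 0, 0; 0, -1, 0; 0, 0, 1] : Matrix (Fin 3) (Fin 3) ℝ) *
    !![-1, 0, 0; 0, -1, 0; 0, 0, 1] = 1 := by
  ext a b
  fin_cases a <;> fin_cases b <;> simp [Matrix.mul_apply, Fin.sum_univ_three]

theorem stdb_r11 {s₁' s₂' s₃' s₄' : ℝ} (h : IsStd θ j s₁ s₂ s₃ s₄)
    (h' : IsStd θ' (11 * j) s₁' s₂' s₃' s₄') : θ' gr = θ gr ^ 11 := by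
  rw [h.r, h'.r, stdb_rotz_pow]
  congr 1; push_cast; ring

/-- conjugation by `σ` -/
theorem IsStd.conj_s (h : IsStd θ j s₁ s₂ s₃ s₄) (h' : IsStd θ' (-j) (-s₁) (-s₂) s₃ (-s₄))
    (w : Matrix m m (ZG G)) : DD θ' w = DD θ w := by
  have e : θ' = (conjHom stdS stdS stdb_S_sq).comp θ := by
    refine hom_ext ?_ ?_ ?_ ?_
    · rw [MonoidHom.comp_apply, conjHom_apply, h.t, h'.t]
      ext a b
      fin_cases a <;> fin_cases b <;> simp [stdS, stdT, Matrix.mul_apply, Fin.sum_univ_three]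
    · rw [MonoidHom.comp_apply, conjHom_apply, h.u, h'.u]
      ext a b
      fin_cases a <;> fin_cases b <;> simp [stdS, stdU, Matrix.mul_apply, Fin.sum_univ_three]
    · rw [MonoidHom.comp_apply, conjHom_apply, h.s, h'.s, stdb_S_sq, one_mul]
    · rw [MonoidHom.comp_apply, conjHom_apply, h.r, h'.r,
        show 2 * Real.pi * ((-j : ℤ) : ℝ) / 30 = -(2 * Real.pi * j / 30) by push_cast; ring]
      ext a b
      fin_cases a <;> fin_cases b <;> simp [stdS, rotz, Matrix.mul_apply, Fin.sum_univ_three]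
  rw [e, DD_conjHom]

/-- conjugation by `c` -/
theorem IsStd.conj_c (h : IsStd θ j s₁ s₂ s₃ s₄) (h' : IsStd θ' j (-s₁) (-s₂) (-s₃) (-s₄))
    (w : Matrix m m (ZG G)) : DD θ' w = DD θ w := by
  have e : θ' = (conjHom _ _ stdb_C_sq).comp θ := by
    refine hom_ext ?_ ?_ ?_ ?_
    · rw [MonoidHom.comp_apply, conjHom_apply, h.t, h'.t]
      ext a b
      fin_cases a <;> fin_cases b <;> simp [stdT, Matrix.mul_apply, Fin.sum_univ_three]
    · rw [MonoidHom.comp_apply, conjHom_apply, h.u, h'.u]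
      ext a b
      fin_cases a <;> fin_cases b <;> simp [stdU, Matrix.mul_apply, Fin.sum_univ_three]
    · rw [MonoidHom.comp_apply, conjHom_apply, h.s, h'.s]
      ext a b
      fin_cases a <;> fin_cases b <;> simp [stdS, Matrix.mul_apply, Fin.sum_univ_three]
    · rw [MonoidHom.comp_apply, conjHom_apply, h.r, h'.r]
      ext a b
      fin_cases a <;> fin_cases b <;> simp [rotz, Matrix.mul_apply, Fin.sum_univ_three]
  rw [e, DD_conjHom]

/-- `t ↦ t c` -/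
theorem IsStd.flip₁ (hw : IsUnit w) (h : IsStd θ j s₁ s₂ s₃ s₄) (h' : IsStd θ' j (-s₁) s₂ s₃ s₄) :
    DD θ' w = DD θ w := by
  obtain ⟨α, β, γ, -, -, -, hE⟩ := h.isEig
  have ht : θ' gt = θ gt * θ gc := by
    rw [h.gc_eq, h.t, h'.t]
    ext a b
    fin_cases a <;> fin_cases b <;> simp [stdT, Matrix.mul_apply, Fin.sum_univ_three]
  have hb : Bent .T (toEig.comp θ) (toEig.comp θ') ((toEig.comp θ) gc) := by
    refine ⟨?_, ?_, ?_, ?_⟩ <;> simp only [MonoidHom.comp_apply]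
    · rw [ht, map_mul]
    · rw [h.u, h'.u]
    · rw [h.s, h'.s]
    · rw [h.r, h'.r]
  have := hE.flipT hw hb
  rwa [DD_toEig, DD_toEig, Complex.ofReal_inj] at this

/-- `u ↦ u c` -/
theorem IsStd.flip₃ (hw : IsUnit w) (h : IsStd θ j s₁ s₂ s₃ s₄) (h' : IsStd θ' j s₁ s₂ (-s₃) s₄) :
    DD θ' w = DD θ w := by
  obtain ⟨α, β, γ, -, -, -, hE⟩ := h.isEig
  have hu : θ' gu = θ gu * θ gc := by
    rw [h.gc_eq, h.u, h'.u]
    ext a b
    fin_cases a <;> fin_cases b <;> simp [stdU, Matrix.mul_apply, Fin.sum_univ_three]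
  have hb : Bent .Z (toEig.comp θ) (toEig.comp θ') ((toEig.comp θ) gc) := by
    refine ⟨?_, ?_, ?_, ?_⟩ <;> simp only [MonoidHom.comp_apply]
    · rw [h.t, h'.t]
    · rw [hu, map_mul]
    · rw [h.s, h'.s]
    · rw [h.r, h'.r]
  have := hE.flipZ hw hb
  rwa [DD_toEig, DD_toEig, Complex.ofReal_inj] at this

/-- `ρ ↦ ρ^11`, `t ↦ t σ` -/
theorem IsStd.alphaA (hw : IsUnit w) (h : IsStd θ j s₁ s₂ s₃ s₄) (h' : IsStd θ' (11 * j) s₁ (-s₂) s₃ s₄) :
    0 < DD θ w * DD θ' w := by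
  obtain ⟨α, β, γ, hα, hβ, -, hE⟩ := h.isEig
  have ht : θ' gt = θ gt * θ gs := by
    rw [h.s, h.t, h'.t]
    ext a b
    fin_cases a <;> fin_cases b <;> simp [stdT, stdS, Matrix.mul_apply, Fin.sum_univ_three]
  refine hE.alphaA_pos (θ' := toEig.comp θ') hw hα hβ ?_ ?_ ?_ ?_ (DD_toEig θ w) (DD_toEig θ' w) <;>
    simp only [MonoidHom.comp_apply]
  · rw [ht, map_mul]
  · rw [h.u, h'.u]
  · rw [h.s, h'.s]
  · rw [stdb_r11 h h', map_pow]

/-- `ρ ↦ ρ^11`, `t ↦ t σ`, `u ↦ u σ'` -/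
theorem IsStd.alphaAZ (hw : IsUnit w) (hs : s₂ * s₄ = 1) (h : IsStd θ j s₁ s₂ s₃ s₄)
    (h' : IsStd θ' (11 * j) s₁ (-s₂) s₃ (-s₄)) : 0 < DD θ w * DD θ' w := by
  obtain ⟨α, β, γ, hα, hβ, hγ, hE⟩ := h.isEig
  obtain rfl := hγ hs
  have ht : θ' gt = θ gt * θ gs := by
    rw [h.s, h.t, h'.t]
    ext a b
    fin_cases a <;> fin_cases b <;> simp [stdT, stdS, Matrix.mul_apply, Fin.sum_univ_three]
  have hu : θ' gu = θ gu * θ gsp := by
    rw [h.gsp_eq, h.u, h'.u]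
    ext a b
    fin_cases a <;> fin_cases b <;> simp [stdU, Matrix.mul_apply, Fin.sum_univ_three]
  refine hE.alphaAZ_pos (θ' := toEig.comp θ') hw hα hβ ?_ ?_ ?_ ?_ (DD_toEig θ w) (DD_toEig θ' w) <;>
    simp only [MonoidHom.comp_apply]
  · rw [ht, map_mul]
  · rw [hu, map_mul]
  · rw [h.s, h'.s]
  · rw [stdb_r11 h h', map_pow]

end Crest.Agent.R251
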