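import Crest.Agent.R251.K.Bend

/-!
# Row 251, K₁ part: exchanging a common summand of two representations

`SW φ φ' = [[1,-φ'],[0,1]] [[1,0],[φ,1]] [[1,-φ'],[0,1]]`.
`SW φ φ' * SW (-x φ) (-y φ') = (1 - e₁ + x e₁) ⊕ (1 - e₂ + y e₂)` for `x y = 1` and
`SW φ φ' * SW (-φ s₁) (-s₁ φ') = (1 - e₁ + s₁ e₁) ⊕ (1 - e₂ + s₂ e₂)` for involutions with `φ s₁ = s₂ φ`, `φ' s₂ = s₁ φ'`.
-/

set_option autoImplicit false

open Matrix

namespace Crest.Agent.R251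

variable {R R' n n₁ n₂ m : Type} [CommRing R] [CommRing R'] [Fintype n] [DecidableEq n]
  [Fintype n₁] [DecidableEq n₁] [Fintype n₂] [DecidableEq n₂] [Fintype m] [DecidableEq m]

/-- the scalar `x` on the summand `e`, the identity on the complement -/
def tw (e : Matrix n n R) (x : R) : Matrix n n R := 1 - e + x • e

theorem tw_one (e : Matrix n n R) : tw e 1 = 1 := by simp [tw]

theorem tw_mul {e : Matrix n n R} (he : e * e = e) (x y : R) : tw e x * tw e y = tw e (x * y) := by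
  simp only [tw, add_mul, mul_add, sub_mul, mul_sub, one_mul, mul_one, he, smul_mul_assoc, mul_smul_comm]
  module

theorem tw_add {e e' : Matrix n n R} (h : e * e' = 0) (x : R) : tw e x * tw e' x = tw (e + e') x := by
  simp only [tw, add_mul, mul_add, sub_mul, mul_sub, one_mul, mul_one, h, smul_mul_assoc, mul_smul_comm,
    smul_zero, smul_add, smul_sub]
  module

theorem tw_map (f : R →+* R') (e : Matrix n n R) (x : R) : (tw e x).map f = tw (e.map f) (f x) := by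
  ext i j
  by_cases hij : i = j <;> simp [tw, one_apply, hij]

theorem isUnit_tw {e : Matrix n n R} (he : e * e = e) (x : Rˣ) : IsUnit (tw e (x : R)) := by
  exact IsUnit.of_mul_eq_one (tw e ((x⁻¹ : Rˣ) : R)) (by rw [tw_mul he, Units.mul_inv, tw_one])

theorem Intw.to_tw {k : BT} {θ : G →* Matrix n n R} {e : Matrix n n R} (h : Intw k θ θ e) (x : R) :
    Intw k θ θ (tw e x) := by
  intro y hy
  simp only [tw, add_mul, mul_add, sub_mul, mul_sub, one_mul, mul_one, smul_mul_assoc, mul_smul_comm]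
  rw [show e * θ y = θ y * e from h y hy]

/-- the quarter turn exchanging the common summand -/
def SW (φ : Matrix n₂ n₁ R) (φ' : Matrix n₁ n₂ R) : Matrix (n₁ ⊕ n₂) (n₁ ⊕ n₂) R :=
  fromBlocks (1 - φ' * φ) (-φ') φ (1 - φ * φ')

theorem swa_mem_El {k : BT} {Θ : G →* Matrix (n₁ ⊕ n₂) (n₁ ⊕ n₂) R} {φ : Matrix n₂ n₁ R}
    {φ' : Matrix n₁ n₂ R} (h2 : φ' * φ * φ' = φ')
    (h : ∀ x ∈ edge k, ∃ A B, Θ x = fromBlocks A 0 0 B ∧ φ * A = B * φ ∧ φ' * B = A * φ') :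
    SW φ φ' ∈ El k Θ := by
  have a1 : (1 : Matrix (n₁ ⊕ n₂) (n₁ ⊕ n₂) R) + fromBlocks 0 (-φ') 0 0 ∈ El k Θ := by
    refine one_add_mem_El (by simp [fromBlocks_multiply]) fun x hx => ?_
    obtain ⟨A, B, hx, -, h'⟩ := h x hx
    rw [hx]
    simp [fromBlocks_multiply, h']
  have a2 : (1 : Matrix (n₁ ⊕ n₂) (n₁ ⊕ n₂) R) + fromBlocks 0 0 φ 0 ∈ El k Θ := by
    refine one_add_mem_El (by simp [fromBlocks_multiply]) fun x hx => ?_
    obtain ⟨A, B, hx, h', -⟩ := h x hx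
    rw [hx]
    simp [fromBlocks_multiply, h']
  have e : SW φ φ' = (1 + fromBlocks 0 (-φ') 0 0) * (1 + fromBlocks 0 0 φ 0) *
      (1 + fromBlocks 0 (-φ') 0 0) := by
    rw [← fromBlocks_one, fromBlocks_add, fromBlocks_add, fromBlocks_multiply, fromBlocks_multiply, SW]
    simp [Matrix.add_mul, h2, sub_eq_add_neg, add_comm]
  rw [e]
  exact mul_mem (mul_mem a1 a2) a1

theorem swa_mul {φ ψ : Matrix n₂ n₁ R} {φ' ψ' : Matrix n₁ n₂ R} (h1 : φ * φ' * φ = φ)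
    (h2 : φ' * φ * φ' = φ') (e1 : ψ' * ψ = φ' * φ) (e2 : ψ * ψ' = φ * φ') (e3 : φ' * φ * ψ' = ψ')
    (e4 : φ * φ' * ψ = ψ) :
    SW φ φ' * SW ψ ψ' = fromBlocks (1 - φ' * φ - φ' * ψ) 0 0 (1 - φ * φ' - φ * ψ') := by
  have z1 : φ * (1 - φ' * φ) = 0 := by rw [Matrix.mul_sub, Matrix.mul_one, ← Matrix.mul_assoc, h1, sub_self]
  have z2 : φ' * (1 - φ * φ') = 0 := by rw [Matrix.mul_sub, Matrix.mul_one, ← Matrix.mul_assoc, h2, sub_self]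
  rw [SW, SW, e1, e2, fromBlocks_multiply]
  refine fromBlocks_inj.2 ⟨?_, ?_, ?_, ?_⟩
  · rw [sub_mul, one_mul, Matrix.mul_assoc, z1, Matrix.mul_zero, sub_zero, Matrix.neg_mul, sub_eq_add_neg _ (φ' * ψ)]
  · rw [Matrix.neg_mul, z2, Matrix.mul_neg, Matrix.sub_mul, Matrix.one_mul, e3, sub_self, neg_zero, add_zero]
  · rw [z1, Matrix.sub_mul, Matrix.one_mul, e4, sub_self, add_zero]
  · rw [sub_mul, one_mul, Matrix.mul_assoc, z2, Matrix.mul_zero, sub_zero, Matrix.mul_neg, neg_add_eq_sub]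

theorem swa_half {φ : Matrix n₂ n₁ R} {φ' : Matrix n₁ n₂ R} (h1 : φ * φ' * φ = φ)
    {P₁ Q₁ : Matrix n₁ n₁ R} {P₂ : Matrix n₂ n₂ R} (p1 : φ' * φ * P₁ = P₁ * (φ' * φ))
    (q1 : φ * Q₁ = P₂ * φ) : φ * (P₁ * (1 - φ' * φ) + Q₁ * (φ' * φ)) = P₂ * φ := by
  have z1 : φ * (1 - φ' * φ) = 0 := by rw [Matrix.mul_sub, Matrix.mul_one, ← Matrix.mul_assoc, h1, sub_self]
  have c : P₁ * (1 - φ' * φ) = (1 - φ' * φ) * P₁ := by rw [mul_sub, sub_mul, p1, one_mul, mul_one]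
  rw [c, Matrix.mul_add, ← Matrix.mul_assoc, z1, Matrix.zero_mul, zero_add, ← Matrix.mul_assoc, q1,
    Matrix.mul_assoc, ← Matrix.mul_assoc φ, h1]

theorem swa_diag {e P Q : Matrix n n R} (he : e * e = e) (p : e * P = P * e) (q : e * Q = Q * e) :
    (1 - e) * (P * (1 - e) + Q * e) = P * (1 - e) := by
  have a : e * (P * e) = P * e := by rw [← mul_assoc, p, mul_assoc, he]
  have b : e * (Q * e) = Q * e := by rw [← mul_assoc, q, mul_assoc, he]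
  simp only [mul_add, mul_sub, sub_mul, one_mul, mul_one, a, b, p]
  abel

theorem swa_conj {φ : Matrix n₂ n₁ R} {φ' : Matrix n₁ n₂ R} (h1 : φ * φ' * φ = φ)
    (h2 : φ' * φ * φ' = φ') {P₁ Q₁ : Matrix n₁ n₁ R} {P₂ Q₂ : Matrix n₂ n₂ R}
    (p1 : φ' * φ * P₁ = P₁ * (φ' * φ)) (p2 : φ * φ' * P₂ = P₂ * (φ * φ'))
    (q1 : φ * Q₁ = P₂ * φ) (q2 : φ' * Q₂ = P₁ * φ') (q3 : φ' * φ * Q₁ = Q₁ * (φ' * φ))
    (q4 : φ * φ' * Q₂ = Q₂ * (φ * φ')) :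
    SW φ φ' * fromBlocks (P₁ * (1 - φ' * φ) + Q₁ * (φ' * φ)) 0 0 (P₂ * (1 - φ * φ') + Q₂ * (φ * φ')) =
      fromBlocks P₁ 0 0 P₂ * SW φ φ' := by
  have i1 : φ' * φ * (φ' * φ) = φ' * φ := by rw [← Matrix.mul_assoc, h2]
  have i2 : φ * φ' * (φ * φ') = φ * φ' := by rw [← Matrix.mul_assoc, h1]
  rw [SW, fromBlocks_multiply, fromBlocks_multiply]
  simp only [Matrix.mul_zero, Matrix.zero_mul, add_zero, zero_add]
  rw [swa_diag i1 p1 q3, swa_diag i2 p2 q4, Matrix.neg_mul, swa_half h1 p1 q1, swa_half h2 p2 q2,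
    Matrix.mul_neg]

/-- the second quarter turn commutes with the bent dihedral group -/
theorem swa_core {k : BT} (hk : ec k = 1) {Θ : G →* Matrix (n₁ ⊕ n₂) (n₁ ⊕ n₂) R}
    {φ : Matrix n₂ n₁ R} {φ' : Matrix n₁ n₂ R} (h1 : φ * φ' * φ = φ) (h2 : φ' * φ * φ' = φ')
    {b₁ s₁ : Matrix n₁ n₁ R} {b₂ s₂ : Matrix n₂ n₂ R} (b13 : b₁ * b₁ * b₁ = 1) (b23 : b₂ * b₂ * b₂ = 1)
    (s12 : s₁ * s₁ = 1) (sb : s₁ * b₁ = b₁ * b₁ * s₁) (hs : φ * s₁ = s₂ * φ) (hs' : φ' * s₂ = s₁ * φ')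
    (hb : b₂ * φ * b₁ = φ) (hb' : b₁ * φ' * b₂ = φ') (hS : IsUnit (SW φ φ'))
    (hΘb : SW φ φ' * Θ (eb k) = fromBlocks b₁ 0 0 b₂ * SW φ φ') (hΘs : Θ (es k) = fromBlocks s₁ 0 0 s₂) :
    SW (-(φ * s₁)) (-(s₁ * φ')) ∈ El k Θ ∧ SW φ φ' * SW (-(φ * s₁)) (-(s₁ * φ')) =
      fromBlocks (1 - φ' * φ + s₁ * (φ' * φ)) 0 0 (1 - φ * φ' + s₂ * (φ * φ')) := by
  have q1 : φ * (b₁ * b₁) = b₂ * φ := by
    conv_lhs => rw [← hb]
    rw [Matrix.mul_assoc, ← mul_assoc, b13, Matrix.mul_one]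
  have q2 : φ' * (b₂ * b₂) = b₁ * φ' := by
    conv_lhs => rw [← hb']
    rw [Matrix.mul_assoc, ← mul_assoc, b23, Matrix.mul_one]
  have r1 : φ * b₁ = b₂ * b₂ * φ := by
    conv_rhs => rw [← hb]
    rw [← Matrix.mul_assoc, ← Matrix.mul_assoc, b23, Matrix.one_mul]
  have r2 : φ' * b₂ = b₁ * b₁ * φ' := by
    conv_rhs => rw [← hb']
    rw [← Matrix.mul_assoc, ← Matrix.mul_assoc, b13, Matrix.one_mul]
  have p1 : φ' * φ * b₁ = b₁ * (φ' * φ) := by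
    rw [Matrix.mul_assoc, r1, ← Matrix.mul_assoc, q2, Matrix.mul_assoc]
  have p2 : φ * φ' * b₂ = b₂ * (φ * φ') := by
    rw [Matrix.mul_assoc, r2, ← Matrix.mul_assoc, q1, Matrix.mul_assoc]
  have q3 : φ' * φ * (b₁ * b₁) = b₁ * b₁ * (φ' * φ) := by
    rw [← mul_assoc, p1, mul_assoc, p1, mul_assoc]
  have q4 : φ * φ' * (b₂ * b₂) = b₂ * b₂ * (φ * φ') := by
    rw [← mul_assoc, p2, mul_assoc, p2, mul_assoc]
  have es1 : φ' * φ * s₁ = s₁ * (φ' * φ) := by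
    rw [Matrix.mul_assoc, hs, ← Matrix.mul_assoc, hs', Matrix.mul_assoc]
  have hD := hS.mul_left_cancel (hΘb.trans (swa_conj h1 h2 p1 p2 q1 q2 q3 q4).symm)
  have e1 : -(s₁ * φ') * -(φ * s₁) = φ' * φ := by
    rw [Matrix.neg_mul, Matrix.mul_neg, neg_neg, Matrix.mul_assoc, ← Matrix.mul_assoc φ', es1, ← mul_assoc,
      s12, one_mul]
  have e2 : -(φ * s₁) * -(s₁ * φ') = φ * φ' := by
    rw [Matrix.neg_mul, Matrix.mul_neg, neg_neg, Matrix.mul_assoc, ← Matrix.mul_assoc s₁, s12, Matrix.one_mul]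
  have e3 : φ' * φ * -(s₁ * φ') = -(s₁ * φ') := by
    rw [Matrix.mul_neg, ← Matrix.mul_assoc, es1, Matrix.mul_assoc, h2]
  have e4 : φ * φ' * -(φ * s₁) = -(φ * s₁) := by
    rw [Matrix.mul_neg, ← Matrix.mul_assoc, h1]
  have sb' : s₁ * (b₁ * b₁) = b₁ * s₁ := by
    rw [← mul_assoc, sb, mul_assoc, sb, ← mul_assoc, ← mul_assoc, b13, one_mul]
  have z3 : (1 - φ' * φ) * φ' = 0 := by rw [Matrix.sub_mul, Matrix.one_mul, h2, sub_self]
  have z4 : (1 - φ * φ') * φ = 0 := by rw [Matrix.sub_mul, Matrix.one_mul, h1, sub_self]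
  constructor
  · refine swa_mem_El (by rw [e1, e3]) ?_
    rintro x (rfl | rfl | rfl)
    · refine ⟨_, _, hD, ?_, ?_⟩
      · rw [Matrix.neg_mul, Matrix.mul_neg, ← Matrix.mul_assoc _ φ, Matrix.add_mul, Matrix.mul_assoc b₂, z4,
          Matrix.mul_zero, zero_add, Matrix.mul_assoc (b₂ * b₂), h1, ← r1, hs, Matrix.mul_assoc s₂,
          swa_half h1 p1 q1, ← q1, ← Matrix.mul_assoc, ← hs, Matrix.mul_assoc, sb', Matrix.mul_assoc]
      · rw [Matrix.neg_mul, Matrix.mul_neg, Matrix.mul_assoc, swa_half h2 p2 q2, ← hs', ← Matrix.mul_assoc _ φ',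
          Matrix.add_mul, Matrix.mul_assoc b₁, z3, Matrix.mul_zero, zero_add, Matrix.mul_assoc (b₁ * b₁), h2,
          Matrix.mul_assoc, hs', ← Matrix.mul_assoc, ← Matrix.mul_assoc, sb]
    · refine ⟨_, _, hΘs, ?_, ?_⟩
      · rw [Matrix.neg_mul, Matrix.mul_neg, ← Matrix.mul_assoc, hs]
      · rw [Matrix.neg_mul, Matrix.mul_neg, Matrix.mul_assoc, hs']
    · exact ⟨1, 1, by rw [hk, map_one, fromBlocks_one], by rw [Matrix.mul_one, Matrix.one_mul],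
        by rw [Matrix.mul_one, Matrix.one_mul]⟩
  · rw [swa_mul h1 h2 e1 e2 e3 e4, Matrix.mul_neg, Matrix.mul_neg, sub_neg_eq_add, sub_neg_eq_add,
      ← Matrix.mul_assoc φ', es1, ← Matrix.mul_assoc φ, hs, Matrix.mul_assoc s₂]

theorem swa_cube {M : Type} [Monoid M] (θ : G →* M) {b : G} (hb : b ^ 3 = 1) : θ b * θ b * θ b = 1 := by
  rw [← map_mul, ← map_mul, ← pow_three', hb, map_one]

theorem swa_sq {M : Type} [Monoid M] (θ : G →* M) {s : G} (hs : s * s = 1) : θ s * θ s = 1 := by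
  rw [← map_mul, hs, map_one]

theorem swa_dih {M : Type} [Monoid M] (θ : G →* M) {s b : G} (hb : b ^ 3 = 1) (h : s * b = b⁻¹ * s) :
    θ s * θ b = θ b * θ b * θ s := by
  rw [← map_mul, ← map_mul, ← map_mul, h, inv_eq_of_mul_eq_one_left (by rw [← pow_three', hb])]

theorem SW_mem_El {k : BT} {θ₁ : G →* Matrix n₁ n₁ R} {θ₂ : G →* Matrix n₂ n₂ R} {φ : Matrix n₂ n₁ R}
    {φ' : Matrix n₁ n₂ R} (h2 : φ' * φ * φ' = φ') (hφ : Intw k θ₁ θ₂ φ) (hφ' : Intw k θ₂ θ₁ φ') :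
    SW φ φ' ∈ El k (sumRep θ₁ θ₂) := by
  exact swa_mem_El h2 fun x hx => ⟨_, _, rfl, hφ x hx, hφ' x hx⟩

/-- universality: the scalar `x` on the summand of `θ₁` cancels against `x⁻¹` on the summand of `θ₂` -/
theorem univ_tw [IsDomain R] {w : Matrix m m (ZG G)} (hw : IsUnit w) {k : BT}
    {θ₁ θ₁' : G →* Matrix n₁ n₁ R} {θ₂ θ₂' : G →* Matrix n₂ n₂ R} {φ : Matrix n₂ n₁ R} {φ' : Matrix n₁ n₂ R}
    (h1 : φ * φ' * φ = φ) (h2 : φ' * φ * φ' = φ') (hφ : Intw k θ₁ θ₂ φ) (hφ' : Intw k θ₂ θ₁ φ')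
    {x y : R} (hxy : x * y = 1) (b₁ : Bent k θ₁ θ₁' (tw (φ' * φ) x)) (b₂ : Bent k θ₂ θ₂' (tw (φ * φ') y)) :
    DD θ₁' w * DD θ₂' w = DD θ₁ w * DD θ₂ w := by
  have hyx : y * x = 1 := by rw [mul_comm, hxy]
  have a1 := SW_mem_El h2 hφ hφ'
  have e1 : -(y • φ') * -(x • φ) = φ' * φ := by
    rw [Matrix.neg_mul, Matrix.mul_neg, neg_neg, Matrix.smul_mul, Matrix.mul_smul, smul_smul, hyx, one_smul]
  have e2 : -(x • φ) * -(y • φ') = φ * φ' := by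
    rw [Matrix.neg_mul, Matrix.mul_neg, neg_neg, Matrix.smul_mul, Matrix.mul_smul, smul_smul, hxy, one_smul]
  have e3 : φ' * φ * -(y • φ') = -(y • φ') := by rw [Matrix.mul_neg, Matrix.mul_smul, h2]
  have e4 : φ * φ' * -(x • φ) = -(x • φ) := by rw [Matrix.mul_neg, Matrix.mul_smul, h1]
  have a2 : SW (-(x • φ)) (-(y • φ')) ∈ El k (sumRep θ₁ θ₂) :=
    SW_mem_El (by rw [e1, e3])
      (fun g hg => by rw [Matrix.neg_mul, Matrix.mul_neg, Matrix.smul_mul, Matrix.mul_smul, hφ g hg])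
      (fun g hg => by rw [Matrix.neg_mul, Matrix.mul_neg, Matrix.smul_mul, Matrix.mul_smul, hφ' g hg])
  have a3 := mul_mem a1 a2
  rw [swa_mul h1 h2 e1 e2 e3 e4, Matrix.mul_neg, Matrix.mul_neg, sub_neg_eq_add, sub_neg_eq_add,
    Matrix.mul_smul, Matrix.mul_smul] at a3
  rw [← DD_sum, ← DD_sum]
  exact DD_bent hw a3 (b₁.sum b₂)

/-- the partial automorphism `ρ ↦ ρ^11`, `t ↦ t σ` on the summand `e` -/
structure SwA (θ θ' : G →* Matrix n n R) (e : Matrix n n R) : Prop where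
  t : θ' gt = θ gt * (1 - e + θ gs * e)
  u : θ' gu = θ gu
  s : θ' gs = θ gs
  r : θ' gr = θ gr * (1 - e) + θ gr ^ 11 * e

section SwapB

variable {M : Type} [Ring M] {e r s : M}

/-- `a` on the complement of `e`, `b` on `e` -/
def swbMix (e a b : M) : M := a * (1 - e) + b * e

theorem swb_self (e a : M) : swbMix e a a = a := by rw [swbMix, ← mul_add, sub_add_cancel, mul_one]

theorem swb_mul (he : e * e = e) (a b : M) {c d : M} (hc : Commute e c) (hd : Commute e d) :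
    swbMix e a b * swbMix e c d = swbMix e (a * c) (b * d) := by
  have h1 : e * (c * e) = c * e := by rw [← mul_assoc, hc.eq, mul_assoc, he]
  have h2 : e * (d * e) = d * e := by rw [← mul_assoc, hd.eq, mul_assoc, he]
  simp only [swbMix, mul_add, add_mul, mul_sub, sub_mul, mul_one, mul_assoc, h1, h2, hc.eq]
  abel

theorem swb_pow (he : e * e = e) {a b : M} (ha : Commute e a) (hb : Commute e b) (k : ℕ) :
    swbMix e a b ^ k = swbMix e (a ^ k) (b ^ k) := by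
  induction k with
  | zero => rw [pow_zero, pow_zero, pow_zero, swb_self]
  | succ k ih => rw [pow_succ, ih, swb_mul he _ _ ha hb, ← pow_succ, ← pow_succ]

theorem swb_r_pow (he : e * e = e) (hr : Commute e r) (h30 : r ^ 30 = 1) (k j l : ℕ)
    (h : 11 * k = 30 * j + l) : swbMix e r (r ^ 11) ^ k = swbMix e (r ^ k) (r ^ l) := by
  rw [swb_pow he hr (hr.pow_right 11), ← pow_mul, h, pow_add, pow_mul, h30, one_pow, one_mul]

theorem swb_g_sq (he : e * e = e) (hs : Commute e s) (h2 : s * s = 1) :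
    swbMix e 1 s * swbMix e 1 s = 1 := by
  rw [swb_mul he _ _ (Commute.one_right e) hs, h2, one_mul, swb_self]

theorem swb_conj (he : e * e = e) (hs : Commute e s) (hr : Commute e r) (h30 : r ^ 30 = 1)
    (h20 : s * r ^ 20 * s = r ^ 10) (t ti : M) :
    t * swbMix e 1 s * swbMix e r (r ^ 11) ^ 10 * (swbMix e 1 s * ti) = t * r ^ 10 * ti := by
  have : swbMix e 1 s * swbMix e r (r ^ 11) ^ 10 * swbMix e 1 s = r ^ 10 := by
    rw [swb_r_pow he hr h30 10 3 20 rfl, swb_mul he _ _ (hr.pow_right _) (hr.pow_right _),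
      swb_mul he _ _ (Commute.one_right e) hs, h20, one_mul, mul_one, swb_self]
  rw [← this]
  simp only [mul_assoc]

theorem swb_h11 (θ : G →* M) : θ gs * θ gr ^ 11 * θ gs * θ gr ^ 11 = 1 := by
  have h : gs * gr ^ 11 * gs * gr ^ 11 = 1 := by
    rw [gs_gr_pow_pa, mul_assoc (gr ^ 11)⁻¹, gs_sq, mul_one, inv_mul_cancel]
  simpa only [map_mul, map_pow, map_one] using congrArg θ h

theorem swb_h20 (θ : G →* M) : θ gs * θ gr ^ 20 * θ gs = θ gr ^ 10 := by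
  have h : gs * gr ^ 20 * gs = gr ^ 10 := by
    rw [gs_gr_pow_pa, mul_assoc, gs_sq, mul_one, inv_eq_iff_mul_eq_one, ← pow_add, gr_pow]
  simpa only [map_mul, map_pow] using congrArg θ h

theorem swb_rd (θ : G →* M) (he : e * e = e) (hs : Commute e (θ gs)) (hr : Commute e (θ gr)) :
    RD (θ gt * swbMix e 1 (θ gs)) (swbMix e 1 (θ gs) * θ gt⁻¹) (θ gu) (θ gu⁻¹) (θ gs)
      (swbMix e (θ gr) (θ gr ^ 11)) := by
  have h := rd_of_hom θ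
  have hg := swb_g_sq he hs h.s_sq
  have h15 : swbMix e (θ gr) (θ gr ^ 11) ^ 15 = θ gr ^ 15 := by
    rw [swb_r_pow he hr h.r_pow 15 5 15 rfl, swb_self]
  have h6 : swbMix e (θ gr) (θ gr ^ 11) ^ 6 = θ gr ^ 6 := by
    rw [swb_r_pow he hr h.r_pow 6 2 6 rfl, swb_self]
  have hc := swb_conj he hs hr h.r_pow (swb_h20 θ) (θ gt) (θ gt⁻¹)
  refine ⟨?_, ?_, h.u_ui, h.ui_u, ?_, h.s_sq, ?_, ?_, ?_, ?_, ?_⟩
  · rw [mul_assoc, ← mul_assoc (swbMix _ _ _), hg, one_mul, h.t_ti]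
  · rw [mul_assoc, ← mul_assoc (θ gt⁻¹), h.ti_t, one_mul, hg]
  · rw [swb_r_pow he hr h.r_pow 30 11 0 rfl, h.r_pow, pow_zero, swb_self]
  · have h1 : θ gs * swbMix e (θ gr) (θ gr ^ 11) = swbMix e (θ gs * θ gr) (θ gs * θ gr ^ 11) := by
      rw [← swb_mul he _ _ hr (hr.pow_right 11), swb_self]
    rw [mul_assoc, h1, swb_mul he _ _ (hs.mul_right hr) (hs.mul_right (hr.pow_right 11)),
      ← mul_assoc, ← mul_assoc, h.s_r, swb_h11, swb_self]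
  · have h1 : swbMix e 1 (θ gs) * θ gs = θ gs * swbMix e 1 (θ gs) := by
      have a1 := swb_mul he 1 (θ gs) hs hs
      have a2 := swb_mul he (θ gs) (θ gs) (Commute.one_right e) hs
      rw [swb_self] at a1 a2
      rw [a1, a2, one_mul, mul_one]
    rw [h15, mul_assoc, h1, ← mul_assoc, h.t_s, mul_assoc]
  · rw [h15, h.u_sp]
  · rw [hc, h.s_bB]
  · rw [hc, h6, h.a_bZ]

end SwapB

theorem exists_swA (θ : G →* Matrix n n R) {e : Matrix n n R} (he : e * e = e) (hs : e * θ gs = θ gs * e)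
    (hr : e * θ gr = θ gr * e) : ∃ θ', SwA θ θ' e := by
  obtain ⟨θ', h1, h2, h3, h4⟩ := (swb_rd θ he hs hr).exists_hom
  exact ⟨θ', by rw [h1, swbMix, one_mul], h2, h3, h4⟩

theorem SwA.ga_eq {θ θ' : G →* Matrix n n R} {e : Matrix n n R} (h : SwA θ θ' e) (he : e * e = e)
    (hr : e * θ gr = θ gr * e) : θ' ga = θ ga := by
  rw [ga, map_pow, map_pow, h.r]
  exact (swb_r_pow he hr (rd_of_hom θ).r_pow 6 2 6 rfl).trans (swb_self _ _)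

theorem SwA.gc_eq {θ θ' : G →* Matrix n n R} {e : Matrix n n R} (h : SwA θ θ' e) (he : e * e = e)
    (hr : e * θ gr = θ gr * e) : θ' gc = θ gc := by
  rw [gc, map_pow, map_pow, h.r]
  exact (swb_r_pow he hr (rd_of_hom θ).r_pow 15 5 15 rfl).trans (swb_self _ _)

theorem SwA.gbZ_eq {θ θ' : G →* Matrix n n R} {e : Matrix n n R} (h : SwA θ θ' e) (he : e * e = e)
    (hs : e * θ gs = θ gs * e) (hr : e * θ gr = θ gr * e) : θ' gbZ = θ gbZ := by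
  have hd := swb_rd θ he hs hr
  have hd' := rd_of_hom θ'
  have ht : θ' gt = θ gt * swbMix e 1 (θ gs) := by rw [h.t, swbMix, one_mul]
  have hu : θ' gu⁻¹ = θ gu⁻¹ := left_inv_eq_right_inv hd'.ui_u (by rw [h.u]; exact hd.u_ui)
  have hti : θ' gt⁻¹ = swbMix e 1 (θ gs) * θ gt⁻¹ :=
    left_inv_eq_right_inv hd'.ti_t (by rw [ht]; exact hd.t_ti)
  have hr' : θ' gr = swbMix e (θ gr) (θ gr ^ 11) := h.r
  simp only [gbZ, gbB, gb, map_mul, map_pow]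
  rw [hu, hti, ht, hr', h.u, swb_conj he hs hr (rd_of_hom θ).r_pow (swb_h20 θ)]

theorem swa_pow {φ : Matrix n₂ n₁ R} {A : Matrix n₁ n₁ R} {B : Matrix n₂ n₂ R} (h : φ * A = B * φ) (j : ℕ) :
    φ * A ^ j = B ^ j * φ := by
  induction j with
  | zero => rw [pow_zero, pow_zero, Matrix.mul_one, Matrix.one_mul]
  | succ j ih => rw [pow_succ, ← Matrix.mul_assoc, ih, Matrix.mul_assoc, h, ← Matrix.mul_assoc, ← pow_succ]

/-- an `A`-bend by `SW φ φ'` followed by a `T`-bend by `SW (-φ σ) (-σ φ')` -/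
theorem swapA [IsDomain R] {w : Matrix m m (ZG G)} (hw : IsUnit w)
    {θ₁ θ₁' : G →* Matrix n₁ n₁ R} {θ₂ θ₂' : G →* Matrix n₂ n₂ R} {φ : Matrix n₂ n₁ R} {φ' : Matrix n₁ n₂ R}
    (h1 : φ * φ' * φ = φ) (h2 : φ' * φ * φ' = φ') (hφ : Intw .A θ₁ θ₂ φ) (hφ' : Intw .A θ₂ θ₁ φ')
    (hb : θ₂ gb * φ * θ₁ gb = φ) (hb' : θ₁ gb * φ' * θ₂ gb = φ')
    (s₁ : SwA θ₁ θ₁' (φ' * φ)) (s₂ : SwA θ₂ θ₂' (φ * φ')) :
    DD θ₁' w * DD θ₂' w = DD θ₁ w * DD θ₂ w := by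
  have a1 := SW_mem_El h2 hφ hφ'
  have u1 := isUnit_of_mem_El a1
  obtain ⟨Θ₁, hΘ₁⟩ := exists_bent .A _ u1 (intw_of_mem_El a1)
  have hgb : gs * gb = gb⁻¹ * gs := gs_gr_pow_pa 10
  obtain ⟨a2, hm⟩ := swa_core (k := .T) rfl h1 h2 (swa_cube θ₁ gb_pow) (swa_cube θ₂ gb_pow) (swa_sq θ₁ gs_sq)
    (swa_dih θ₁ gb_pow hgb) hφ.es_eq hφ'.es_eq hb hb' u1 hΘ₁.A_gb hΘ₁.gs_eq
  obtain ⟨Θ₂, hΘ₂⟩ := exists_bent .T _ (isUnit_of_mem_El a2) (intw_of_mem_El a2)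
  have ha : φ * θ₁ ga = θ₂ ga * φ := hφ.eb_eq
  have ha' : φ' * θ₂ ga = θ₁ ga * φ' := hφ'.eb_eq
  have hc : φ * θ₁ gc = θ₂ gc * φ := hφ.ec_eq
  have hc' : φ' * θ₂ gc = θ₁ gc * φ' := hφ'.ec_eq
  have r11 : gr ^ 11 = ga * (gb * gb) * gc := by
    rw [ga, gb, gc, ← pow_add, ← pow_add, ← pow_add, show 6 + (10 + 10) + 15 = 30 + 11 from rfl, pow_add,
      gr_pow, one_mul]
  have r11' : gr = (gr ^ 11) ^ 11 := by
    rw [← pow_mul, show 11 * 11 = 30 * 4 + 1 from rfl, pow_succ, pow_mul, gr_pow, one_pow, one_mul]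
  have q1 : φ * θ₁ gr ^ 11 = θ₂ gr * φ := by
    have : φ * (θ₁ gb * θ₁ gb) = θ₂ gb * φ := by
      conv_lhs => rw [← hb]
      rw [Matrix.mul_assoc, ← mul_assoc, swa_cube θ₁ gb_pow, Matrix.mul_one]
    rw [← map_pow, r11, gr_eq, map_mul, map_mul, map_mul, map_mul, map_mul, ← Matrix.mul_assoc,
      ← Matrix.mul_assoc, ha, Matrix.mul_assoc _ φ, this, Matrix.mul_assoc, Matrix.mul_assoc, hc,
      ← Matrix.mul_assoc, ← Matrix.mul_assoc]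
  have q2 : φ' * θ₂ gr ^ 11 = θ₁ gr * φ' := by
    have : φ' * (θ₂ gb * θ₂ gb) = θ₁ gb * φ' := by
      conv_lhs => rw [← hb']
      rw [Matrix.mul_assoc, ← mul_assoc, swa_cube θ₂ gb_pow, Matrix.mul_one]
    rw [← map_pow, r11, gr_eq, map_mul, map_mul, map_mul, map_mul, map_mul, ← Matrix.mul_assoc,
      ← Matrix.mul_assoc, ha', Matrix.mul_assoc _ φ', this, Matrix.mul_assoc, Matrix.mul_assoc, hc',
      ← Matrix.mul_assoc, ← Matrix.mul_assoc]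
  have q1' : φ * θ₁ gr = θ₂ gr ^ 11 * φ := by
    have := swa_pow q1 11
    rwa [← map_pow, ← map_pow, ← r11'] at this
  have q2' : φ' * θ₂ gr = θ₁ gr ^ 11 * φ' := by
    have := swa_pow q2 11
    rwa [← map_pow, ← map_pow, ← r11'] at this
  have p1 : φ' * φ * θ₁ gr = θ₁ gr * (φ' * φ) := by
    rw [Matrix.mul_assoc, q1', ← Matrix.mul_assoc, q2, Matrix.mul_assoc]
  have p2 : φ * φ' * θ₂ gr = θ₂ gr * (φ * φ') := by
    rw [Matrix.mul_assoc, q2', ← Matrix.mul_assoc, q1, Matrix.mul_assoc]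
  have hD := u1.mul_left_cancel (hΘ₁.2.2.2.trans
    (swa_conj h1 h2 p1 p2 q1 q2 (swa_pow p1 11) (swa_pow p2 11)).symm)
  have hE : Θ₂ = sumRep θ₁' θ₂' := by
    apply hom_ext
    · rw [hΘ₂.1, hΘ₁.1, mul_assoc]
      erw [hm]
      rw [sumRep_apply, sumRep_apply, fromBlocks_multiply, s₁.t, s₂.t]
      simp only [Matrix.mul_zero, Matrix.zero_mul, add_zero, zero_add]
      rfl
    · rw [hΘ₂.2.1, hΘ₁.2.1, sumRep_apply, sumRep_apply, s₁.u, s₂.u]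
    · rw [hΘ₂.2.2.1, hΘ₁.2.2.1, sumRep_apply, sumRep_apply, s₁.s, s₂.s]
    · rw [hΘ₂.2.2.2, hD, sumRep_apply, s₁.r, s₂.r]
  rw [← DD_sum, ← DD_sum, ← hE, DD_bent hw a2 hΘ₂, DD_bent hw a1 hΘ₁]

/-- a `Y`-bend by `SW φ φ'` followed by a `Z`-bend by `SW (-φ σ') (-σ' φ')` -/
theorem swapZ [IsDomain R] {w : Matrix m m (ZG G)} (hw : IsUnit w)
    {θ₁ θ₁' : G →* Matrix n₁ n₁ R} {θ₂ θ₂' : G →* Matrix n₂ n₂ R} {φ : Matrix n₂ n₁ R} {φ' : Matrix n₁ n₂ R}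
    (h1 : φ * φ' * φ = φ) (h2 : φ' * φ * φ' = φ') (hφ : Intw .Y θ₁ θ₂ φ) (hφ' : Intw .Y θ₂ θ₁ φ')
    (hb : θ₂ gbZ * φ * θ₁ gbZ = φ) (hb' : θ₁ gbZ * φ' * θ₂ gbZ = φ')
    (b₁ : Bent .Z θ₁ θ₁' (1 - φ' * φ + θ₁ gsp * (φ' * φ)))
    (b₂ : Bent .Z θ₂ θ₂' (1 - φ * φ' + θ₂ gsp * (φ * φ'))) :
    DD θ₁' w * DD θ₂' w = DD θ₁ w * DD θ₂ w := by
  have a1 := SW_mem_El h2 hφ hφ'
  have u1 := isUnit_of_mem_El a1
  obtain ⟨Θ₁, hΘ₁⟩ := exists_bent .Y _ u1 (intw_of_mem_El a1)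
  obtain ⟨a2, hm⟩ := swa_core (k := .Z) rfl h1 h2 (swa_cube θ₁ gbZ_pow) (swa_cube θ₂ gbZ_pow)
    (swa_sq θ₁ gsp_sq) (swa_dih θ₁ gbZ_pow gsp_gbZ) hφ.es_eq hφ'.es_eq hb hb' u1 hΘ₁.Y_gbZ
    (hΘ₁.gsp_eq (by decide))
  obtain ⟨Θ₂, hΘ₂⟩ := exists_bent .Z _ (isUnit_of_mem_El a2) (intw_of_mem_El a2)
  have hΘ₁' : Bent .Z (sumRep θ₁ θ₂) Θ₁ (SW φ φ') := hΘ₁
  have h3 := hΘ₁'.trans hΘ₂
  rw [hm] at h3
  rw [← DD_sum, ← DD_sum, (b₁.sum b₂).unique h3, DD_bent hw a2 hΘ₂, DD_bent hw a1 hΘ₁]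

end Crest.Agent.R251
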