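import Crest.Agent.R251.K.Flip
import Crest.Agent.R251.K.NT

/-!
# Row 251, K₁ part: the determinants of the monomial representations

`P₀ = sw ⊕ sw ⊕ sw` conjugates `M(α⁻¹, β⁻¹)` to `M(α, β)` with `t` flipped on `n'` (type `T`, two lines) and `u` flipped on `f`
(type `Z`) and on `n` (type `Y`, two lines).
-/

set_option autoImplicit false

open Matrix

namespace Crest.Agent.R251

variable {m : Type} [Fintype m] [DecidableEq m] {w : Matrix m m (ZG G)} {X : Bool}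

/-- the sign change on block `i` -/
noncomputable def upF (i : Fin 3) : Matrix (Fin 6) (Fin 6) ℂ := tw (blk ℂ i * (blk ℂ i)ᵀ) (-1)

theorem upF_eq (i : Fin 3) :
    upF i = diagonal fun p : Fin 6 => if p.val / 2 = i.val then -1 else 1 := by
  ext p q
  fin_cases i <;> fin_cases p <;> fin_cases q <;>
    simp [upF, tw, blk, Matrix.mul_apply, Fin.sum_univ_two]

theorem up_flip (hw : IsUnit w) {k : BT} {θ : G →* Matrix (Fin 6) (Fin 6) ℂ} (i : Fin 3) {β : ℂ}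
    (hk : k = .T ∨ k = .Z ∨ (k = .Y ∧ β = 1)) (hβ : β ^ 3 = 1) {D : Fin 6 → ℂ}
    {S : Matrix (Fin 6) (Fin 6) ℂ} (hD : θ (eb k) = diagonal D) (hS : θ (es k) = S) (hS' : Sᵀ = S)
    (h1 : diagonal D * blk ℂ i = blk ℂ i * !![β, 0; 0, β ^ 2])
    (h2 : S * blk ℂ i = blk ℂ i * !![(0 : ℂ), -1; -1, 0]) :
    ∃ θ', Bent k θ θ' (upF i) ∧ Intw k θ θ (upF i) ∧ DD θ' w = DD θ w := by
  have hkA : k ≠ .A := by rcases hk with rfl | rfl | ⟨rfl, -⟩ <;> decide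
  have h0 : (blk ℂ i)ᵀ * blk ℂ i = 1 := by
    ext p q
    fin_cases i <;> fin_cases p <;> fin_cases q <;> simp [blk, Matrix.mul_apply, Fin.sum_univ_succ]
  have h3 : (!![β, 0; 0, β ^ 2] : Matrix (Fin 2) (Fin 2) ℂ)ᵀ = !![β, 0; 0, β ^ 2] := by
    ext p q
    fin_cases p <;> fin_cases q <;> rfl
  have h4 : (!![0, -1; -1, 0] : Matrix (Fin 2) (Fin 2) ℂ)ᵀ = !![0, -1; -1, 0] := by
    ext p q
    fin_cases p <;> fin_cases q <;> rfl
  have hs : Summand k θ (blk ℂ i) (blk ℂ i)ᵀ !![β, 0; 0, β ^ 2] !![0, -1; -1, 0] := by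
    refine ⟨h0, hD ▸ h1, ?_, hS ▸ h2, ?_⟩
    · have := congrArg transpose h1
      rwa [transpose_mul, transpose_mul, diagonal_transpose, h3, ← hD] at this
    · have := congrArg transpose h2
      rwa [transpose_mul, transpose_mul, hS', h4, ← hS] at this
  have he : blk ℂ i * (blk ℂ i)ᵀ * (blk ℂ i * (blk ℂ i)ᵀ) = blk ℂ i * (blk ℂ i)ᵀ := by
    rw [Matrix.mul_assoc, ← Matrix.mul_assoc (blk ℂ i)ᵀ, h0, Matrix.one_mul]
  have hi : Intw k θ θ (upF i) := (hs.intw hkA).to_tw _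
  obtain ⟨θ', hθ'⟩ := exists_bent k θ (g := upF i) (isUnit_tw he (-1)) hi
  exact ⟨θ', hθ', hi, flip_plane hw hk hβ (.inr rfl) hs hθ'⟩

/-- `sw ⊕ sw ⊕ sw` -/
def upP : Matrix (Fin 6) (Fin 6) ℂ :=
  !![0, 1, 0, 0, 0, 0; 1, 0, 0, 0, 0, 0; 0, 0, 0, 1, 0, 0; 0, 0, 1, 0, 0, 0;
    0, 0, 0, 0, 0, 1; 0, 0, 0, 0, 1, 0]

/-- the underlying permutation -/
def upS : Fin 6 → Fin 6 := ![1, 0, 3, 2, 5, 4]

theorem upP_conj (A : Matrix (Fin 6) (Fin 6) ℂ) (p q : Fin 6) :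
    (upP * A * upP) p q = A (upS p) (upS q) := by
  have h1 : ∀ (B : Matrix (Fin 6) (Fin 6) ℂ) p q, (upP * B) p q = B (upS p) q := by
    intro B p q
    fin_cases p <;> simp [upP, upS, Matrix.mul_apply, Fin.sum_univ_succ]
  have h2 : ∀ (B : Matrix (Fin 6) (Fin 6) ℂ) p q, (B * upP) p q = B p (upS q) := by
    intro B p q
    fin_cases q <;> simp [upP, upS, Matrix.mul_apply, Fin.sum_univ_succ]
  rw [h2, h1]

theorem upP_sq : upP * upP = 1 := by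
  ext p q
  have h := upP_conj 1 p q
  rw [Matrix.mul_one] at h
  rw [h, Matrix.one_apply, Matrix.one_apply]
  fin_cases p <;> fin_cases q <;> simp [upS]

theorem upP_T : upP * MT ℂ * upP = MT ℂ * upF 2 := by
  ext p q
  rw [upP_conj, upF_eq, mul_diagonal]
  fin_cases p <;> fin_cases q <;> simp [upS, MT]

theorem upP_U (X : Bool) : upP * MU ℂ X * upP = MU ℂ X * upF 0 * upF 1 := by
  ext p q
  rw [upP_conj, upF_eq, upF_eq, mul_diagonal, mul_diagonal]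
  cases X <;> fin_cases p <;> fin_cases q <;> simp [upS, MU]

theorem upP_S : upP * MS ℂ * upP = MS ℂ := by
  ext p q
  rw [upP_conj]
  fin_cases p <;> fin_cases q <;> simp [upS, MS]

theorem upP_R {α β : ℂ} (hα : α ^ 5 = 1) (hβ : β ^ 3 = 1) :
    upP * MR (α ^ 4) (β ^ 2) * upP = MR α β := by
  have h1 : (α ^ 4) ^ 4 = α := by linear_combination (α ^ 11 + α ^ 6 + α) * hα
  have h2 : (β ^ 2) ^ 2 = β := by linear_combination β * hβ
  ext p q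
  rw [upP_conj]
  fin_cases p <;> fin_cases q <;> simp [upS, MR, h1, h2]

theorem up_MS : (MS ℂ)ᵀ = MS ℂ := by
  ext p q
  fin_cases p <;> fin_cases q <;> rfl

theorem up_MSp : (MSp ℂ)ᵀ = MSp ℂ := by
  ext p q
  fin_cases p <;> fin_cases q <;> rfl

theorem ups_symm (hw : IsUnit w) {θ θ' : G →* Matrix (Fin 6) (Fin 6) ℂ} {α β : ℂ} (h : IsM X θ α β)
    (h' : IsM X θ' (α ^ 4) (β ^ 2)) : DD θ' w = DD θ w := by
  obtain ⟨θ₁, b₁, i₁, d₁⟩ := up_flip hw (k := .T) (θ := θ) 2 (β := 1) (.inl rfl) (one_pow 3)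
    h.gb_eq h.s up_MS
    (by
      ext p q
      fin_cases p <;> fin_cases q <;> simp [blk, Matrix.mul_apply, Fin.sum_univ_succ])
    (by
      ext p q
      fin_cases p <;> fin_cases q <;> simp [blk, MS, Matrix.mul_apply, Fin.sum_univ_succ])
  have hZ : θ₁ gbZ = MZ β X := (b₁.T_gbZ i₁.eb_eq).trans h.gbZ_eq
  have hp₁ : θ₁ gsp = MSp ℂ := (b₁.gsp_eq (by decide)).trans h.gsp_eq
  obtain ⟨θ₂, b₂, d₂⟩ : ∃ θ₂, Bent .Z θ₁ θ₂ (upF 0) ∧ DD θ₂ w = DD θ₁ w := by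
    have h2 : MSp ℂ * blk ℂ 0 = blk ℂ 0 * !![(0 : ℂ), -1; -1, 0] := by
      ext p q
      fin_cases p <;> fin_cases q <;> simp [blk, MSp, Matrix.mul_apply, Fin.sum_univ_succ]
    cases X
    · obtain ⟨θ₂, b₂, -, d₂⟩ := up_flip hw (k := .Z) (θ := θ₁) 0 (β := 1) (.inr (.inl rfl))
        (one_pow 3) hZ hp₁ up_MSp
        (by
          ext p q
          fin_cases p <;> fin_cases q <;> simp [blk, Matrix.mul_apply, Fin.sum_univ_succ]) h2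
      exact ⟨θ₂, b₂, d₂⟩
    · obtain ⟨θ₂, b₂, -, d₂⟩ := up_flip hw (k := .Z) (θ := θ₁) 0 (β := β) (.inr (.inl rfl))
        h.hβ hZ hp₁ up_MSp
        (by
          ext p q
          fin_cases p <;> fin_cases q <;> simp [blk, Matrix.mul_apply, Fin.sum_univ_succ]) h2
      exact ⟨θ₂, b₂, d₂⟩
  have ha₂ : θ₂ ga = diagonal ![α, α ^ 4, 1, 1, 1, 1] :=
    (b₂.ga_eq (by decide)).trans ((b₁.ga_eq (by decide)).trans h.ga_eq)
  have hp₂ : θ₂ gsp = MSp ℂ := (b₂.gsp_eq (by decide)).trans hp₁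
  obtain ⟨θ₃, b₃, -, d₃⟩ := up_flip hw (k := .Y) (θ := θ₂) 1 (β := 1) (.inr (.inr ⟨rfl, rfl⟩))
    (one_pow 3) ha₂ hp₂ up_MSp
    (by
      ext p q
      fin_cases p <;> fin_cases q <;> simp [blk, Matrix.mul_apply, Fin.sum_univ_succ])
    (by
      ext p q
      fin_cases p <;> fin_cases q <;> simp [blk, MSp, Matrix.mul_apply, Fin.sum_univ_succ])
  obtain ⟨t₁, u₁, s₁, r₁⟩ := b₁
  obtain ⟨t₂, u₂, s₂, r₂⟩ := b₂
  obtain ⟨t₃, u₃, s₃, r₃⟩ := b₃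
  have he : (conjHom upP upP upP_sq).comp θ' = θ₃ := by
    refine hom_ext ?_ ?_ ?_ ?_
    · rw [MonoidHom.comp_apply, conjHom_apply, h'.t, t₃, t₂, t₁, h.t, upP_T]
    · rw [MonoidHom.comp_apply, conjHom_apply, h'.u, u₃, u₂, u₁, h.u, upP_U]
    · rw [MonoidHom.comp_apply, conjHom_apply, h'.s, s₃, s₂, s₁, h.s, upP_S]
    · rw [MonoidHom.comp_apply, conjHom_apply, h'.r, r₃, r₂, r₁, h.r, upP_R h.hα h.hβ]
  rw [← DD_conjHom upP upP upP_sq θ' w, he, d₃, d₂, d₁]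

/-- `μ₅ × μ₃` -/
abbrev upO : Type := {p : ℂ × ℂ // p.1 ^ 5 = 1 ∧ p.2 ^ 3 = 1}

open Polynomial in
/-- the integral functions on `μ₅ × μ₃` -/
def upL : Subring (upO → ℂ) where
  carrier := {F | ∃ c₀ c₁ c₂ : ℤ[X], ∀ p : upO,
    F p = aeval p.1.1 c₀ + aeval p.1.1 c₁ * p.1.2 + aeval p.1.1 c₂ * p.1.2 ^ 2}
  mul_mem' := by
    rintro F F' ⟨c₀, c₁, c₂, hc⟩ ⟨d₀, d₁, d₂, hd⟩
    refine ⟨c₀ * d₀ + c₁ * d₂ + c₂ * d₁, c₀ * d₁ + c₁ * d₀ + c₂ * d₂, c₀ * d₂ + c₁ * d₁ + c₂ * d₀,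
      fun p => ?_⟩
    simp only [Pi.mul_apply, hc, hd, map_add, map_mul]
    linear_combination (aeval p.1.1 c₁ * aeval p.1.1 d₂ + aeval p.1.1 c₂ * aeval p.1.1 d₁ +
      aeval p.1.1 c₂ * aeval p.1.1 d₂ * p.1.2) * p.2.2
  one_mem' := ⟨1, 0, 0, fun p => by simp⟩
  add_mem' := by
    rintro F F' ⟨c₀, c₁, c₂, hc⟩ ⟨d₀, d₁, d₂, hd⟩
    refine ⟨c₀ + d₀, c₁ + d₁, c₂ + d₂, fun p => ?_⟩
    simp only [Pi.add_apply, hc, hd, map_add]
    ring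
  zero_mem' := ⟨0, 0, 0, fun p => by simp⟩
  neg_mem' := by
    rintro F ⟨c₀, c₁, c₂, hc⟩
    refine ⟨-c₀, -c₁, -c₂, fun p => ?_⟩
    simp only [Pi.neg_apply, hc, map_neg]
    ring

/-- the determinant comes from `ℤ[C₅ × C₃]` (any `w`): use the subring of integral functions on `μ₅ × μ₃` -/
theorem ups_isInt (X : Bool) (w : Matrix m m (ZG G)) : ∃ F : ℂ → ℂ → ℂ, IsInt F ∧
    ∀ (θ : G →* Matrix (Fin 6) (Fin 6) ℂ) (α β : ℂ), IsM X θ α β → DD θ w = F α β := by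
  let a : upL := ⟨fun p => p.1.1, Polynomial.X, 0, 0, fun p => by simp⟩
  let b : upL := ⟨fun p => p.1.2, 0, 1, 0, fun p => by simp⟩
  obtain ⟨Θ, hΘ⟩ := exists_isM X (α := a) (β := b) (Subtype.ext (funext fun p => p.2.1))
    (Subtype.ext (funext fun p => p.2.2))
  obtain ⟨c₀, c₁, c₂, hc⟩ := (DD Θ w).2
  refine ⟨fun α β => Polynomial.aeval α c₀ + Polynomial.aeval α c₁ * β + Polynomial.aeval α c₂ * β ^ 2,
    ⟨c₀, c₁, c₂, fun _ _ _ _ => rfl⟩, fun θ α β h => ?_⟩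
  let p : upO := ⟨(α, β), h.hα, h.hβ⟩
  let ev : upL →+* ℂ := (Pi.evalRingHom (fun _ => ℂ) p).comp upL.subtype
  have h1 : IsM X (mapRep ev Θ) α β := hΘ.map ev
  rw [h.unique h1, DD_map]
  exact hc p

theorem ups_pos (hw : IsUnit w) {θ θ' : G →* Matrix (Fin 6) (Fin 6) ℂ} {α β : ℂ} (hα : α ≠ 1) (hβ : β ≠ 1)
    (h : IsM X θ α β) (h' : IsM X θ' α (β ^ 2)) : ∃ r s : ℝ, DD θ w = r ∧ DD θ' w = s ∧ 0 < r * s := by
  obtain ⟨⟨w, w', hw1, hw2⟩, rfl⟩ := id hw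
  obtain ⟨F, hF, hFw⟩ := ups_isInt X w
  obtain ⟨F', hF', hFw'⟩ := ups_isInt X w'
  change ∃ r s : ℝ, DD θ w = r ∧ DD θ' w = s ∧ 0 < r * s
  rw [hFw θ α β h, hFw θ' α _ h']
  refine nt_pos hF hF' (fun a b ha hb => ?_) (fun a b ha hb => ?_) h.hα h.hβ hα hβ
  · obtain ⟨η, hη⟩ := exists_isM X ha hb
    rw [← hFw η a b hη, ← hFw' η a b hη, DD, DD, ← det_mul, ← blow_mul, hw1, blow_one, det_one]
  · obtain ⟨η, hη⟩ := exists_isM X ha hb
    obtain ⟨η', hη'⟩ := exists_isM X (α := a ^ 4) (β := b ^ 2)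
      (by rw [← pow_mul, mul_comm, pow_mul, ha, one_pow])
      (by rw [← pow_mul, mul_comm, pow_mul, hb, one_pow])
    rw [← hFw η a b hη, ← hFw η' _ _ hη']
    exact ups_symm hw hη hη'

end Crest.Agent.R251
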